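import Crest.Agent.Helper7.OT.Cells

set_option autoImplicit false

open MeasureTheory Filter Topology Set
open scoped RealInnerProductSpace

namespace Crest.Agent.Helper7.OT

variable {d : ℕ} {ι : Type*}

/-- integrals over cells as integrals over `K` of indicators -/
theorem integral_cell_eq {F : Type*} [NormedAddCommGroup F] [NormedSpace ℝ F]
    {K : Set (Eu d)} (hK : IsClosed K) (y : ι → Eu d) (c : ι → ℝ) (i : ι) (f : Eu d → F) :
    ∫ x in cell K y c i, f x = ∫ x in K, (cell K y c i).indicator f x := by
  rw [setIntegral_indicator (measurableSet_cell hK y c i),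
    Set.inter_eq_self_of_subset_right (cell_subset K y c i)]

theorem tendsto_integral_cell [Finite ι] {F : Type*} [NormedAddCommGroup F] [NormedSpace ℝ F]
    {α : Type*} {l : Filter α} [l.IsCountablyGenerated]
    {K : Set (Eu d)} (hK : IsClosed K) {y : ι → Eu d} (hy : Function.Injective y)
    {c : α → ι → ℝ} {c' : ι → ℝ} (hc : ∀ j, Tendsto (fun a => c a j) l (𝓝 (c' j))) (i : ι)
    {f : Eu d → F} (hf : IntegrableOn f K) :
    Tendsto (fun a => ∫ x in cell K y (c a) i, f x) l (𝓝 (∫ x in cell K y c' i, f x)) := by
  simp_rw [integral_cell_eq hK]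
  refine tendsto_integral_filter_of_dominated_convergence (fun x => ‖f x‖) ?_ ?_ hf.norm ?_
  · exact Eventually.of_forall fun a =>
      hf.aestronglyMeasurable.indicator (measurableSet_cell hK y (c a) i)
  · refine Eventually.of_forall fun a => Eventually.of_forall fun x => ?_
    exact norm_indicator_le_norm_self _ _
  · -- a.e. convergence
    have hnull : ∀ᵐ x ∂(volume : Measure (Eu d)), ∀ j, j ≠ i → ⟪x, y i - y j⟫ ≠ c' i - c' j := by
      rw [ae_all_iff]
      intro j
      by_cases hj : j = i
      · exact Eventually.of_forall fun x h => absurd hj h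
      · have := volume_hyperplane (v := y i - y j) (sub_ne_zero.2 fun h => hj (hy h).symm)
          (c' i - c' j)
        rw [← compl_mem_ae_iff] at this
        filter_upwards [this] with x hx _
        exact hx
    have hnull' := ae_restrict_of_ae (s := K) hnull
    filter_upwards [hnull', ae_restrict_mem hK.measurableSet] with x hx hxK
    refine tendsto_const_nhds.congr' ?_
    by_cases hin : x ∈ cell K y c' i
    · -- eventually in the cell
      have hstrict : ∀ j, j ≠ i → ⟪x, y j⟫ - c' j < ⟪x, y i⟫ - c' i := by
        intro j hj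
        have h1 := hin.2 j
        have h2 := hx j hj
        rw [inner_sub_right] at h2
        refine lt_of_le_of_ne h1 fun h => h2 (by linarith)
      have hev : ∀ᶠ a in l, ∀ j, ⟪x, y j⟫ - c a j ≤ ⟪x, y i⟫ - c a i := by
        rw [eventually_all]
        intro j
        by_cases hj : j = i
        · rw [hj]; exact Eventually.of_forall fun a => le_rfl
        · have t1 : Tendsto (fun a => ⟪x, y j⟫ - c a j) l (𝓝 (⟪x, y j⟫ - c' j)) :=
            tendsto_const_nhds.sub (hc j)
          have t2 : Tendsto (fun a => ⟪x, y i⟫ - c a i) l (𝓝 (⟪x, y i⟫ - c' i)) :=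
            tendsto_const_nhds.sub (hc i)
          exact (t1.eventually_lt t2 (hstrict j hj)).mono fun a ha => ha.le
      filter_upwards [hev] with a ha
      rw [indicator_of_mem hin, indicator_of_mem (show x ∈ cell K y (c a) i from ⟨hxK, ha⟩)]
    · -- eventually not in the cell
      have : ∃ j, ⟪x, y i⟫ - c' i < ⟪x, y j⟫ - c' j := by
        by_contra hcon
        push Not at hcon
        exact hin ⟨hxK, hcon⟩
      obtain ⟨j, hj⟩ := this
      have t1 : Tendsto (fun a => ⟪x, y j⟫ - c a j) l (𝓝 (⟪x, y j⟫ - c' j)) :=
        tendsto_const_nhds.sub (hc j)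
      have t2 : Tendsto (fun a => ⟪x, y i⟫ - c a i) l (𝓝 (⟪x, y i⟫ - c' i)) :=
        tendsto_const_nhds.sub (hc i)
      filter_upwards [t2.eventually_lt t1 hj] with a ha
      rw [indicator_of_notMem hin, indicator_of_notMem]
      intro h
      exact absurd (h.2 j) (not_le.2 ha)

end Crest.Agent.Helper7.OT
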