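import Mathlib

set_option autoImplicit false

open MeasureTheory Filter Topology Set
open scoped RealInnerProductSpace

namespace Crest.Agent.Helper7.OT

variable {d : ℕ} {ι : Type*}

/-- shorthand for Euclidean space -/
abbrev Eu (d : ℕ) := EuclideanSpace ℝ (Fin d)

/-- Laguerre cells of a family of points with weights, in a set `K` -/
def cell (K : Set (Eu d)) (y : ι → Eu d) (c : ι → ℝ) (i : ι) : Set (Eu d) :=
  {x | x ∈ K ∧ ∀ j, ⟪x, y j⟫ - c j ≤ ⟪x, y i⟫ - c i}

theorem cell_subset (K : Set (Eu d)) (y : ι → Eu d) (c : ι → ℝ) (i : ι) : cell K y c i ⊆ K :=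
  fun _ hx => hx.1

theorem isClosed_cell {K : Set (Eu d)} (hK : IsClosed K) (y : ι → Eu d) (c : ι → ℝ) (i : ι) :
    IsClosed (cell K y c i) := by
  have : cell K y c i = K ∩ ⋂ j, {x | ⟪x, y j⟫ - c j ≤ ⟪x, y i⟫ - c i} := by
    ext x; simp [cell]
  rw [this]
  refine hK.inter (isClosed_iInter fun j => isClosed_le ?_ ?_)
  · fun_prop
  · fun_prop

theorem measurableSet_cell {K : Set (Eu d)} (hK : IsClosed K) (y : ι → Eu d) (c : ι → ℝ) (i : ι) :
    MeasurableSet (cell K y c i) := (isClosed_cell hK y c i).measurableSet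

theorem iUnion_cell [Finite ι] [Nonempty ι] (K : Set (Eu d)) (y : ι → Eu d) (c : ι → ℝ) :
    ⋃ i, cell K y c i = K := by
  apply Set.Subset.antisymm
  · exact iUnion_subset fun i => cell_subset K y c i
  · intro x hx
    obtain ⟨i, hi⟩ := Finite.exists_max (fun j => ⟪x, y j⟫ - c j)
    exact mem_iUnion.2 ⟨i, hx, hi⟩

theorem volume_hyperplane {v : Eu d} (hv : v ≠ 0) (a : ℝ) :
    volume {x : Eu d | ⟪x, v⟫ = a} = 0 := by
  rcases Set.eq_empty_or_nonempty {x : Eu d | ⟪x, v⟫ = a} with h | ⟨x₀, hx₀⟩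
  · rw [h, measure_empty]
  · have hx₀' : ⟪x₀, v⟫ = a := hx₀
    have h1 : {x : Eu d | ⟪x, v⟫ = a} =
        (fun x => -x₀ + x) ⁻¹' ((LinearMap.ker (innerSL ℝ v : Eu d →L[ℝ] ℝ).toLinearMap : Submodule ℝ (Eu d)) : Set (Eu d)) := by
      ext x
      simp only [Set.mem_ofPred_eq, Set.mem_preimage, SetLike.mem_coe, LinearMap.mem_ker,
        ContinuousLinearMap.coe_coe, innerSL_apply_apply]
      rw [inner_add_right, inner_neg_right, real_inner_comm x v, real_inner_comm x₀ v, hx₀']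
      constructor
      · intro h; rw [h]; ring
      · intro h; linarith
    rw [h1, measure_preimage_add]
    refine Measure.addHaar_submodule volume _ ?_
    intro htop
    have : v ∈ (LinearMap.ker (innerSL ℝ v : Eu d →L[ℝ] ℝ).toLinearMap : Submodule ℝ (Eu d)) := by
      rw [htop]; trivial
    rw [LinearMap.mem_ker] at this
    simp only [ContinuousLinearMap.coe_coe, innerSL_apply_apply] at this
    exact hv (inner_self_eq_zero.1 this)

theorem aedisjoint_cell {K : Set (Eu d)} {y : ι → Eu d} (hy : Function.Injective y) (c : ι → ℝ) :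
    Pairwise (Function.onFun (AEDisjoint (volume : Measure (Eu d))) (cell K y c)) := by
  intro i j hij
  refine measure_mono_null ?_ (volume_hyperplane (v := y i - y j)
    (sub_ne_zero.2 fun h => hij (hy h)) (c i - c j))
  rintro x ⟨hi, hj⟩
  have h1 := hi.2 j
  have h2 := hj.2 i
  simp only [Set.mem_ofPred_eq]
  rw [inner_sub_right]
  linarith

theorem cell_combo {K : Set (Eu d)} (hK : Convex ℝ K) {y : ι → Eu d} {c0 c1 : ι → ℝ} {i : ι}
    {x0 x1 : Eu d} (h0 : x0 ∈ cell K y c0 i) (h1 : x1 ∈ cell K y c1 i) {s : ℝ} (hs0 : 0 ≤ s)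
    (hs1 : s ≤ 1) :
    (1 - s) • x0 + s • x1 ∈ cell K y (fun j => (1 - s) * c0 j + s * c1 j) i := by
  refine ⟨hK h0.1 h1.1 (by linarith) hs0 (by ring), fun j => ?_⟩
  rw [inner_add_left, inner_add_left, inner_smul_left, inner_smul_left, inner_smul_left,
    inner_smul_left]
  simp only [conj_trivial]
  have e0 := h0.2 j
  have e1 := h1.2 j
  nlinarith [mul_le_mul_of_nonneg_left e0 (sub_nonneg.2 hs1), mul_le_mul_of_nonneg_left e1 hs0]

variable [Fintype ι] [Nonempty ι]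

/-- sums of integrals over cells -/
theorem sum_integral_cell {F : Type*} [NormedAddCommGroup F] [NormedSpace ℝ F]
    {K : Set (Eu d)} (hK : IsClosed K) {y : ι → Eu d} (hy : Function.Injective y) (c : ι → ℝ)
    {f : Eu d → F} (hf : IntegrableOn f K) :
    ∑ i, ∫ x in cell K y c i, f x = ∫ x in K, f x := by
  have h := integral_iUnion_ae (μ := volume) (f := f) (s := cell K y c)
    (fun i => (measurableSet_cell hK y c i).nullMeasurableSet) (aedisjoint_cell hy c)
    (by rw [iUnion_cell]; exact hf)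
  rw [iUnion_cell, tsum_fintype] at h
  exact h.symm

/-- the max function -/
noncomputable def phi (y : ι → Eu d) (c : ι → ℝ) (x : Eu d) : ℝ :=
  Finset.univ.sup' Finset.univ_nonempty (fun i => ⟪x, y i⟫ - c i)

theorem le_phi (y : ι → Eu d) (c : ι → ℝ) (x : Eu d) (i : ι) : ⟪x, y i⟫ - c i ≤ phi y c x :=
  Finset.le_sup' (fun i => ⟪x, y i⟫ - c i) (Finset.mem_univ i)

theorem phi_le {y : ι → Eu d} {c : ι → ℝ} {x : Eu d} {a : ℝ} (h : ∀ i, ⟪x, y i⟫ - c i ≤ a) :
    phi y c x ≤ a := Finset.sup'_le _ _ fun i _ => h i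

theorem exists_phi_eq (y : ι → Eu d) (c : ι → ℝ) (x : Eu d) : ∃ i, phi y c x = ⟪x, y i⟫ - c i := by
  obtain ⟨i, _, hi⟩ := Finset.exists_mem_eq_sup' Finset.univ_nonempty (fun i => ⟪x, y i⟫ - c i)
  exact ⟨i, hi⟩

theorem phi_eq_of_mem_cell {K : Set (Eu d)} {y : ι → Eu d} {c : ι → ℝ} {x : Eu d} {i : ι}
    (h : x ∈ cell K y c i) : phi y c x = ⟪x, y i⟫ - c i :=
  le_antisymm (phi_le h.2) (le_phi y c x i)

theorem mem_cell_iff_phi {K : Set (Eu d)} {y : ι → Eu d} {c : ι → ℝ} {x : Eu d} {i : ι} :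
    x ∈ cell K y c i ↔ x ∈ K ∧ phi y c x = ⟪x, y i⟫ - c i :=
  ⟨fun h => ⟨h.1, phi_eq_of_mem_cell h⟩, fun h => ⟨h.1, fun j => h.2 ▸ le_phi y c x j⟩⟩

theorem continuous_phi (y : ι → Eu d) (c : ι → ℝ) : Continuous (phi y c) := by
  unfold phi
  refine Continuous.finset_sup'_apply _ fun i _ => ?_
  fun_prop

end Crest.Agent.Helper7.OT
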