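import Crest.Agent.Helper7.OT.CellLimit

set_option autoImplicit false

open MeasureTheory Filter Topology Set
open scoped RealInnerProductSpace

namespace Crest.Agent.Helper7.OT

theorem phi_add_const' {d : ℕ} {ι : Type*} [Fintype ι] [Nonempty ι] (y : ι → Eu d) (c : ι → ℝ)
    (a : ℝ) (x : Eu d) : phi y (fun i => c i + a) x = phi y c x - a := by
  apply le_antisymm
  · refine phi_le fun i => ?_
    have := le_phi y c x i
    linarith
  · obtain ⟨i, hi⟩ := exists_phi_eq y c x
    rw [hi]
    have := le_phi y (fun i => c i + a) x i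
    linarith

theorem exists_weights {d : ℕ} {ι : Type*} [Fintype ι] [Nonempty ι] {K : Set (Eu d)}
    (hKc : IsCompact K) {y : ι → Eu d} (hy : Function.Injective y) {g : Eu d → ℝ}
    (hg : Measurable g) (hg1 : ∀ x, 1 / 2 ≤ g x) (hg2 : ∀ x, g x ≤ 2) {m : ι → ℝ}
    (hm : ∀ i, 0 < m i) (hsum : ∑ i, m i = ∫ x in K, g x) :
    ∃ c : ι → ℝ, ∀ i, ∫ x in cell K y c i, g x = m i := by
  classical
  have hKcl := hKc.isClosed
  have hKm := hKcl.measurableSet
  have : IsFiniteMeasure ((volume : Measure (Eu d)).restrict K) :=
    ⟨by simpa using hKc.measure_lt_top⟩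
  obtain ⟨R, hR0, hR⟩ : ∃ R : ℝ, 0 ≤ R ∧ ∀ x ∈ K, ∀ i, |⟪x, y i⟫| ≤ R := by
    obtain ⟨R1, hR1⟩ := hKc.isBounded.exists_norm_le
    obtain ⟨i, hi⟩ := Finite.exists_max (fun i => ‖y i‖)
    refine ⟨|R1| * ‖y i‖, by positivity, fun x hx j => (abs_real_inner_le_norm _ _).trans ?_⟩
    exact mul_le_mul ((hR1 x hx).trans (le_abs_self _)) (hi j) (norm_nonneg _) (abs_nonneg _)
  have hgb : ∀ x, |g x| ≤ 2 := fun x => abs_le.2 ⟨by linarith [hg1 x], hg2 x⟩
  have hgint : IntegrableOn g K :=
    Integrable.of_bound hg.aestronglyMeasurable 2 (Eventually.of_forall fun x => by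
      rw [Real.norm_eq_abs]; exact hgb x)
  have hphi_int : ∀ c, IntegrableOn (fun x => phi y c x * g x) K := by
    intro c
    have h1 : IntegrableOn (fun x => phi y c x) K := (continuous_phi y c).continuousOn.integrableOn_compact hKc
    exact h1.mul_bdd (c := 2) hg.aestronglyMeasurable (Eventually.of_forall fun x => by
      rw [Real.norm_eq_abs]; exact hgb x)
  set M := ∫ x in K, g x with hM
  set J : (ι → ℝ) → ℝ := fun c => (∫ x in K, phi y c x * g x) + ∑ i, m i * c i with hJ
  have hmin : ∃ m0 : ℝ, 0 < m0 ∧ ∀ i, m0 ≤ m i := by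
    obtain ⟨i, hi⟩ := Finite.exists_min m
    exact ⟨m i, hm i, hi⟩
  obtain ⟨m0, hm0, hmi⟩ := hmin
  have hM0 : 0 ≤ M := by rw [← hsum]; exact Finset.sum_nonneg fun i _ => (hm i).le
  -- shift invariance
  have hshift : ∀ c a, J (fun i => c i + a) = J c := by
    intro c a
    simp only [hJ]
    have e1 : ∫ x in K, phi y (fun i => c i + a) x * g x = (∫ x in K, phi y c x * g x) - a * M := by
      have : ∀ x, phi y (fun i => c i + a) x * g x = phi y c x * g x - a * g x := by
        intro x; rw [phi_add_const']; ring
      simp_rw [this]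
      rw [integral_sub (hphi_int c) (hgint.const_mul a), integral_const_mul]
    rw [e1]
    simp_rw [mul_add]
    rw [Finset.sum_add_distrib, ← Finset.sum_mul, hsum]
    ring
  set B : ℝ := 2 * R * M / m0 with hB
  have hB0 : 0 ≤ B := by positivity
  -- lower bound
  have hlow : ∀ c : ι → ℝ, (∀ i, 0 ≤ c i) → (∃ i, c i = 0) → ∀ j, B < c j → J 0 ≤ J c := by
    intro c hc ⟨i0, hi0⟩ j hj
    have l1 : -R * M ≤ ∫ x in K, phi y c x * g x := by
      rw [hM, ← integral_const_mul]
      refine setIntegral_mono_on (hgint.const_mul _) (hphi_int c) hKm fun x hx => ?_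
      have := le_phi y c x i0
      rw [hi0, sub_zero] at this
      have h2 := (abs_le.1 (hR x hx i0)).1
      exact mul_le_mul_of_nonneg_right (by linarith) (by linarith [hg1 x])
    have l2 : m0 * B ≤ ∑ i, m i * c i := by
      calc m0 * B ≤ m j * c j := mul_le_mul (hmi j) hj.le hB0 (hm j).le
        _ ≤ ∑ i, m i * c i :=
          Finset.single_le_sum (f := fun i => m i * c i)
            (fun i _ => mul_nonneg (hm i).le (hc i)) (Finset.mem_univ j)
    have l3 : m0 * B = 2 * R * M := by rw [hB]; field_simp
    have l4 : J 0 ≤ R * M := by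
      have : ∫ x in K, phi y 0 x * g x ≤ R * M := by
        rw [hM, ← integral_const_mul]
        refine setIntegral_mono_on (hphi_int 0) (hgint.const_mul _) hKm fun x hx => ?_
        refine mul_le_mul_of_nonneg_right (phi_le fun i => ?_) (by linarith [hg1 x])
        have h2 := (abs_le.1 (hR x hx i)).2
        simp only [Pi.zero_apply, sub_zero]
        exact h2
      simp only [hJ, Pi.zero_apply, mul_zero, Finset.sum_const_zero, add_zero]
      exact this
    have l5 : J c = (∫ x in K, phi y c x * g x) + ∑ i, m i * c i := rfl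
    rw [l5]
    linarith
  -- continuity on the box
  have hcont : ContinuousOn J (Set.pi univ fun _ : ι => Icc (0 : ℝ) B) := by
    refine ContinuousOn.add ?_ (by fun_prop)
    refine continuousOn_of_dominated (bound := fun _ => (R + B) * 2) ?_ ?_ ?_ ?_
    · intro c _
      exact (hphi_int c).aestronglyMeasurable
    · intro c hc
      filter_upwards [ae_restrict_mem hKm] with x hx
      rw [norm_mul, Real.norm_eq_abs, Real.norm_eq_abs]
      refine mul_le_mul ?_ (hgb x) (abs_nonneg _) (by positivity)
      obtain ⟨i, hi⟩ := exists_phi_eq y c x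
      rw [hi]
      refine (abs_sub _ _).trans (add_le_add (hR x hx i) ?_)
      have := hc i (mem_univ i)
      rw [abs_of_nonneg this.1]
      exact this.2
    · exact integrable_const _
    · refine Eventually.of_forall fun x => ?_
      refine Continuous.continuousOn ?_
      refine Continuous.mul ?_ continuous_const
      unfold phi
      refine Continuous.finset_sup'_apply _ fun i _ => ?_
      fun_prop
  have hbox : IsCompact (Set.pi univ fun _ : ι => Icc (0 : ℝ) B) :=
    isCompact_univ_pi fun _ => isCompact_Icc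
  obtain ⟨c, hcbox, hcmin⟩ := hbox.exists_isMinOn ⟨0, fun i _ => ⟨le_rfl, hB0⟩⟩ hcont
  have hglob : ∀ c' : ι → ℝ, J c ≤ J c' := by
    intro c'
    obtain ⟨i0, hi0⟩ := Finite.exists_min c'
    rw [← hshift c' (- c' i0)]
    by_cases h : ∀ j, c' j + - c' i0 ≤ B
    · exact hcmin (a := fun i => c' i + - c' i0) (fun i _ => ⟨by linarith [hi0 i], h i⟩)
    · push Not at h
      obtain ⟨j, hj⟩ := h
      refine (hcmin (a := 0) (fun i _ => ⟨le_rfl, hB0⟩)).trans ?_
      exact hlow (fun i => c' i + - c' i0) (fun i => by have := hi0 i; linarith)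
        ⟨i0, by simp⟩ j hj
  -- perturbation
  have hpert : ∀ i, ∀ δ : ℝ, 0 < δ →
      ∫ x in cell K y (Function.update c i (c i + δ)) i, g x ≤ m i := by
    intro i δ hδ
    set c' := Function.update c i (c i + δ) with hc'
    have hci : c' i = c i + δ := by simp [hc']
    have hcj : ∀ j, j ≠ i → c' j = c j := fun j hj => by simp [hc', hj]
    have hle : ∀ j, c j ≤ c' j := by
      intro j
      by_cases hj : j = i
      · rw [hj, hci]; linarith
      · rw [hcj j hj]
    have h1 := hglob c'
    have hs : ∑ j, m j * c' j = (∑ j, m j * c j) + δ * m i := by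
      have : ∀ j, m j * c' j = m j * c j + (if j = i then δ * m i else 0) := by
        intro j
        by_cases hj : j = i
        · rw [if_pos hj, hj, hci]; ring
        · rw [if_neg hj, hcj j hj, add_zero]
      simp_rw [this]
      rw [Finset.sum_add_distrib, Finset.sum_ite_eq' Finset.univ i]
      simp
    have hcell := measurableSet_cell hKcl y c' i
    have hind : ∫ x in cell K y c' i, g x = ∫ x in K, (cell K y c' i).indicator g x :=
      integral_cell_eq hKcl y c' i g
    have hindint : IntegrableOn ((cell K y c' i).indicator g) K := hgint.indicator hcell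
    have hphi : (∫ x in K, phi y c' x * g x) ≤
        (∫ x in K, phi y c x * g x) - δ * ∫ x in cell K y c' i, g x := by
      rw [hind, ← integral_const_mul, ← integral_sub (hphi_int c) (hindint.const_mul δ)]
      refine setIntegral_mono_on (hphi_int c') ((hphi_int c).sub (hindint.const_mul δ)) hKm
        fun x hx => ?_
      have hg0 : 0 ≤ g x := by linarith [hg1 x]
      by_cases hxc : x ∈ cell K y c' i
      · rw [indicator_of_mem hxc, phi_eq_of_mem_cell hxc, hci]
        have := le_phi y c x i
        nlinarith
      · rw [indicator_of_notMem hxc, mul_zero, sub_zero]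
        refine mul_le_mul_of_nonneg_right (phi_le fun j => ?_) hg0
        have := le_phi y c x j
        linarith [hle j]
    have h2 : J c = (∫ x in K, phi y c x * g x) + ∑ j, m j * c j := rfl
    have h3 : J c' = (∫ x in K, phi y c' x * g x) + ∑ j, m j * c' j := rfl
    rw [h2, h3, hs] at h1
    have h4 : δ * ∫ x in cell K y c' i, g x ≤ δ * m i := by linarith
    exact le_of_mul_le_mul_left h4 hδ
  have hle : ∀ i, ∫ x in cell K y c i, g x ≤ m i := by
    intro i
    have ht : Tendsto (fun n : ℕ => ∫ x in cell K y (Function.update c i (c i + 1 / ((n : ℝ) + 1))) i, g x)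
        atTop (𝓝 (∫ x in cell K y c i, g x)) := by
      refine tendsto_integral_cell hKcl hy (fun j => ?_) i hgint
      by_cases hj : j = i
      · subst hj
        simp only [Function.update_self]
        have := (tendsto_const_nhds (x := c j)).add (tendsto_one_div_add_atTop_nhds_zero_nat (𝕜 := ℝ))
        simpa using this
      · simp only [Function.update_of_ne hj]
        exact tendsto_const_nhds
    exact le_of_tendsto ht (Eventually.of_forall fun n => hpert i _ (by positivity))
  refine ⟨c, fun i => ?_⟩
  have hsum2 : ∑ i, ∫ x in cell K y c i, g x = ∑ i, m i := by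
    rw [sum_integral_cell hKcl hy c hgint, hsum]
  by_contra hne
  have hlt : ∫ x in cell K y c i, g x < m i := lt_of_le_of_ne (hle i) hne
  have := Finset.sum_lt_sum (fun j _ => hle j) ⟨i, Finset.mem_univ i, hlt⟩
  linarith

end Crest.Agent.Helper7.OT
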