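import Crest.Agent.Helper7.OT.Cells
import Crest.Agent.Helper7.MapExists
import Crest.Prelude.Def_QuadraticTransport

set_option autoImplicit false

open MeasureTheory Filter Topology Set
open scoped RealInnerProductSpace
open Crest.AnalysisR.OT

namespace Crest.Agent.Helper7.OT

variable {d : ℕ} {ι : Type*}

/-- bounded measurable implies integrable -/
theorem integrable_of_ae_bound {ρ : Measure (Eu d)} [IsFiniteMeasure ρ] {f : Eu d → ℝ}
    (hf : AEStronglyMeasurable f ρ) {C : ℝ} (hb : ∀ᵐ x ∂ρ, |f x| ≤ C) : Integrable f ρ :=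
  Integrable.of_bound hf C (by filter_upwards [hb] with x hx; rwa [Real.norm_eq_abs])

theorem ae_comp_of_map {ρ μ : Measure (Eu d)} {T : Eu d → Eu d} (hT : Measurable T)
    (hTμ : ρ.map T = μ) {p : Eu d → Prop} (hp : ∀ᵐ y ∂μ, p y) : ∀ᵐ x ∂ρ, p (T x) := by
  rw [← hTμ] at hp
  exact ae_of_ae_map hT.aemeasurable hp

theorem enorm_sq_eq (v : Eu d) : ‖v‖ₑ ^ 2 = ENNReal.ofReal (‖v‖ ^ 2) := by
  rw [ENNReal.ofReal_pow (norm_nonneg _), ofReal_norm]

theorem inner_le_of_optimal {ρ μ : Measure (Eu d)} [IsProbabilityMeasure ρ] {T S : Eu d → Eu d}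
    (hT : IsOptimalMap ρ μ T) (hS : Measurable S) (hSμ : ρ.map S = μ) {R : ℝ}
    (hρR : ∀ᵐ x ∂ρ, ‖x‖ ≤ R) (hμR : ∀ᵐ x ∂μ, ‖x‖ ≤ R) :
    ∫ x, ⟪x, S x⟫ ∂ρ ≤ ∫ x, ⟪x, T x⟫ ∂ρ := by
  obtain ⟨hTm, hTμ, hopt⟩ := hT
  have hlin := hopt S hS hSμ
  have key : ∀ U : Eu d → Eu d, Measurable U → ρ.map U = μ →
      Integrable (fun x => ‖x - U x‖ ^ 2) ρ ∧ Integrable (fun x => ⟪x, U x⟫) ρ ∧
      ∫ x, ‖x - U x‖ ^ 2 ∂ρ = (∫ x, ‖x‖ ^ 2 ∂ρ) - 2 * (∫ x, ⟪x, U x⟫ ∂ρ) + ∫ y, ‖y‖ ^ 2 ∂μ := by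
    intro U hU hUμ
    have hb := ae_comp_of_map hU hUμ hμR
    have i1 : Integrable (fun x => ‖x - U x‖ ^ 2) ρ := by
      refine integrable_of_ae_bound (C := (2 * R) ^ 2)
        ((measurable_id.sub hU).norm.pow_const 2).aestronglyMeasurable ?_
      filter_upwards [hb, hρR] with x h1 h2
      rw [abs_of_nonneg (by positivity)]
      have := norm_sub_le x (U x)
      exact pow_le_pow_left₀ (norm_nonneg _) (by linarith) 2
    have i2 : Integrable (fun x => ⟪x, U x⟫) ρ := by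
      refine integrable_of_ae_bound (C := R * R) (measurable_id.inner hU).aestronglyMeasurable ?_
      filter_upwards [hb, hρR] with x h1 h2
      refine (abs_real_inner_le_norm _ _).trans ?_
      exact mul_le_mul h2 h1 (norm_nonneg _) ((norm_nonneg _).trans h2)
    have i3 : Integrable (fun x : Eu d => ‖x‖ ^ 2) ρ := by
      refine integrable_of_ae_bound (C := R ^ 2) (measurable_id.norm.pow_const 2).aestronglyMeasurable ?_
      filter_upwards [hρR] with x h2
      rw [abs_of_nonneg (by positivity)]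
      exact pow_le_pow_left₀ (norm_nonneg _) h2 2
    have i4 : Integrable (fun x => ‖U x‖ ^ 2) ρ := by
      refine integrable_of_ae_bound (C := R ^ 2) (hU.norm.pow_const 2).aestronglyMeasurable ?_
      filter_upwards [hb] with x h2
      rw [abs_of_nonneg (by positivity)]
      exact pow_le_pow_left₀ (norm_nonneg _) h2 2
    refine ⟨i1, i2, ?_⟩
    have e1 : ∀ x, ‖x - U x‖ ^ 2 = ‖x‖ ^ 2 - 2 * ⟪x, U x⟫ + ‖U x‖ ^ 2 := fun x =>
      norm_sub_sq_real x (U x)
    simp_rw [e1]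
    have i5 : Integrable (fun x => ‖x‖ ^ 2 - 2 * ⟪x, U x⟫) ρ := i3.sub (i2.const_mul 2)
    rw [integral_add i5 i4, integral_sub i3 (i2.const_mul 2),
      integral_const_mul]
    congr 1
    rw [← hUμ, integral_map hU.aemeasurable]
    exact (measurable_id.norm.pow_const 2).aestronglyMeasurable
  obtain ⟨j1, -, j3⟩ := key T hTm hTμ
  obtain ⟨k1, -, k3⟩ := key S hS hSμ
  have h1 : ∫ x, ‖x - T x‖ ^ 2 ∂ρ ≤ ∫ x, ‖x - S x‖ ^ 2 ∂ρ := by
    have e1 : ∫⁻ x, ‖x - T x‖ₑ ^ 2 ∂ρ = ENNReal.ofReal (∫ x, ‖x - T x‖ ^ 2 ∂ρ) := by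
      rw [ofReal_integral_eq_lintegral_ofReal j1 (Eventually.of_forall fun x => by positivity)]
      simp_rw [enorm_sq_eq]
    have e2 : ∫⁻ x, ‖x - S x‖ₑ ^ 2 ∂ρ = ENNReal.ofReal (∫ x, ‖x - S x‖ ^ 2 ∂ρ) := by
      rw [ofReal_integral_eq_lintegral_ofReal k1 (Eventually.of_forall fun x => by positivity)]
      simp_rw [enorm_sq_eq]
    rw [e1, e2] at hlin
    exact (ENNReal.ofReal_le_ofReal_iff (integral_nonneg fun x => by positivity)).1 hlin
  rw [j3, k3] at h1
  linarith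

/-- the Legendre transform on `K` -/
noncomputable def psi (K : Set (Eu d)) (u : Eu d → ℝ) (p : Eu d) : ℝ :=
  sSup ((fun x => ⟪x, p⟫ - u x) '' K)

theorem le_psi {K : Set (Eu d)} (hK : IsCompact K) {u : Eu d → ℝ} (hu : Continuous u) (p : Eu d)
    {x : Eu d} (hx : x ∈ K) : ⟪x, p⟫ - u x ≤ psi K u p := by
  refine le_csSup ?_ (mem_image_of_mem _ hx)
  exact (hK.image (by fun_prop)).bddAbove

theorem psi_le {K : Set (Eu d)} (hKn : K.Nonempty) {u : Eu d → ℝ} {p : Eu d} {a : ℝ}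
    (h : ∀ x ∈ K, ⟪x, p⟫ - u x ≤ a) : psi K u p ≤ a := by
  refine csSup_le (hKn.image _) ?_
  rintro _ ⟨x, hx, rfl⟩
  exact h x hx

theorem psi_lip {K : Set (Eu d)} (hK : IsCompact K) (hKn : K.Nonempty) {u : Eu d → ℝ}
    (hu : Continuous u) {R : ℝ} (hKR : ∀ x ∈ K, ‖x‖ ≤ R) (p q : Eu d) :
    psi K u p ≤ psi K u q + R * ‖p - q‖ := by
  refine psi_le hKn fun x hx => ?_
  have h1 := le_psi hK hu q hx
  have h2 : ⟪x, p⟫ = ⟪x, q⟫ + ⟪x, p - q⟫ := by rw [← inner_add_right]; congr 1; abel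
  have h3 : ⟪x, p - q⟫ ≤ ‖x‖ * ‖p - q‖ := real_inner_le_norm _ _
  have h4 := mul_le_mul_of_nonneg_right (hKR x hx) (norm_nonneg (p - q))
  linarith

theorem psi_abs_lip {K : Set (Eu d)} (hK : IsCompact K) (hKn : K.Nonempty) {u : Eu d → ℝ}
    (hu : Continuous u) {R : ℝ} (hKR : ∀ x ∈ K, ‖x‖ ≤ R) (p q : Eu d) :
    |psi K u p - psi K u q| ≤ R * ‖p - q‖ := by
  rw [abs_le]
  have h1 := psi_lip hK hKn hu hKR p q
  have h2 := psi_lip hK hKn hu hKR q p
  rw [norm_sub_rev] at h2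
  constructor <;> linarith

theorem continuous_psi {K : Set (Eu d)} (hK : IsCompact K) (hKn : K.Nonempty) {u : Eu d → ℝ}
    (hu : Continuous u) : Continuous (psi K u) := by
  obtain ⟨R, hR⟩ := hK.isBounded.exists_norm_le
  have hKR : ∀ x ∈ K, ‖x‖ ≤ |R| := fun x hx => (hR x hx).trans (le_abs_self R)
  have : LipschitzWith ⟨|R|, abs_nonneg R⟩ (psi K u) := by
    refine LipschitzWith.of_dist_le_mul fun p q => ?_
    rw [Real.dist_eq, dist_eq_norm]
    exact psi_abs_lip hK hKn hu hKR p q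
  exact this.continuous

/-- disjointified cells -/
def dcell (K : Set (Eu d)) (y : ι → Eu d) (c : ι → ℝ) (i : ι) : Set (Eu d) :=
  cell K y c i \ ⋃ j ∈ {j | j ≠ i}, cell K y c j

theorem dcell_subset (K : Set (Eu d)) (y : ι → Eu d) (c : ι → ℝ) (i : ι) :
    dcell K y c i ⊆ cell K y c i := Set.sdiff_subset

theorem disjoint_dcell (K : Set (Eu d)) (y : ι → Eu d) (c : ι → ℝ) :
    Pairwise (Function.onFun Disjoint (dcell K y c)) := by
  intro i j hij
  rw [Function.onFun, Set.disjoint_left]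
  rintro x ⟨_, h2⟩ ⟨h3, _⟩
  exact h2 (mem_iUnion₂.2 ⟨j, fun h => hij h.symm, h3⟩)

theorem measurableSet_dcell [Fintype ι] {K : Set (Eu d)} (hK : IsClosed K) (y : ι → Eu d)
    (c : ι → ℝ) (i : ι) : MeasurableSet (dcell K y c i) := by
  refine (measurableSet_cell hK y c i).diff ?_
  exact (Set.toFinite {j | j ≠ i}).measurableSet_biUnion fun j _ => measurableSet_cell hK y c j

theorem dcell_ae_eq [Fintype ι] {K : Set (Eu d)} {y : ι → Eu d} (hy : Function.Injective y)
    (c : ι → ℝ) (i : ι) : dcell K y c i =ᵐ[(volume : Measure (Eu d))] cell K y c i := by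
  rw [dcell]
  have h : volume (cell K y c i ∩ ⋃ j ∈ {j | j ≠ i}, cell K y c j) = 0 := by
    rw [Set.inter_iUnion₂]
    refine (measure_biUnion_null_iff (Set.toFinite _).countable).2 fun j hj => ?_
    exact aedisjoint_cell hy c (fun h => hj h.symm)
  refine (LE.le.eventuallyLE Set.sdiff_subset).antisymm ?_
  rw [ae_le_set]
  refine measure_mono_null ?_ h
  rintro x ⟨h1, h2⟩
  refine ⟨h1, ?_⟩
  by_contra h3
  exact h2 ⟨h1, h3⟩

variable [Fintype ι] [Nonempty ι]

theorem eps_bound (hd : 0 < d) {K : Set (Eu d)} (hKc : IsCompact K) (hKi : (interior K).Nonempty)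
    {R : ℝ} (hR : 0 ≤ R) (hKR : ∀ x ∈ K, ‖x‖ ≤ R) {μ : Measure (Eu d)} {T : Eu d → Eu d}
    (hT : IsOptimalMap (uniformProbOn K) μ T) (hμR : ∀ᵐ p ∂μ, ‖p‖ ≤ R)
    {y : ι → Eu d} (hy : Function.Injective y) {c : ι → ℝ}
    {μs : ι → Measure (Eu d)} (hμs : μ = ∑ i, μs i)
    (hmass : ∀ i, μs i univ = (volume K)⁻¹ * volume (cell K y c i))
    {η : ℝ} (hclose : ∀ i, ∀ᵐ p ∂(μs i), ‖p - y i‖ ≤ η) :
    ∃ ε : Eu d → ℝ, IntegrableOn ε K ∧ (∀ x ∈ K, 0 ≤ ε x) ∧
      (∀ x ∈ K, ∀ x' ∈ K, phi y c x + ⟪T x, x' - x⟫ - ε x ≤ phi y c x') ∧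
      ∫ x in K, ε x ≤ 2 * R * η * volume.real K := by
  have hKcl := hKc.isClosed
  have hKm := hKcl.measurableSet
  have hKn : K.Nonempty := hKi.mono interior_subset
  have hv0 : volume K ≠ 0 := by
    intro h
    have h1 := measure_mono_null interior_subset h
    exact (isOpen_interior.measure_pos volume hKi).ne' h1
  have hvt : volume K ≠ ⊤ := hKc.measure_lt_top.ne
  set ρ : Measure (Eu d) := uniformProbOn K with hρ
  have hρdef : ρ = (volume K)⁻¹ • volume.restrict K := rfl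
  have hρp : IsProbabilityMeasure ρ := ⟨by
    rw [hρdef, Measure.smul_apply, Measure.restrict_apply_univ, smul_eq_mul,
      ENNReal.inv_mul_cancel hv0 hvt]⟩
  have hρac : ρ ≪ volume := by
    rw [hρdef]
    exact (Measure.smul_absolutelyContinuous).trans Measure.absolutelyContinuous_restrict
  have hρK : ∀ᵐ x ∂ρ, x ∈ K := by
    rw [hρdef]
    exact Measure.ae_smul_measure (ae_restrict_mem hKm) _
  have hρR : ∀ᵐ x ∂ρ, ‖x‖ ≤ R := by
    filter_upwards [hρK] with x hx using hKR x hx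
  have hTm := hT.1
  have hTμ := hT.2.1
  have hμp : IsProbabilityMeasure μ := by
    rw [← hTμ]; exact Measure.isProbabilityMeasure_map hTm.aemeasurable
  have hTR := ae_comp_of_map hTm hTμ hμR
  set u := phi y c with hu
  have huc : Continuous u := continuous_phi y c
  set ψ := psi K u with hψ
  have hψc : Continuous ψ := continuous_psi hKc hKn huc
  set ε : Eu d → ℝ := fun x => u x + ψ (T x) - ⟪x, T x⟫ with hε
  obtain ⟨B, hB⟩ := hKc.exists_bound_of_continuousOn huc.continuousOn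
  -- integrability of the pieces wrt ρ
  have key : ∀ U : Eu d → Eu d, Measurable U → ρ.map U = μ →
      Integrable (fun x => ψ (U x)) ρ ∧ Integrable (fun x => ⟪x, U x⟫) ρ ∧
        ∫ x, ψ (U x) ∂ρ = ∫ p, ψ p ∂μ := by
    intro U hU hUμ
    have hb := ae_comp_of_map hU hUμ hμR
    refine ⟨?_, ?_, ?_⟩
    · refine integrable_of_ae_bound (C := |ψ 0| + R * R) (hψc.measurable.comp hU).aestronglyMeasurable ?_
      filter_upwards [hb] with x h1
      have h2 := psi_abs_lip hKc hKn huc hKR (U x) 0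
      rw [sub_zero] at h2
      have h3 : |ψ (U x)| ≤ |ψ 0| + |ψ (U x) - ψ 0| := by
        have := abs_add_le (ψ 0) (ψ (U x) - ψ 0)
        rwa [add_sub_cancel] at this
      have h4 := mul_le_mul_of_nonneg_left h1 hR
      linarith
    · refine integrable_of_ae_bound (C := R * R) (measurable_id.inner hU).aestronglyMeasurable ?_
      filter_upwards [hb, hρR] with x h1 h2
      refine (abs_real_inner_le_norm _ _).trans ?_
      exact mul_le_mul h2 h1 (norm_nonneg _) ((norm_nonneg _).trans h2)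
    · rw [← hUμ, integral_map hU.aemeasurable hψc.aestronglyMeasurable]
  have hui : Integrable u ρ := by
    refine integrable_of_ae_bound (C := B) huc.aestronglyMeasurable ?_
    filter_upwards [hρK] with x hx
    have := hB x hx
    rwa [Real.norm_eq_abs] at this
  obtain ⟨t1, t2, t3⟩ := key T hTm hTμ
  have hεi : Integrable ε ρ := (hui.add t1).sub t2
  -- transfer to volume.restrict K
  have hρsmul : volume.restrict K = (volume K) • ρ := by
    rw [hρdef, smul_smul, ENNReal.mul_inv_cancel hv0 hvt, one_smul]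
  have hεiK : IntegrableOn ε K := by
    rw [IntegrableOn, hρsmul]
    exact hεi.smul_measure hvt
  have hεint : ∫ x in K, ε x = volume.real K * ∫ x, ε x ∂ρ := by
    rw [hρsmul, integral_smul_measure, smul_eq_mul, measureReal_def]
  refine ⟨ε, hεiK, ?_, ?_, ?_⟩
  · intro x hx
    have := le_psi hKc huc (T x) hx
    change 0 ≤ u x + ψ (T x) - ⟪x, T x⟫
    linarith
  · intro x hx x' hx'
    have := le_psi hKc huc (T x) hx'
    change u x + ⟪T x, x' - x⟫ - (u x + ψ (T x) - ⟪x, T x⟫) ≤ u x'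
    rw [inner_sub_right, real_inner_comm x' (T x), real_inner_comm x (T x)]
    linarith
  -- the competitor
  have hDm : ∀ i, MeasurableSet (dcell K y c i) := fun i => measurableSet_dcell hKcl y c i
  have hρD : ∀ i, ρ (dcell K y c i) = (volume K)⁻¹ * volume (cell K y c i) := by
    intro i
    rw [hρdef, Measure.smul_apply, smul_eq_mul, Measure.restrict_apply (hDm i),
      Set.inter_eq_self_of_subset_left ((dcell_subset _ _ _ _).trans (cell_subset _ _ _ _)),
      measure_congr (dcell_ae_eq hy c i)]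
  have hμsfin : ∀ i, IsFiniteMeasure (μs i) := fun i => ⟨by
    rw [hmass i, ← hρD i]; exact measure_lt_top _ _⟩
  have hex : ∀ i, ∃ S : Eu d → Eu d, Measurable S ∧ (ρ.restrict (dcell K y c i)).map S = μs i := by
    intro i
    refine exists_map_eq hd (ρ.restrict (dcell K y c i)) (μs i)
      (Measure.absolutelyContinuous_restrict.trans hρac) ?_
    rw [Measure.restrict_apply_univ, hρD, hmass]
  choose Ss hSsm hSsμ using hex
  have hcov : ∀ᵐ x ∂ρ, ∃ i, x ∈ dcell K y c i := by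
    have h1 : ∀ᵐ x ∂(volume : Measure (Eu d)), ∀ i, (x ∈ dcell K y c i ↔ x ∈ cell K y c i) := by
      rw [ae_all_iff]
      intro i
      filter_upwards [dcell_ae_eq (K := K) hy c i] with x hx
      exact Iff.of_eq hx
    filter_upwards [hρac.ae_le h1, hρK] with x hx hxK
    have : x ∈ ⋃ i, cell K y c i := by rw [iUnion_cell]; exact hxK
    obtain ⟨i, hi⟩ := mem_iUnion.1 this
    exact ⟨i, (hx i).2 hi⟩
  set S : Eu d → Eu d := fun x => ∑ i, (dcell K y c i).indicator (Ss i) x with hSdef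
  have hSm : Measurable S := Finset.measurable_sum _ fun i _ => (hSsm i).indicator (hDm i)
  have hSeq : ∀ i, ∀ x ∈ dcell K y c i, S x = Ss i x := by
    intro i x hx
    simp only [hSdef]
    rw [Finset.sum_eq_single i]
    · rw [indicator_of_mem hx]
    · intro j _ hj
      rw [indicator_of_notMem]
      intro hxj
      exact Set.disjoint_left.1 (disjoint_dcell K y c hj) hxj hx
    · intro h; exact absurd (Finset.mem_univ i) h
  have hSμ : ρ.map S = μ := by
    ext A hA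
    rw [Measure.map_apply hSm hA, hμs, Measure.finsetSum_apply]
    have h1 : ∀ i, μs i A = ρ (S ⁻¹' A ∩ dcell K y c i) := by
      intro i
      rw [← hSsμ i, Measure.map_apply (hSsm i) hA, Measure.restrict_apply ((hSsm i) hA)]
      congr 1
      ext x
      constructor
      · rintro ⟨h1, h2⟩
        refine ⟨?_, h2⟩
        change S x ∈ A
        rw [hSeq i x h2]; exact h1
      · rintro ⟨h1, h2⟩
        refine ⟨?_, h2⟩
        change Ss i x ∈ A
        rw [← hSeq i x h2]; exact h1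
    simp_rw [h1]
    have h2 : ρ (⋃ i, (S ⁻¹' A ∩ dcell K y c i)) = ∑' i, ρ (S ⁻¹' A ∩ dcell K y c i) := by
      refine measure_iUnion ?_ ?_
      · intro i j hij
        exact (disjoint_dcell K y c hij).mono Set.inter_subset_right Set.inter_subset_right
      · intro i
        exact (hSm hA).inter (hDm i)
    rw [tsum_fintype] at h2
    rw [← h2, ← Set.inter_iUnion]
    refine (measure_congr ?_).symm
    filter_upwards [hcov] with x hx
    have : x ∈ ⋃ i, dcell K y c i := mem_iUnion.2 hx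
    refine propext ⟨fun h => h.1, fun h => ⟨h, this⟩⟩
  obtain ⟨s1, s2, s3⟩ := key S hSm hSμ
  have hopt := inner_le_of_optimal hT hSm hSμ hρR hμR
  have hclose' : ∀ᵐ x ∂ρ, ∀ i, x ∈ dcell K y c i → ‖S x - y i‖ ≤ η := by
    rw [ae_all_iff]
    intro i
    have h1 := ae_comp_of_map (hSsm i) (hSsμ i) (hclose i)
    rw [ae_restrict_iff' (hDm i)] at h1
    filter_upwards [h1] with x hx hxD
    rw [hSeq i x hxD]
    exact hx hxD
  have hSε : ∀ᵐ x ∂ρ, u x + ψ (S x) - ⟪x, S x⟫ ≤ 2 * R * η := by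
    filter_upwards [hclose', hcov, hρK] with x hx ⟨i, hi⟩ hxK
    have h1 := hx i hi
    have hxc := dcell_subset _ _ _ _ hi
    have h2 : u x = ⟪x, y i⟫ - c i := phi_eq_of_mem_cell hxc
    have h3 : ψ (y i) ≤ c i := by
      refine psi_le hKn fun x' _ => ?_
      have := le_phi y c x' i
      linarith
    have h4 := psi_lip hKc hKn huc hKR (S x) (y i)
    have h5 : ⟪x, S x⟫ = ⟪x, y i⟫ + ⟪x, S x - y i⟫ := by rw [← inner_add_right]; congr 1; abel
    have h6 : |⟪x, S x - y i⟫| ≤ ‖x‖ * ‖S x - y i‖ := abs_real_inner_le_norm _ _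
    have h7 : ‖x‖ * ‖S x - y i‖ ≤ R * η := mul_le_mul (hKR x hxK) h1 (norm_nonneg _) hR
    have h8 := mul_le_mul_of_nonneg_left h1 hR
    have h9 := (abs_le.1 (h6.trans h7)).1
    change ψ (S x) ≤ ψ (y i) + R * ‖S x - y i‖ at h4
    linarith
  have hint : ∫ x, (u x + ψ (S x) - ⟪x, S x⟫) ∂ρ ≤ 2 * R * η := by
    have i1 : Integrable (fun x => u x + ψ (S x) - ⟪x, S x⟫) ρ := (hui.add s1).sub s2
    have := integral_mono_ae i1 (integrable_const (2 * R * η)) hSε
    simpa using this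
  have eT : ∫ x, ε x ∂ρ = (∫ x, u x ∂ρ) + (∫ p, ψ p ∂μ) - ∫ x, ⟪x, T x⟫ ∂ρ := by
    have i1 : Integrable (fun x => u x + ψ (T x)) ρ := hui.add t1
    change ∫ x, (u x + ψ (T x) - ⟪x, T x⟫) ∂ρ = _
    rw [integral_sub i1 t2, integral_add hui t1, t3]
  have eS : ∫ x, (u x + ψ (S x) - ⟪x, S x⟫) ∂ρ = (∫ x, u x ∂ρ) + (∫ p, ψ p ∂μ) - ∫ x, ⟪x, S x⟫ ∂ρ := by
    have i1 : Integrable (fun x => u x + ψ (S x)) ρ := hui.add s1
    rw [integral_sub i1 s2, integral_add hui s1, s3]
  rw [eS] at hint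
  rw [hεint, eT, mul_comm]
  refine mul_le_mul_of_nonneg_right ?_ measureReal_nonneg
  linarith

end Crest.Agent.Helper7.OT
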