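import Crest.Agent.Helper7.OT.Cells

set_option autoImplicit false

open MeasureTheory Filter Topology Set
open scoped RealInnerProductSpace

namespace Crest.Agent.Helper7.OT

/-- the homothetic core -/
theorem exists_core {d : ℕ} {K : Set (Eu d)} (hKc : IsCompact K) (hKv : Convex ℝ K)
    {x0 : Eu d} {r1 : ℝ} (hr1 : 0 < r1) (hball : Metric.closedBall x0 r1 ⊆ K) {r : ℝ}
    (hr : 0 < r) (hrr : r ≤ r1) :
    ∃ S : Set (Eu d), MeasurableSet S ∧ S ⊆ K ∧ (∀ x ∈ S, ∀ w : Eu d, ‖w‖ ≤ r → x + w ∈ K) ∧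
      volume.real (K \ S) ≤ d * (r / r1) * volume.real K := by
  set l : ℝ := r / r1 with hl
  have hl0 : 0 < l := div_pos hr hr1
  have hl1 : l ≤ 1 := by rw [hl, div_le_one hr1]; exact hrr
  have hlr : l * r1 = r := by rw [hl]; field_simp
  set S : Set (Eu d) := (AffineMap.homothety x0 (1 - l)) '' K with hS
  have hx0 : x0 ∈ K := hball (Metric.mem_closedBall_self hr1.le)
  have hhom : ∀ x : Eu d, AffineMap.homothety x0 (1 - l) x = (1 - l) • x + l • x0 := by
    intro x
    rw [AffineMap.homothety_apply, vsub_eq_sub, vadd_eq_add]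
    module
  have hcont : Continuous (AffineMap.homothety x0 (1 - l) : Eu d → Eu d) := by
    have : (AffineMap.homothety x0 (1 - l) : Eu d → Eu d) = fun x => (1 - l) • x + l • x0 := by
      funext x; exact hhom x
    rw [this]; fun_prop
  have hScomp : IsCompact S := hKc.image hcont
  have hSK : S ⊆ K := by
    rintro _ ⟨x, hx, rfl⟩
    rw [hhom]
    exact hKv hx hx0 (by linarith) hl0.le (by ring)
  refine ⟨S, hScomp.measurableSet, hSK, ?_, ?_⟩
  · rintro _ ⟨x, hx, rfl⟩ w hw
    rw [hhom]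
    have h1 : x0 + (1 / l) • w ∈ K := by
      apply hball
      rw [Metric.mem_closedBall, dist_eq_norm, add_sub_cancel_left, norm_smul, Real.norm_eq_abs,
        abs_of_pos (by positivity)]
      rw [one_div, inv_mul_le_iff₀ hl0, hlr]
      exact hw
    have h2 := hKv hx h1 (show 0 ≤ 1 - l by linarith) hl0.le (by ring)
    have h3 : (1 - l) • x + l • (x0 + (1 / l) • w) = (1 - l) • x + l • x0 + w := by
      rw [smul_add, smul_smul, mul_one_div_cancel hl0.ne', one_smul, add_assoc]
    rw [h3] at h2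
    exact h2
  · have hv : volume.real S = (1 - l) ^ d * volume.real K := by
      rw [measureReal_def, hS, Measure.addHaar_image_homothety, ENNReal.toReal_mul,
        ENNReal.toReal_ofReal (abs_nonneg _), finrank_euclideanSpace_fin, ← measureReal_def,
        abs_of_nonneg (pow_nonneg (by linarith) _)]
    have hfin : volume K ≠ ⊤ := hKc.measure_lt_top.ne
    have hfinS : volume S ≠ ⊤ := hScomp.measure_lt_top.ne
    rw [measureReal_sdiff hSK hScomp.measurableSet hfin, hv]
    have hb : 1 + (d : ℝ) * (-l) ≤ (1 + (-l)) ^ d := one_add_mul_le_pow (by linarith) d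
    have hK0 : 0 ≤ volume.real K := measureReal_nonneg
    have : (1 + (d : ℝ) * (-l)) * volume.real K ≤ (1 + (-l)) ^ d * volume.real K :=
      mul_le_mul_of_nonneg_right hb hK0
    have e : (1 + -l) = 1 - l := by ring
    rw [e] at this
    linarith

/-- second differences of a Lipschitz function have small integral -/
theorem integral_second_diff {d : ℕ} {K S : Set (Eu d)} (hKc : IsCompact K) (hSm : MeasurableSet S)
    (hSK : S ⊆ K) {u : Eu d → ℝ} (hu : Continuous u) {R : ℝ} (hR0 : 0 ≤ R)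
    (hlip : ∀ x ∈ K, ∀ x' ∈ K, |u x - u x'| ≤ R * ‖x - x'‖) {w : Eu d}
    (hw1 : ∀ x ∈ S, x + w ∈ K) (hw2 : ∀ x ∈ S, x - w ∈ K) :
    ∫ x in S, (u (x + w) - 2 * u x + u (x - w)) ≤ 2 * (R * ‖w‖) * volume.real (K \ S) := by
  set F : Eu d → ℝ := fun x => u (x + w) - u x with hF
  have hFc : Continuous F := (hu.comp (continuous_id.add continuous_const)).sub hu
  set S' : Set (Eu d) := (fun x => x + w) ⁻¹' S with hS'
  have hS'm : MeasurableSet S' := (measurable_id.add_const w) hSm
  have hS'K : S' ⊆ K := by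
    intro x hx
    have := hw2 _ hx
    simpa using this
  have hfinK : volume K ≠ ⊤ := hKc.measure_lt_top.ne
  have hfin : ∀ {A : Set (Eu d)}, A ⊆ K → volume A ≠ ⊤ := fun hA => measure_ne_top_of_subset hA hfinK
  have hintF : ∀ {A : Set (Eu d)}, A ⊆ K → IntegrableOn F A := fun hA =>
    (hFc.continuousOn.integrableOn_compact hKc).mono_set hA
  have hF'c : Continuous (fun x => F (x - w)) := hFc.comp (continuous_id.sub continuous_const)
  have hintF' : IntegrableOn (fun x => F (x - w)) S :=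
    (hF'c.continuousOn.integrableOn_compact hKc).mono_set hSK
  have e1 : ∫ x in S, (u (x + w) - 2 * u x + u (x - w)) = (∫ x in S, F x) - ∫ x in S, F (x - w) := by
    rw [← integral_sub (hintF hSK) hintF']
    refine integral_congr_ae (Eventually.of_forall fun x => ?_)
    change u (x + w) - 2 * u x + u (x - w) = (u (x + w) - u x) - (u (x - w + w) - u (x - w))
    rw [sub_add_cancel]
    ring
  have e2 : ∫ x in S, F (x - w) = ∫ x in S', F x := by
    have h := (measurePreserving_sub_right (volume : Measure (Eu d)) w).setIntegral_preimage_emb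
      (MeasurableEquiv.subRight w).measurableEmbedding F S'
    rw [← h]
    congr 2
    ext x
    simp [hS']
  have e3 := integral_inter_add_sdiff (μ := volume) (t := S') hS'm (hintF hSK)
  have e4 := integral_inter_add_sdiff (μ := volume) (t := S) hSm (hintF hS'K)
  rw [Set.inter_comm S' S] at e4
  -- volumes
  have hvS : volume.real S' = volume.real S := by
    rw [measureReal_def, measureReal_def, hS']
    congr 1
    exact (measurePreserving_add_right (volume : Measure (Eu d)) w).measure_preimage hSm.nullMeasurableSet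
  have hv1 : volume.real (S \ S') = volume.real (S' \ S) := by
    have h1 := measureReal_inter_add_sdiff (μ := volume) (s := S) hS'm (hfin hSK)
    have h2 := measureReal_inter_add_sdiff (μ := volume) (s := S') hSm (hfin hS'K)
    rw [Set.inter_comm S' S] at h2
    linarith
  have hv2 : volume.real (S' \ S) ≤ volume.real (K \ S) :=
    measureReal_mono (Set.sdiff_subset_sdiff_left hS'K) (hfin Set.sdiff_subset)
  have hb1 : ∀ x ∈ S, |F x| ≤ R * ‖w‖ := by
    intro x hx
    have := hlip (x + w) (hw1 x hx) x (hSK hx)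
    rwa [add_sub_cancel_left] at this
  have hb2 : ∀ x ∈ S', |F x| ≤ R * ‖w‖ := by
    intro x hx
    have := hlip (x + w) (hSK hx) x (hS'K hx)
    rwa [add_sub_cancel_left] at this
  have b1 := norm_setIntegral_le_of_norm_le_const (μ := volume) (s := S \ S') (f := F)
    (C := R * ‖w‖) (hfin (Set.sdiff_subset.trans hSK)).lt_top
    (fun x hx => by rw [Real.norm_eq_abs]; exact hb1 x hx.1)
  have b2 := norm_setIntegral_le_of_norm_le_const (μ := volume) (s := S' \ S) (f := F)
    (C := R * ‖w‖) (hfin (Set.sdiff_subset.trans hS'K)).lt_top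
    (fun x hx => by rw [Real.norm_eq_abs]; exact hb2 x hx.1)
  rw [Real.norm_eq_abs] at b1 b2
  have c1 := (abs_le.1 b1).2
  have c2 := (abs_le.1 b2).1
  rw [hv1] at c1
  rw [e1, e2, ← e3, ← e4]
  have hRw : 0 ≤ R * ‖w‖ := mul_nonneg hR0 (norm_nonneg _)
  have := mul_le_mul_of_nonneg_left hv2 hRw
  linarith

theorem integral_first_diff {d : ℕ} {K S : Set (Eu d)} (hKc : IsCompact K) (hSm : MeasurableSet S)
    (hSK : S ⊆ K) {g : Eu d → ℝ} (hg : Continuous g) {w : Eu d}
    (hw1 : ∀ x ∈ S, x + w ∈ K) :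
    ∫ x in S, (g (x + w) - g x) ^ 2 ≤ 4 * ∫ x in K, g x ^ 2 := by
  set T : Set (Eu d) := (fun x => x - w) ⁻¹' S with hT
  have hTm : MeasurableSet T := (measurable_id.sub_const w) hSm
  have hTK : T ⊆ K := by
    intro x hx
    have := hw1 _ hx
    simpa using this
  have hg2 : Continuous (fun x => g x ^ 2) := hg.pow 2
  have hg2w : Continuous (fun x => g (x + w) ^ 2) := hg2.comp (continuous_id.add continuous_const)
  have i1 : IntegrableOn (fun x => g x ^ 2) K := hg2.continuousOn.integrableOn_compact hKc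
  have i2 : IntegrableOn (fun x => g (x + w) ^ 2) S :=
    (hg2w.continuousOn.integrableOn_compact hKc).mono_set hSK
  have i3 : IntegrableOn (fun x => (g (x + w) - g x) ^ 2) S := by
    have : Continuous (fun x => (g (x + w) - g x) ^ 2) :=
      ((hg.comp (continuous_id.add continuous_const)).sub hg).pow 2
    exact (this.continuousOn.integrableOn_compact hKc).mono_set hSK
  have e1 : ∫ x in S, g (x + w) ^ 2 = ∫ x in T, g x ^ 2 := by
    have h := (measurePreserving_add_right (volume : Measure (Eu d)) w).setIntegral_preimage_emb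
      (MeasurableEquiv.addRight w).measurableEmbedding (fun x => g x ^ 2) T
    rw [← h]
    congr 2
    ext x
    simp [hT]
  have m1 : ∫ x in T, g x ^ 2 ≤ ∫ x in K, g x ^ 2 :=
    setIntegral_mono_set i1 (Eventually.of_forall fun x => sq_nonneg _) (Eventually.of_forall hTK)
  have m2 : ∫ x in S, g x ^ 2 ≤ ∫ x in K, g x ^ 2 :=
    setIntegral_mono_set i1 (Eventually.of_forall fun x => sq_nonneg _) (Eventually.of_forall hSK)
  have i4 : IntegrableOn (fun x => g x ^ 2) S := i1.mono_set hSK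
  have m3 : ∫ x in S, (g (x + w) - g x) ^ 2 ≤ ∫ x in S, (2 * g (x + w) ^ 2 + 2 * g x ^ 2) := by
    refine setIntegral_mono_on i3 ((i2.const_mul 2).add (i4.const_mul 2)) hSm fun x _ => ?_
    nlinarith [sq_nonneg (g (x + w) + g x)]
  rw [integral_add (i2.const_mul 2) (i4.const_mul 2), integral_const_mul, integral_const_mul, e1] at m3
  linarith

/-- pointwise estimate -/
theorem pointwise_gap {r R a du dv dg p q : ℝ} (hr : 0 < r)
    (ha : |a| ≤ 2 * R)
    (h1 : r * a ≤ dg + dv + p + q) (h2 : -(r * a) ≤ -dg + du + p + q)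
    (h3 : 0 ≤ du + 2 * p) (h4 : 0 ≤ dv + 2 * q) (hp : 0 ≤ p) (hq : 0 ≤ q) :
    a ^ 2 ≤ (1 / r ^ 2) * dg ^ 2 + (4 * R / r) * (du + dv + 3 * (p + q)) := by
  set D := du + dv + 3 * (p + q) with hD
  have hD0 : 0 ≤ D := by rw [hD]; linarith
  have k1 : r * |a| ≤ |dg| + D := by
    rcases abs_cases a with ⟨h, _⟩ | ⟨h, _⟩
    · rw [h]
      have := le_abs_self dg
      linarith
    · rw [h]
      have := neg_le_abs dg
      linarith
  have k2 : r * a ^ 2 ≤ |a| * |dg| + 2 * R * D := by
    have e : r * a ^ 2 = |a| * (r * |a|) := by rw [← sq_abs a]; ring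
    rw [e]
    calc |a| * (r * |a|) ≤ |a| * (|dg| + D) := mul_le_mul_of_nonneg_left k1 (abs_nonneg _)
      _ = |a| * |dg| + |a| * D := by ring
      _ ≤ |a| * |dg| + 2 * R * D := by
          have := mul_le_mul_of_nonneg_right ha hD0
          linarith
  have k3 : |a| * |dg| ≤ r / 2 * a ^ 2 + 1 / (2 * r) * dg ^ 2 := by
    have h := sq_nonneg (r * |a| - |dg|)
    have e : (r * |a| - |dg|) ^ 2 = r ^ 2 * a ^ 2 - 2 * r * (|a| * |dg|) + dg ^ 2 := by
      rw [← sq_abs a, ← sq_abs dg]; ring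
    rw [e] at h
    have h' : 2 * r * (|a| * |dg|) ≤ r ^ 2 * a ^ 2 + dg ^ 2 := by linarith
    have e2 : r / 2 * a ^ 2 + 1 / (2 * r) * dg ^ 2 = (r ^ 2 * a ^ 2 + dg ^ 2) / (2 * r) := by
      field_simp
    rw [e2, le_div_iff₀ (by positivity)]
    linarith
  have k4 : r / 2 * a ^ 2 ≤ 1 / (2 * r) * dg ^ 2 + 2 * R * D := by linarith
  have k5 : a ^ 2 = (2 / r) * (r / 2 * a ^ 2) := by field_simp
  rw [k5]
  calc (2 / r) * (r / 2 * a ^ 2) ≤ (2 / r) * (1 / (2 * r) * dg ^ 2 + 2 * R * D) :=
        mul_le_mul_of_nonneg_left k4 (by positivity)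
    _ = (1 / r ^ 2) * dg ^ 2 + (4 * R / r) * D := by field_simp; ring

theorem interp_gap {d : ℕ} {K : Set (Eu d)} (hKc : IsCompact K) (hKv : Convex ℝ K)
    (hKi : (interior K).Nonempty) {R : ℝ} (hR0 : 0 ≤ R) :
    ∃ C r₀ : ℝ, 0 < C ∧ 0 < r₀ ∧ ∀ (u v : Eu d → ℝ) (T T' : Eu d → Eu d) (ε ε' : Eu d → ℝ),
      Continuous u → Continuous v → Measurable T → Measurable T' →
      (∀ x ∈ K, ∀ x' ∈ K, |u x - u x'| ≤ R * ‖x - x'‖) →
      (∀ x ∈ K, ∀ x' ∈ K, |v x - v x'| ≤ R * ‖x - x'‖) →
      IntegrableOn ε K → IntegrableOn ε' K → (∀ x ∈ K, 0 ≤ ε x) → (∀ x ∈ K, 0 ≤ ε' x) →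
      (∀ᵐ x ∂(volume.restrict K), ‖T x‖ ≤ R ∧ ∀ x' ∈ K, u x + ⟪T x, x' - x⟫ - ε x ≤ u x') →
      (∀ᵐ x ∂(volume.restrict K), ‖T' x‖ ≤ R ∧ ∀ x' ∈ K, v x + ⟪T' x, x' - x⟫ - ε' x ≤ v x') →
      ∀ r, 0 < r → r ≤ r₀ →
        ∫ x in K, ‖T x - T' x‖ ^ 2 ≤ C * ((1 / r ^ 2) * (∫ x in K, (u x - v x) ^ 2) + r +
          (1 / r) * ((∫ x in K, ε x) + ∫ x in K, ε' x)) := by
  obtain ⟨x0, hx0⟩ := hKi
  obtain ⟨r1, hr1, hball⟩ := Metric.nhds_basis_closedBall.mem_iff.1 (mem_interior_iff_mem_nhds.1 hx0)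
  set V := volume.real K with hV
  have hV0 : 0 ≤ V := measureReal_nonneg
  have hKm : MeasurableSet K := hKc.measurableSet
  have hfinK : volume K ≠ ⊤ := hKc.measure_lt_top.ne
  refine ⟨4 * d + (16 * d ^ 2 + 4 * d) * R ^ 2 * V / r1 + 12 * R * d + 1, r1, by positivity, hr1, ?_⟩
  intro u v T T' ε ε' hu hv hT hT' hlu hlv hεi hε'i hε0 hε'0 hTs hT's r hr hrr
  obtain ⟨S, hSm, hSK, hcore, hvol⟩ := exists_core hKc hKv hr1 hball hr hrr
  have hfinS : volume S ≠ ⊤ := measure_ne_top_of_subset hSK hfinK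
  set g : Eu d → ℝ := fun x => u x - v x with hg
  have hgc : Continuous g := hu.sub hv
  set e : Fin d → Eu d := fun k => r • EuclideanSpace.single k (1 : ℝ) with he
  have hen : ∀ k, ‖e k‖ = r := by
    intro k
    rw [he]
    simp only [norm_smul, Real.norm_eq_abs, abs_of_pos hr]
    simp
  have hinner : ∀ (p : Eu d) k, ⟪p, e k⟫ = r * p k := by
    intro p k
    rw [he]
    simp only [inner_smul_right]
    congr 1
    simp [EuclideanSpace.inner_single_right]
  have hp1 : ∀ k, ∀ x ∈ S, x + e k ∈ K := fun k x hx => hcore x hx _ (hen k).le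
  have hp2 : ∀ k, ∀ x ∈ S, x - e k ∈ K := fun k x hx => by
    rw [sub_eq_add_neg]
    exact hcore x hx _ (by rw [norm_neg, hen k])
  -- the pointwise bound on S
  have hae : ∀ᵐ x ∂(volume.restrict S), ‖T x - T' x‖ ^ 2 ≤ ∑ k : Fin d,
      ((1 / r ^ 2) * (g (x + e k) - g x) ^ 2 + (4 * R / r) *
        ((u (x + e k) - 2 * u x + u (x - e k)) + (v (x + e k) - 2 * v x + v (x - e k))
          + 3 * (ε x + ε' x))) := by
    have h1 := ae_restrict_of_ae_restrict_of_subset hSK hTs
    have h2 := ae_restrict_of_ae_restrict_of_subset hSK hT's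
    filter_upwards [h1, h2, ae_restrict_mem hSm] with x ⟨hx1, hx2⟩ ⟨hx3, hx4⟩ hxS
    rw [EuclideanSpace.real_norm_sq_eq]
    refine Finset.sum_le_sum fun k _ => ?_
    have hxK := hSK hxS
    have a1 := hx2 _ (hp1 k x hxS)
    have a2 := hx2 _ (hp2 k x hxS)
    have a3 := hx4 _ (hp1 k x hxS)
    have a4 := hx4 _ (hp2 k x hxS)
    rw [add_sub_cancel_left, hinner] at a1 a3
    have s1 : x - e k - x = -(e k) := by abel
    rw [s1, inner_neg_right, hinner] at a2 a4
    have hb : |(T x - T' x) k| ≤ 2 * R := by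
      have : ‖(T x - T' x) k‖ ≤ ‖T x - T' x‖ := PiLp.norm_apply_le _ _
      rw [Real.norm_eq_abs] at this
      have h5 := norm_sub_le (T x) (T' x)
      linarith
    refine pointwise_gap (p := ε x) (q := ε' x) hr hb ?_ ?_ ?_ ?_ (hε0 x hxK) (hε'0 x hxK)
    · have : (T x - T' x) k = T x k - T' x k := rfl
      rw [this]
      change r * (T x k - T' x k) ≤ ((u (x + e k) - v (x + e k)) - (u x - v x)) +
        (v (x + e k) - 2 * v x + v (x - e k)) + ε x + ε' x
      linarith
    · have : (T x - T' x) k = T x k - T' x k := rfl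
      rw [this]
      change -(r * (T x k - T' x k)) ≤ -((u (x + e k) - v (x + e k)) - (u x - v x)) +
        (u (x + e k) - 2 * u x + u (x - e k)) + ε x + ε' x
      linarith
    · linarith
    · linarith
  -- integrability
  have hci : ∀ {f : Eu d → ℝ}, Continuous f → IntegrableOn f S := fun hf =>
    (hf.continuousOn.integrableOn_compact hKc).mono_set hSK
  have hεS : IntegrableOn ε S := hεi.mono_set hSK
  have hε'S : IntegrableOn ε' S := hε'i.mono_set hSK
  have hct : ∀ {f : Eu d → ℝ}, Continuous f → ∀ w : Eu d, Continuous fun x => f (x + w) :=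
    fun hf w => hf.comp (continuous_id.add continuous_const)
  have hct' : ∀ {f : Eu d → ℝ}, Continuous f → ∀ w : Eu d, Continuous fun x => f (x - w) :=
    fun hf w => hf.comp (continuous_id.sub continuous_const)
  have iA : ∀ k, IntegrableOn (fun x => (g (x + e k) - g x) ^ 2) S := fun k =>
    hci (((hct hgc _).sub hgc).pow 2)
  have iU : ∀ k, IntegrableOn (fun x => u (x + e k) - 2 * u x + u (x - e k)) S := fun k =>
    hci (((hct hu _).sub (continuous_const.mul hu)).add (hct' hu _))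
  have iV : ∀ k, IntegrableOn (fun x => v (x + e k) - 2 * v x + v (x - e k)) S := fun k =>
    hci (((hct hv _).sub (continuous_const.mul hv)).add (hct' hv _))
  have iE : IntegrableOn (fun x => 3 * (ε x + ε' x)) S := (hεS.add hε'S).const_mul 3
  have iUVE : ∀ k, IntegrableOn (fun x => (u (x + e k) - 2 * u x + u (x - e k)) +
      (v (x + e k) - 2 * v x + v (x - e k)) + 3 * (ε x + ε' x)) S := fun k =>
    ((iU k).add (iV k)).add iE
  have iUV : ∀ k, IntegrableOn (fun x => (u (x + e k) - 2 * u x + u (x - e k)) +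
      (v (x + e k) - 2 * v x + v (x - e k))) S := fun k => (iU k).add (iV k)
  have iall : ∀ k, IntegrableOn (fun x => (1 / r ^ 2) * (g (x + e k) - g x) ^ 2 + (4 * R / r) *
        ((u (x + e k) - 2 * u x + u (x - e k)) + (v (x + e k) - 2 * v x + v (x - e k))
          + 3 * (ε x + ε' x))) S := fun k =>
    ((iA k).const_mul _).add ((iUVE k).const_mul _)
  -- bound for T - T'
  have hbd : ∀ᵐ x ∂(volume.restrict K), ‖T x - T' x‖ ^ 2 ≤ (2 * R) ^ 2 := by
    filter_upwards [hTs, hT's] with x ⟨hx1, _⟩ ⟨hx3, _⟩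
    have h5 := norm_sub_le (T x) (T' x)
    exact pow_le_pow_left₀ (norm_nonneg _) (by linarith) 2
  have hTi : IntegrableOn (fun x => ‖T x - T' x‖ ^ 2) K := by
    refine Measure.integrableOn_of_bounded (M := (2 * R) ^ 2) hfinK ?_ ?_
    · exact ((hT.sub hT').norm.pow_const 2).aestronglyMeasurable
    · filter_upwards [hbd] with x hx
      rw [Real.norm_eq_abs, abs_of_nonneg (by positivity)]
      exact hx
  have hsplit := integral_inter_add_sdiff (μ := volume) (t := S) hSm hTi
  rw [Set.inter_eq_self_of_subset_right hSK] at hsplit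
  rw [← hsplit]
  -- outer part
  have hout : ∫ x in K \ S, ‖T x - T' x‖ ^ 2 ≤ (2 * R) ^ 2 * (d * (r / r1) * V) := by
    have h1 := ae_restrict_of_ae_restrict_of_subset (Set.sdiff_subset : K \ S ⊆ K) hbd
    have h2 : ∫ x in K \ S, ‖T x - T' x‖ ^ 2 ≤ ∫ x in K \ S, (2 * R) ^ 2 :=
      integral_mono_ae (hTi.mono_set Set.sdiff_subset)
        (integrableOn_const (measure_ne_top_of_subset Set.sdiff_subset hfinK)) h1
    rw [setIntegral_const, smul_eq_mul] at h2
    refine h2.trans ?_
    rw [mul_comm]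
    exact mul_le_mul_of_nonneg_left hvol (sq_nonneg _)
  -- inner part
  have hin : ∫ x in S, ‖T x - T' x‖ ^ 2 ≤ ∑ k : Fin d, ((1 / r ^ 2) * (4 * ∫ x in K, g x ^ 2) +
      (4 * R / r) * (2 * (R * r) * (d * (r / r1) * V) + 2 * (R * r) * (d * (r / r1) * V) +
        3 * ((∫ x in K, ε x) + ∫ x in K, ε' x))) := by
    have h1 : ∫ x in S, ‖T x - T' x‖ ^ 2 ≤ ∫ x in S, ∑ k : Fin d,
        ((1 / r ^ 2) * (g (x + e k) - g x) ^ 2 + (4 * R / r) *
        ((u (x + e k) - 2 * u x + u (x - e k)) + (v (x + e k) - 2 * v x + v (x - e k))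
          + 3 * (ε x + ε' x))) :=
      integral_mono_ae (hTi.mono_set hSK) (integrable_finsetSum _ fun k _ => iall k) hae
    refine h1.trans ?_
    rw [integral_finsetSum _ fun k _ => iall k]
    refine Finset.sum_le_sum fun k _ => ?_
    rw [integral_add ((iA k).const_mul _) ((iUVE k).const_mul _), integral_const_mul,
      integral_const_mul, integral_add (iUV k) iE, integral_add (iU k) (iV k),
      integral_const_mul, integral_add hεS hε'S]
    have b1 := integral_first_diff hKc hSm hSK hgc (hp1 k)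
    have b2 := integral_second_diff hKc hSm hSK hu hR0 hlu (hp1 k) (hp2 k)
    have b3 := integral_second_diff hKc hSm hSK hv hR0 hlv (hp1 k) (hp2 k)
    rw [hen] at b2 b3
    have hRr : 0 ≤ 2 * (R * r) := by positivity
    have b4 := mul_le_mul_of_nonneg_left hvol hRr
    have b5 : ∫ x in S, ε x ≤ ∫ x in K, ε x :=
      setIntegral_mono_set hεi ((ae_restrict_iff' hKm).2 (Eventually.of_forall hε0))
        (Eventually.of_forall hSK)
    have b6 : ∫ x in S, ε' x ≤ ∫ x in K, ε' x :=
      setIntegral_mono_set hε'i ((ae_restrict_iff' hKm).2 (Eventually.of_forall hε'0))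
        (Eventually.of_forall hSK)
    refine add_le_add (mul_le_mul_of_nonneg_left b1 (by positivity))
      (mul_le_mul_of_nonneg_left ?_ (by positivity))
    linarith
  rw [Finset.sum_const, Finset.card_univ, Fintype.card_fin, nsmul_eq_mul] at hin
  have hG0 : 0 ≤ ∫ x in K, g x ^ 2 := integral_nonneg fun x => sq_nonneg _
  have hE0 : 0 ≤ (∫ x in K, ε x) + ∫ x in K, ε' x :=
    add_nonneg (setIntegral_nonneg hKm hε0) (setIntegral_nonneg hKm hε'0)
  set G := ∫ x in K, g x ^ 2 with hGdef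
  set E := (∫ x in K, ε x) + ∫ x in K, ε' x with hEdef
  have hfinal : (d : ℝ) * ((1 / r ^ 2) * (4 * G) +
      (4 * R / r) * (2 * (R * r) * (d * (r / r1) * V) + 2 * (R * r) * (d * (r / r1) * V) + 3 * E)) +
      (2 * R) ^ 2 * (d * (r / r1) * V) =
      (4 * d) * ((1 / r ^ 2) * G) + ((16 * d ^ 2 + 4 * d) * R ^ 2 * V / r1) * r +
        (12 * R * d) * ((1 / r) * E) := by
    field_simp
    ring
  have hx1 : 0 ≤ (1 / r ^ 2) * G := by positivity
  have hx2 : 0 ≤ (1 / r) * E := by positivity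
  have hc1 : (0 : ℝ) ≤ 4 * d := by positivity
  have hc2 : 0 ≤ (16 * (d : ℝ) ^ 2 + 4 * d) * R ^ 2 * V / r1 := by positivity
  have hc3 : 0 ≤ 12 * R * d := by positivity
  set c1 := (4 : ℝ) * d
  set c2 := (16 * (d : ℝ) ^ 2 + 4 * d) * R ^ 2 * V / r1
  set c3 := 12 * R * d
  set X := (1 / r ^ 2) * G
  set Y := (1 / r) * E
  have : (c1 + c2 + c3 + 1) * (X + r + Y) = c1 * X + c2 * r + c3 * Y +
      (c1 * (r + Y) + c2 * (X + Y) + c3 * (X + r) + (X + r + Y)) := by ring
  rw [this]
  have : 0 ≤ c1 * (r + Y) + c2 * (X + Y) + c3 * (X + r) + (X + r + Y) := by positivity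
  linarith

end Crest.Agent.Helper7.OT
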