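import Crest.Agent.Helper7.OT.CellLimit

set_option autoImplicit false

open MeasureTheory Filter Topology Set
open scoped RealInnerProductSpace

namespace Crest.Agent.Helper7.OT

/-- a relatively open nonempty subset of a convex body has positive volume -/
theorem volume_pos_of_open_inter {d : ℕ} {K U : Set (Eu d)} (hKv : Convex ℝ K)
    (hKi : (interior K).Nonempty) (hU : IsOpen U) {x : Eu d} (hxK : x ∈ K) (hxU : x ∈ U) :
    0 < volume (interior K ∩ U) := by
  have h1 : x ∈ closure (interior K) := by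
    rw [hKv.closure_interior_eq_closure_of_nonempty_interior hKi]
    exact subset_closure hxK
  rw [mem_closure_iff] at h1
  obtain ⟨z, hzU, hzK⟩ := h1 U hU hxU
  exact (isOpen_interior.inter hU).measure_pos volume ⟨z, hzK, hzU⟩

theorem cell_shift {d : ℕ} {ι : Type*} (K : Set (Eu d)) (y : ι → Eu d) (c : ι → ℝ) (a : ℝ) (i : ι) :
    cell K y (fun j => c j - a) i = cell K y c i := by
  ext x
  constructor
  · rintro ⟨h1, h2⟩
    exact ⟨h1, fun j => by have := h2 j; linarith⟩
  · rintro ⟨h1, h2⟩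
    exact ⟨h1, fun j => by have := h2 j; linarith⟩

theorem unique_weights {d : ℕ} {ι : Type*} [Fintype ι] [Nonempty ι] {K : Set (Eu d)}
    (hKc : IsCompact K) (hKv : Convex ℝ K) (hKi : (interior K).Nonempty) {y : ι → Eu d}
    (hy : Function.Injective y) {c c' : ι → ℝ} (hpos : ∀ i, 0 < volume.real (cell K y c i))
    (heq : ∀ i, volume.real (cell K y c' i) = volume.real (cell K y c i)) :
    ∃ a : ℝ, ∀ i, c' i = c i + a := by
  classical
  obtain ⟨i0, hi0⟩ := Finite.exists_max (fun i => c' i - c i)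
  set D := c' i0 - c i0 with hD
  refine ⟨D, ?_⟩
  by_contra hcon
  push Not at hcon
  obtain ⟨k, hk⟩ := hcon
  have hKcl := hKc.isClosed
  have hfin : ∀ s : Set (Eu d), s ⊆ K → volume s ≠ ⊤ := fun s hs =>
    ((measure_mono hs).trans_lt hKc.measure_lt_top).ne
  set M : Finset ι := Finset.univ.filter (fun i => c' i - c i = D) with hMdef
  have hi0M : i0 ∈ M := by simp [hMdef, hD]
  have hkM : k ∉ M := by
    simp only [hMdef, Finset.mem_filter, Finset.mem_univ, true_and]
    intro h; exact hk (by linarith)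
  -- the gap
  obtain ⟨δ0, hδ0, hgap⟩ : ∃ δ0 : ℝ, 0 < δ0 ∧ ∀ j, j ∉ M → c' j - c j ≤ D - δ0 := by
    obtain ⟨j, hjM, hj⟩ := Finset.exists_max_image (Finset.univ \ M) (fun j => c' j - c j)
      ⟨k, by simp [hkM]⟩
    have hj' : j ∉ M := (Finset.mem_sdiff.1 hjM).2
    refine ⟨D - (c' j - c j), ?_, fun l hl => ?_⟩
    · have h1 := hi0 j
      have h2 : c' j - c j ≠ D := fun h => hj' (by simp [hMdef, h])
      have : c' j - c j < D := lt_of_le_of_ne h1 h2
      linarith
    · have := hj l (Finset.mem_sdiff.2 ⟨Finset.mem_univ _, hl⟩)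
      linarith
  set H : Eu d → ℝ := fun x => phi y c' x + D - phi y c x with hH
  have hHc : Continuous H := ((continuous_phi y c').add continuous_const).sub (continuous_phi y c)
  have hH1 : ∀ i ∈ M, ∀ x ∈ cell K y c' i, H x ≤ 0 := by
    intro i hi x hx
    simp only [hMdef, Finset.mem_filter, Finset.mem_univ, true_and] at hi
    have h1 := phi_eq_of_mem_cell hx
    have h2 := le_phi y c x i
    change phi y c' x + D - phi y c x ≤ 0
    linarith
  have hH2 : ∀ j, j ∉ M → ∀ x ∈ cell K y c j, δ0 ≤ H x := by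
    intro j hj x hx
    have h1 := phi_eq_of_mem_cell hx
    have h2 := le_phi y c' x j
    have h3 := hgap j hj
    change δ0 ≤ phi y c' x + D - phi y c x
    linarith
  -- nonempty cells
  have hne : ∀ i, (cell K y c i).Nonempty := fun i => by
    by_contra h
    rw [Set.not_nonempty_iff_eq_empty] at h
    have := hpos i
    rw [h] at this
    simp at this
  have hne' : ∀ i, (cell K y c' i).Nonempty := fun i => by
    by_contra h
    rw [Set.not_nonempty_iff_eq_empty] at h
    have := hpos i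
    rw [← heq i, h] at this
    simp at this
  obtain ⟨x1, hx1⟩ := hne' i0
  obtain ⟨x2, hx2⟩ := hne k
  have hm1 : δ0 / 2 ∈ H '' K := by
    have hp := hKv.isPreconnected.image H hHc.continuousOn
    refine hp.Icc_subset (mem_image_of_mem H hx1.1) (mem_image_of_mem H hx2.1) ⟨?_, ?_⟩
    · linarith [hH1 i0 hi0M x1 hx1]
    · linarith [hH2 k hkM x2 hx2]
  obtain ⟨x, hxK, hx⟩ := hm1
  set U : Set (Eu d) := {x | 0 < H x ∧ H x < δ0} with hU
  have hUo : IsOpen U := (isOpen_lt continuous_const hHc).inter (isOpen_lt hHc continuous_const)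
  have hpos' := volume_pos_of_open_inter hKv hKi hUo hxK
    (show x ∈ U from ⟨by rw [hx]; linarith, by rw [hx]; linarith⟩)
  -- the unions
  set A : Set (Eu d) := ⋃ i ∈ M, cell K y c i with hA
  set A' : Set (Eu d) := ⋃ i ∈ M, cell K y c' i with hA'
  have hvA : volume A = ∑ i ∈ M, volume (cell K y c i) :=
    measure_biUnion_finset₀ (fun i _ j _ hij => aedisjoint_cell hy c hij)
      (fun i _ => (measurableSet_cell hKcl y c i).nullMeasurableSet)
  have hvA' : volume A' = ∑ i ∈ M, volume (cell K y c' i) :=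
    measure_biUnion_finset₀ (fun i _ j _ hij => aedisjoint_cell hy c' hij)
      (fun i _ => (measurableSet_cell hKcl y c' i).nullMeasurableSet)
  have hvv : volume A' = volume A := by
    rw [hvA, hvA']
    refine Finset.sum_congr rfl fun i _ => ?_
    have := heq i
    rw [measureReal_def, measureReal_def] at this
    exact (ENNReal.toReal_eq_toReal_iff' (hfin _ (cell_subset _ _ _ _)) (hfin _ (cell_subset _ _ _ _))).1 this
  have hcover : ∀ x ∈ K, (∀ j, j ∉ M → x ∉ cell K y c j) → x ∈ A := by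
    intro x hxK hx
    have : x ∈ ⋃ i, cell K y c i := by rw [iUnion_cell]; exact hxK
    obtain ⟨i, hi⟩ := mem_iUnion.1 this
    have hiM : i ∈ M := by
      by_contra h
      exact hx i h hi
    exact mem_iUnion₂.2 ⟨i, hiM, hi⟩
  have hsubA : A' ⊆ A := by
    intro x hx
    obtain ⟨i, hi, hxi⟩ := mem_iUnion₂.1 hx
    refine hcover x hxi.1 fun j hj hxj => ?_
    have h1 := hH1 i hi x hxi
    have h2 := hH2 j hj x hxj
    linarith
  have hAm' : MeasurableSet A' :=
    Finset.measurableSet_biUnion M fun i _ => measurableSet_cell hKcl y c' i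
  have hA'K : A' ⊆ K := by
    intro x hx
    obtain ⟨i, hi, hxi⟩ := mem_iUnion₂.1 hx
    exact hxi.1
  have hdiff : volume (A \ A') = 0 := by
    rw [measure_sdiff hsubA hAm'.nullMeasurableSet (hfin _ hA'K), hvv, tsub_self]
  have hsubU : interior K ∩ U ⊆ A \ A' := by
    rintro x ⟨hxK, hxU⟩
    refine ⟨hcover x (interior_subset hxK) fun j hj hxj => ?_, fun hx' => ?_⟩
    · have := hH2 j hj x hxj
      linarith [hxU.2]
    · obtain ⟨i, hi, hxi⟩ := mem_iUnion₂.1 hx'
      have := hH1 i hi x hxi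
      linarith [hxU.1]
  have := measure_mono_null hsubU hdiff
  rw [this] at hpos'
  exact lt_irrefl _ hpos'

theorem tendsto_weights {d : ℕ} {ι : Type*} [Fintype ι] [Nonempty ι] {K : Set (Eu d)}
    (hKc : IsCompact K) (hKv : Convex ℝ K) (hKi : (interior K).Nonempty) {y : ι → Eu d}
    (hy : Function.Injective y) {c : ι → ℝ} (hpos : ∀ i, 0 < volume.real (cell K y c i))
    {h : Eu d → ℝ} (hh : Measurable h) (hb : ∀ x, |h x| ≤ 1) {s : ℕ → ℝ} (hs0 : ∀ n, 0 ≤ s n)
    (hs : Tendsto s atTop (𝓝 0)) {cs : ℕ → ι → ℝ}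
    (hcs : ∀ n i, ∫ x in cell K y (cs n) i, (1 + s n * h x) = volume.real (cell K y c i))
    (i₀ : ι) : ∀ i, Tendsto (fun n => cs n i - cs n i₀) atTop (𝓝 (c i - c i₀)) := by
  classical
  have hKcl := hKc.isClosed
  have hKm := hKcl.measurableSet
  have hfinK : IsFiniteMeasure ((volume : Measure (Eu d)).restrict K) :=
    ⟨by simpa using hKc.measure_lt_top⟩
  obtain ⟨R, hR0, hR⟩ : ∃ R : ℝ, 0 ≤ R ∧ ∀ x ∈ K, ∀ i, |⟪x, y i⟫| ≤ R := by
    obtain ⟨R1, hR1⟩ := hKc.isBounded.exists_norm_le
    obtain ⟨i, hi⟩ := Finite.exists_max (fun i => ‖y i‖)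
    refine ⟨|R1| * ‖y i‖, by positivity, fun x hx j => (abs_real_inner_le_norm _ _).trans ?_⟩
    exact mul_le_mul ((hR1 x hx).trans (le_abs_self _)) (hi j) (norm_nonneg _) (abs_nonneg _)
  -- the normalized weights
  set a : ℕ → ι → ℝ := fun n i => cs n i - cs n i₀ with ha
  have hacell : ∀ n i, cell K y (a n) i = cell K y (cs n) i := fun n i => cell_shift K y (cs n) _ i
  have hne : ∀ n i, (cell K y (cs n) i).Nonempty := fun n i => by
    by_contra h
    rw [Set.not_nonempty_iff_eq_empty] at h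
    have h1 := hpos i
    rw [← hcs n i, h] at h1
    simp at h1
  have hbox : ∀ n, a n ∈ Set.pi univ fun _ : ι => Icc (-(2 * R)) (2 * R) := by
    intro n i _
    obtain ⟨x1, hx1⟩ := hne n i
    obtain ⟨x2, hx2⟩ := hne n i₀
    have e1 := hx1.2 i₀
    have e2 := hx2.2 i
    have b1 := abs_le.1 (hR x1 hx1.1 i)
    have b2 := abs_le.1 (hR x1 hx1.1 i₀)
    have b3 := abs_le.1 (hR x2 hx2.1 i)
    have b4 := abs_le.1 (hR x2 hx2.1 i₀)
    change -(2 * R) ≤ cs n i - cs n i₀ ∧ cs n i - cs n i₀ ≤ 2 * R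
    constructor <;> linarith [b1.1, b1.2, b2.1, b2.2, b3.1, b3.2, b4.1, b4.2]
  have hcomp : IsCompact (Set.pi univ fun _ : ι => Icc (-(2 * R)) (2 * R)) :=
    isCompact_univ_pi fun _ => isCompact_Icc
  intro i
  refine tendsto_of_subseq_tendsto fun ns hns => ?_
  obtain ⟨b, _, φ, hφ, hlim⟩ := hcomp.tendsto_subseq (fun n => hbox (ns n))
  refine ⟨φ, ?_⟩
  have hlim' : ∀ j, Tendsto (fun n => a (ns (φ n)) j) atTop (𝓝 (b j)) := by
    rw [tendsto_pi_nhds] at hlim
    exact hlim
  have hsub : Tendsto (fun n => s (ns (φ n))) atTop (𝓝 0) :=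
    (hs.comp hns).comp hφ.tendsto_atTop
  have h1int : IntegrableOn (fun _ : Eu d => (1 : ℝ)) K := integrable_const _
  have hhint : IntegrableOn h K :=
    Integrable.of_bound hh.aestronglyMeasurable 1 (Eventually.of_forall fun x => by
      rw [Real.norm_eq_abs]; exact hb x)
  have hmass : ∀ j, volume.real (cell K y b j) = volume.real (cell K y c j) := by
    intro j
    have t1 := tendsto_integral_cell (l := atTop) hKcl hy hlim' j h1int
    have t2 : Tendsto (fun n => ∫ x in cell K y (a (ns (φ n))) j, s (ns (φ n)) * h x) atTop (𝓝 0) := by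
      have t3 := tendsto_integral_cell (l := atTop) hKcl hy hlim' j hhint
      have t4 := hsub.mul t3
      rw [zero_mul] at t4
      refine t4.congr fun n => ?_
      rw [integral_const_mul]
    have t5 := t1.add t2
    rw [add_zero] at t5
    have e : ∀ n, (∫ x in cell K y (a (ns (φ n))) j, (1 : ℝ)) +
        (∫ x in cell K y (a (ns (φ n))) j, s (ns (φ n)) * h x) = volume.real (cell K y c j) := by
      intro n
      have i1 : IntegrableOn (fun _ : Eu d => (1 : ℝ)) (cell K y (a (ns (φ n))) j) :=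
        h1int.mono_set (cell_subset _ _ _ _)
      have i2 : IntegrableOn (fun x : Eu d => s (ns (φ n)) * h x) (cell K y (a (ns (φ n))) j) :=
        (hhint.mono_set (cell_subset _ _ _ _)).const_mul _
      rw [← integral_add i1 i2, hacell, hcs]
    simp_rw [e] at t5
    have t6 := tendsto_nhds_unique t5 tendsto_const_nhds
    rw [← t6]
    simp
  obtain ⟨A, hA⟩ := unique_weights hKc hKv hKi hy hpos hmass
  have hb0 : b i₀ = 0 := by
    have h1 := hlim' i₀
    have h2 : (fun n => a (ns (φ n)) i₀) = fun _ => 0 := by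
      funext n; simp [ha]
    rw [h2] at h1
    exact tendsto_nhds_unique h1 tendsto_const_nhds |>.symm ▸ rfl
  have h3 := hlim' i
  have h4 : b i = c i - c i₀ := by
    have := hA i
    have := hA i₀
    linarith
  rw [h4] at h3
  exact h3

end Crest.Agent.Helper7.OT
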