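import Crest.Agent.Helper7.OT.PathB
import Crest.Agent.Helper7.OT.Unique

set_option autoImplicit false

open MeasureTheory Filter Topology Set
open scoped RealInnerProductSpace

namespace Crest.Agent.Helper7.OT

variable {d : ℕ} {ι : Type*} [Fintype ι] [Nonempty ι]

theorem phi_sub_const (y : ι → Eu d) (c : ι → ℝ) (a : ℝ) (x : Eu d) :
    phi y (fun i => c i - a) x = phi y c x + a := by
  refine le_antisymm (phi_le fun i => ?_) ?_
  · have := le_phi y c x i; linarith
  · obtain ⟨i, hi⟩ := exists_phi_eq y c x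
    have := le_phi y (fun i => c i - a) x i
    linarith

theorem phi_lip_c (y : ι → Eu d) (c c' : ι → ℝ) (x : Eu d) :
    |phi y c x - phi y c' x| ≤ ∑ i, |c i - c' i| := by
  have key : ∀ c c' : ι → ℝ, phi y c x - phi y c' x ≤ ∑ i, |c i - c' i| := by
    intro c c'
    obtain ⟨i, hi⟩ := exists_phi_eq y c x
    have h1 := le_phi y c' x i
    have h2 : |c i - c' i| ≤ ∑ j, |c j - c' j| :=
      Finset.single_le_sum (fun j _ => abs_nonneg (c j - c' j)) (Finset.mem_univ i)
    have h3 := neg_abs_le (c i - c' i)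
    linarith
  rw [abs_le]
  constructor
  · have := key c' c
    have e : ∑ i, |c' i - c i| = ∑ i, |c i - c' i| :=
      Finset.sum_congr rfl fun i _ => abs_sub_comm _ _
    linarith
  · exact key c c'

/-- the linear estimate against a test function -/
theorem test_bound {K : Set (Eu d)} (hKc : IsCompact K) (hKv : Convex ℝ K)
    (hKi : (interior K).Nonempty)
    {R : ℝ} (hR : 0 < R) (hKR : ∀ x ∈ K, ‖x‖ ≤ R)
    {y z : ι → Eu d} (hy : Function.Injective y) (hz : Function.Injective z)
    {h : Eu d → ℝ} (hh : Measurable h) (hb : ∀ x, |h x| ≤ 1 / 8) (hh0 : ∫ x in K, h x = 0)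
    {m : ι → ℝ} (hm : ∀ i, 0 < m i) (hsum : ∑ i, m i = volume.real K)
    {c e : ι → ℝ} (hc : ∀ i, volume.real (cell K y c i) = m i)
    (he : ∀ i, volume.real (cell K z e i) = m i) :
    (∫ x in K, h x * phi z e x) - (∫ x in K, h x * phi y c x) ≤
      Real.sqrt (27000 * R ^ 2 * ∫ x in K, h x ^ 2) *
        Real.sqrt (∑ i, m i * ‖z i - y i‖ ^ 2) := by
  have hfinK : volume K ≠ ⊤ := hKc.measure_lt_top.ne
  have hhint : IntegrableOn h K := by
    have := integrableOn_bdd_mul hKc Subset.rfl hh hb (f := fun _ : Eu d => (1 : ℝ)) continuous_const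
    simpa using this
  have hconst : IntegrableOn (fun _ : Eu d => (1 : ℝ)) K := integrableOn_const hfinK
  set s : ℕ → ℝ := fun n => 1 / ((n : ℝ) + 1) with hs
  have hspos : ∀ n, 0 < s n := fun n => by simp only [hs]; positivity
  have hs1 : ∀ n, s n ≤ 1 := fun n => by
    simp only [hs]
    rw [div_le_one (by positivity)]
    have : (0 : ℝ) ≤ n := Nat.cast_nonneg n
    linarith
  have hslim : Tendsto s atTop (𝓝 0) := tendsto_one_div_add_atTop_nhds_zero_nat
  have hex : ∀ n, ∃ cs : ι → ℝ, ∀ i, ∫ x in cell K z cs i, (1 + s n * h x) = m i := by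
    intro n
    have hsh : ∀ x, |s n * h x| ≤ 1 / 8 := fun x => by
      rw [abs_mul, abs_of_nonneg (hspos n).le]
      calc s n * |h x| ≤ 1 * |h x| := mul_le_mul_of_nonneg_right (hs1 n) (abs_nonneg _)
        _ ≤ 1 / 8 := by rw [one_mul]; exact hb x
    refine exists_weights hKc hz (g := fun x => 1 + s n * h x)
      (measurable_const.add (hh.const_mul _)) (fun x => ?_) (fun x => ?_) hm ?_
    · have := (abs_le.1 (hsh x)).1; linarith
    · have := (abs_le.1 (hsh x)).2; linarith
    · rw [integral_add hconst (hhint.const_mul _), integral_const_mul, hh0, setIntegral_const, hsum]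
      simp
  choose cs hcs using hex
  obtain ⟨i₀⟩ := (inferInstance : Nonempty ι)
  have hconv := tendsto_weights hKc hKv hKi hz (c := e) (fun i => by rw [he i]; exact hm i) hh
    (fun x => (hb x).trans (by norm_num)) (s := s) (fun n => (hspos n).le) hslim (cs := cs)
    (fun n i => by rw [hcs n i, he i]) i₀
  set B : ℝ := Real.sqrt (27000 * R ^ 2 * ∫ x in K, h x ^ 2) *
        Real.sqrt (∑ i, m i * ‖z i - y i‖ ^ 2) with hB
  -- bound for every n
  have hbn : ∀ n, (∫ x in K, h x * phi z (cs n) x) - (∫ x in K, h x * phi y c x) ≤ B := by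
    intro n
    have hp := path_bound hKc hKv hR hKR hy hz hh hb hh0 (hspos n).le (hs1 n) hm hsum hc (hcs n)
    have e1 : Real.sqrt (27000 * R ^ 2 * (s n ^ 2 * ∫ x in K, h x ^ 2)) =
        s n * Real.sqrt (27000 * R ^ 2 * ∫ x in K, h x ^ 2) := by
      have : 27000 * R ^ 2 * (s n ^ 2 * ∫ x in K, h x ^ 2) =
        s n ^ 2 * (27000 * R ^ 2 * ∫ x in K, h x ^ 2) := by ring
      rw [this, Real.sqrt_mul (sq_nonneg _), Real.sqrt_sq (hspos n).le]
    rw [e1, ← mul_sub, mul_assoc] at hp
    exact le_of_mul_le_mul_left hp (hspos n)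
  -- normalise
  have hnorm : ∀ (c' : ι → ℝ) (a : ℝ), ∫ x in K, h x * phi z (fun i => c' i - a) x =
      ∫ x in K, h x * phi z c' x := by
    intro c' a
    have j1 : IntegrableOn (fun x => h x * phi z c' x) K :=
      integrableOn_bdd_mul hKc Subset.rfl hh hb (continuous_phi z c')
    have : ∀ x, h x * phi z (fun i => c' i - a) x = h x * phi z c' x + a * h x := by
      intro x; rw [phi_sub_const]; ring
    simp_rw [this]
    rw [integral_add j1 (hhint.const_mul a), integral_const_mul, hh0]
    ring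
  -- limit
  have hlim : Tendsto (fun n => ∫ x in K, h x * phi z (fun i => cs n i - cs n i₀) x) atTop
      (𝓝 (∫ x in K, h x * phi z (fun i => e i - e i₀) x)) := by
    rw [tendsto_iff_norm_sub_tendsto_zero]
    have hz0 : Tendsto (fun n => (volume.real K) * ((1 / 8) *
        ∑ i, |(cs n i - cs n i₀) - (e i - e i₀)|)) atTop (𝓝 0) := by
      have h1 : Tendsto (fun n => ∑ i, |(cs n i - cs n i₀) - (e i - e i₀)|) atTop
          (𝓝 (∑ i : ι, |(e i - e i₀) - (e i - e i₀)|)) := by
        refine tendsto_finsetSum _ fun i _ => ?_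
        exact ((hconv i).sub_const _).abs
      have h2 := (h1.const_mul (1 / 8)).const_mul (volume.real K)
      simpa using h2
    refine squeeze_zero (fun n => norm_nonneg _) (fun n => ?_) hz0
    have j1 : IntegrableOn (fun x => h x * phi z (fun i => cs n i - cs n i₀) x) K :=
      integrableOn_bdd_mul hKc Subset.rfl hh hb (continuous_phi z _)
    have j2 : IntegrableOn (fun x => h x * phi z (fun i => e i - e i₀) x) K :=
      integrableOn_bdd_mul hKc Subset.rfl hh hb (continuous_phi z _)
    rw [← integral_sub j1 j2]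
    have := norm_setIntegral_le_of_norm_le_const (μ := volume) (s := K)
      (f := fun x => h x * phi z (fun i => cs n i - cs n i₀) x - h x * phi z (fun i => e i - e i₀) x)
      (C := (1 / 8) * ∑ i, |(cs n i - cs n i₀) - (e i - e i₀)|) hfinK.lt_top (fun x _ => by
        rw [← mul_sub, norm_mul, Real.norm_eq_abs, Real.norm_eq_abs]
        exact mul_le_mul (hb x) (phi_lip_c z _ _ x) (abs_nonneg _) (by norm_num))
    rw [mul_comm] at this
    exact this
  have hfin : (∫ x in K, h x * phi z (fun i => e i - e i₀) x) ≤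
      B + ∫ x in K, h x * phi y c x := by
    refine le_of_tendsto' hlim fun n => ?_
    rw [hnorm]
    have := hbn n
    linarith
  rw [hnorm] at hfin
  linarith

/-- L² stability of the potentials -/
theorem potential_stability {K : Set (Eu d)} (hKc : IsCompact K) (hKv : Convex ℝ K)
    (hKi : (interior K).Nonempty)
    {R : ℝ} (hR : 0 < R) (hKR : ∀ x ∈ K, ‖x‖ ≤ R)
    {y z : ι → Eu d} (hy : Function.Injective y) (hz : Function.Injective z)
    {m : ι → ℝ} (hm : ∀ i, 0 < m i) (hsum : ∑ i, m i = volume.real K)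
    {c e : ι → ℝ} (hc : ∀ i, volume.real (cell K y c i) = m i)
    (he : ∀ i, volume.real (cell K z e i) = m i) :
    ∃ a : ℝ, ∫ x in K, (phi z e x - phi y c x - a) ^ 2 ≤
      27000 * R ^ 2 * ∑ i, m i * ‖z i - y i‖ ^ 2 := by
  have hfinK : volume K ≠ ⊤ := hKc.measure_lt_top.ne
  have hvolpos : 0 < volume.real K := by
    rw [← hsum]
    exact Finset.sum_pos (fun i _ => hm i) Finset.univ_nonempty
  set f : Eu d → ℝ := fun x => phi z e x - phi y c x with hf
  have hfc : Continuous f := (continuous_phi z e).sub (continuous_phi y c)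
  set a : ℝ := (∫ x in K, f x) / volume.real K with ha
  refine ⟨a, ?_⟩
  set g : Eu d → ℝ := fun x => f x - a with hg
  have hgc : Continuous g := hfc.sub continuous_const
  have hgi : IntegrableOn g K := continuous_integrableOn hKc Subset.rfl hgc
  have hg0 : ∫ x in K, g x = 0 := by
    simp only [hg]
    rw [integral_sub (continuous_integrableOn hKc Subset.rfl hfc) (integrableOn_const hfinK),
      setIntegral_const, smul_eq_mul, ha]
    field_simp
    ring
  obtain ⟨B, hB⟩ := hKc.exists_bound_of_continuousOn hgc.continuousOn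
  have hB' : ∀ x ∈ K, |g x| ≤ |B| + 1 := fun x hx => by
    have := hB x hx
    rw [Real.norm_eq_abs] at this
    linarith [le_abs_self B]
  set η : ℝ := 1 / (8 * (|B| + 1)) with hη
  have hη0 : 0 < η := by positivity
  set h : Eu d → ℝ := K.indicator fun x => η * g x with hh
  have hhm : Measurable h := (hgc.measurable.const_mul η).indicator hKc.isClosed.measurableSet
  have hhb : ∀ x, |h x| ≤ 1 / 8 := by
    intro x
    by_cases hx : x ∈ K
    · simp only [hh]
      rw [indicator_of_mem hx, abs_mul, abs_of_pos hη0]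
      calc η * |g x| ≤ η * (|B| + 1) := mul_le_mul_of_nonneg_left (hB' x hx) hη0.le
        _ = 1 / 8 := by rw [hη]; field_simp
    · simp only [hh]
      rw [indicator_of_notMem hx]; norm_num
  have hhK : ∀ {u : Eu d → ℝ → ℝ}, ∫ x in K, u x (h x) = ∫ x in K, u x (η * g x) := by
    intro u
    refine setIntegral_congr_fun hKc.isClosed.measurableSet fun x hx => ?_
    simp only [hh]
    rw [indicator_of_mem hx]
  have hh0 : ∫ x in K, h x = 0 := by
    have := hhK (u := fun _ t => t)
    rw [this, integral_const_mul, hg0, mul_zero]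
  have htest := test_bound hKc hKv hKi hR hKR hy hz hhm hhb hh0 hm hsum hc he
  have e1 : ∫ x in K, h x * phi z e x = ∫ x in K, (η * g x) * phi z e x :=
    hhK (u := fun x t => t * phi z e x)
  have e2 : ∫ x in K, h x * phi y c x = ∫ x in K, (η * g x) * phi y c x :=
    hhK (u := fun x t => t * phi y c x)
  have e3 : ∫ x in K, h x ^ 2 = ∫ x in K, (η * g x) ^ 2 := hhK (u := fun _ t => t ^ 2)
  set Q := ∫ x in K, g x ^ 2 with hQ
  have hQ0 : 0 ≤ Q := integral_nonneg fun x => sq_nonneg _
  have e4 : ∫ x in K, (η * g x) ^ 2 = η ^ 2 * Q := by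
    rw [hQ, ← integral_const_mul]
    congr 1; funext x; ring
  have e5 : (∫ x in K, (η * g x) * phi z e x) - ∫ x in K, (η * g x) * phi y c x = η * Q := by
    have j1 : IntegrableOn (fun x => (η * g x) * phi z e x) K :=
      continuous_integrableOn hKc Subset.rfl ((hgc.const_mul η).mul (continuous_phi z e))
    have j2 : IntegrableOn (fun x => (η * g x) * phi y c x) K :=
      continuous_integrableOn hKc Subset.rfl ((hgc.const_mul η).mul (continuous_phi y c))
    have j3 : IntegrableOn (fun x => η * g x ^ 2) K :=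
      continuous_integrableOn hKc Subset.rfl ((hgc.pow 2).const_mul η)
    rw [← integral_sub j1 j2]
    have : ∀ x, (η * g x) * phi z e x - (η * g x) * phi y c x = η * g x ^ 2 + (η * a) * g x := by
      intro x; simp only [hg, hf]; ring
    simp_rw [this]
    rw [integral_add j3 (hgi.const_mul _), integral_const_mul, integral_const_mul, hg0]
    ring
  rw [e1, e2, e3, e4, e5] at htest
  set W2 := ∑ i, m i * ‖z i - y i‖ ^ 2 with hW2
  have hW20 : 0 ≤ W2 := Finset.sum_nonneg fun i _ => mul_nonneg (hm i).le (sq_nonneg _)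
  have e6 : Real.sqrt (27000 * R ^ 2 * (η ^ 2 * Q)) * Real.sqrt W2 =
      η * Real.sqrt (Q * (27000 * R ^ 2 * W2)) := by
    have h1 : 27000 * R ^ 2 * (η ^ 2 * Q) = η ^ 2 * (27000 * R ^ 2 * Q) := by ring
    rw [h1, Real.sqrt_mul (sq_nonneg _), Real.sqrt_sq hη0.le, mul_assoc,
      ← Real.sqrt_mul (by positivity)]
    congr 2; ring
  rw [e6] at htest
  have h2 : Q ≤ Real.sqrt (Q * (27000 * R ^ 2 * W2)) := le_of_mul_le_mul_left htest hη0
  have h3 : Q ^ 2 ≤ Q * (27000 * R ^ 2 * W2) := by
    have := pow_le_pow_left₀ hQ0 h2 2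
    rwa [Real.sq_sqrt (by positivity)] at this
  change Q ≤ _
  rcases hQ0.eq_or_lt with h0 | h0
  · rw [← h0]; positivity
  · rw [sq] at h3
    exact le_of_mul_le_mul_left h3 h0

end Crest.Agent.Helper7.OT
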