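import Crest.Agent.Helper7.OT.FinalA
import Crest.Agent.Helper7.OT.Interp
import Crest.Agent.Helper7.OT.Exist
import Crest.Agent.Helper7.OT.PathC

set_option autoImplicit false

open MeasureTheory Filter Topology Set
open scoped RealInnerProductSpace
open Crest.AnalysisR.OT

namespace Crest.Agent.Helper7.OT

variable {d : ℕ}

theorem exists_perturb (hd : 0 < d) {ι : Type*} [Finite ι] (p : ι → Eu d) {η : ℝ} (hη : 0 < η) :
    ∃ y : ι → Eu d, Function.Injective y ∧ ∀ i, ‖y i - p i‖ ≤ η := by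
  classical
  obtain ⟨N, ⟨f⟩⟩ := Finite.exists_equiv_fin ι
  set e : Eu d := EuclideanSpace.single ⟨0, hd⟩ (1 : ℝ) with he
  have hen : ‖e‖ = 1 := by simp [he]
  have he0 : e ≠ 0 := fun h => by rw [h, norm_zero] at hen; exact zero_ne_one hen
  have hbad : ∀ i j : ι, i ≠ j →
      {t : ℝ | p i + (t * (f i : ℕ)) • e = p j + (t * (f j : ℕ)) • e}.Subsingleton := by
    intro i j hij t ht s hs
    have hne : ((f i : ℕ) : ℝ) - ((f j : ℕ) : ℝ) ≠ 0 := by
      intro h
      have h1 : ((f i : ℕ) : ℝ) = ((f j : ℕ) : ℝ) := by linarith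
      have h2 : (f i : ℕ) = (f j : ℕ) := by exact_mod_cast h1
      exact hij (f.injective (Fin.ext h2))
    have ht' : p i + (t * (f i : ℕ)) • e = p j + (t * (f j : ℕ)) • e := ht
    have hs' : p i + (s * (f i : ℕ)) • e = p j + (s * (f j : ℕ)) • e := hs
    have e1 : (t * ((f i : ℕ) - (f j : ℕ))) • e = p j - p i := by
      have : (t * (((f i : ℕ) : ℝ) - (f j : ℕ))) • e = (t * (f i : ℕ)) • e - (t * (f j : ℕ)) • e := by
        rw [← sub_smul]; ring_nf
      rw [this, sub_eq_sub_iff_add_eq_add]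
      rw [add_comm] at ht'
      rw [ht']
    have e2 : (s * ((f i : ℕ) - (f j : ℕ))) • e = p j - p i := by
      have : (s * (((f i : ℕ) : ℝ) - (f j : ℕ))) • e = (s * (f i : ℕ)) • e - (s * (f j : ℕ)) • e := by
        rw [← sub_smul]; ring_nf
      rw [this, sub_eq_sub_iff_add_eq_add]
      rw [add_comm] at hs'
      rw [hs']
    rw [← e2] at e1
    have e3 := smul_left_injective ℝ he0 e1
    exact mul_right_cancel₀ hne e3
  set bad : Set ℝ := ⋃ ij : ι × ι, {t : ℝ | ij.1 ≠ ij.2 ∧
    p ij.1 + (t * (f ij.1 : ℕ)) • e = p ij.2 + (t * (f ij.2 : ℕ)) • e} with hbaddef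
  have hbadf : bad.Finite := by
    rw [hbaddef]
    refine Set.finite_iUnion fun ij => ?_
    by_cases h : ij.1 = ij.2
    · convert Set.finite_empty
      ext t
      simp [h]
    · refine (hbad ij.1 ij.2 h).finite.subset ?_
      rintro t ⟨_, ht⟩
      exact ht
  have hNpos : (0 : ℝ) < N + 1 := by positivity
  obtain ⟨t, ht, htb⟩ := (Set.Ioo_infinite (show (0 : ℝ) < η / (N + 1) by positivity)).exists_notMem_finite hbadf
  refine ⟨fun i => p i + (t * (f i : ℕ)) • e, ?_, ?_⟩
  · intro i j hij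
    by_contra hne
    exact htb (mem_iUnion.2 ⟨(i, j), hne, hij⟩)
  · intro i
    have h1 : ((f i : ℕ) : ℝ) ≤ N := by exact_mod_cast (f i).2.le
    have h2 : (0 : ℝ) ≤ (f i : ℕ) := by positivity
    simp only [add_sub_cancel_left]
    rw [norm_smul, hen, mul_one, Real.norm_eq_abs, abs_of_nonneg (mul_nonneg ht.1.le h2)]
    calc t * (f i : ℕ) ≤ (η / (N + 1)) * (N + 1) :=
          mul_le_mul ht.2.le (by linarith) h2 (by positivity)
      _ = η := by field_simp

theorem exists_partition {α : Type*} [PseudoMetricSpace α] [MeasurableSpace α]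
    [OpensMeasurableSpace α] {s : Set α} (hs : IsCompact s) (π : Measure α)
    [IsProbabilityMeasure π] (hπ : π sᶜ = 0) {η : ℝ} (hη : 0 < η) :
    ∃ (ι : Type) (_ : Fintype ι) (_ : Nonempty ι) (P : ι → Set α) (p : ι → α),
      (∀ i, MeasurableSet (P i)) ∧ Pairwise (Function.onFun Disjoint P) ∧
      (∀ i, ∀ x ∈ P i, dist x (p i) < η) ∧ (∀ i, p i ∈ s) ∧ (∀ i, π (P i) ≠ 0) ∧
      π (⋃ i, P i)ᶜ = 0 := by
  classical
  obtain ⟨t, ht, htf, hcov⟩ := hs.finite_cover_balls hη
  have : Fintype t := htf.fintype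
  let q := (Fintype.equivFin t).symm
  let Q : Fin (Fintype.card t) → Set α := fun k =>
    Metric.ball (q k : α) η \ ⋃ j ∈ {j | j < k}, Metric.ball (q j : α) η
  have hQm : ∀ k, MeasurableSet (Q k) := fun k =>
    Metric.isOpen_ball.measurableSet.diff
      ((Set.toFinite {j | j < k}).measurableSet_biUnion fun j _ => Metric.isOpen_ball.measurableSet)
  have hQd : ∀ j k, j < k → Disjoint (Q j) (Q k) := by
    intro j k hjk
    rw [Set.disjoint_left]
    rintro x ⟨h1, _⟩ ⟨_, h2⟩
    exact h2 (mem_iUnion₂.2 ⟨j, hjk, h1⟩)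
  have hQd' : Pairwise (Function.onFun Disjoint Q) := by
    intro j k hjk
    rcases lt_or_gt_of_ne hjk with h | h
    · exact hQd j k h
    · exact (hQd k j h).symm
  have hQcov : s ⊆ ⋃ k, Q k := by
    intro x hx
    have h1 := hcov hx
    obtain ⟨y, hy, hxy⟩ := mem_iUnion₂.1 h1
    have hex : ∃ k, x ∈ Metric.ball (q k : α) η := ⟨q.symm ⟨y, hy⟩, by simpa using hxy⟩
    obtain ⟨k, hk, hmin⟩ := (Set.toFinite {k | x ∈ Metric.ball (q k : α) η}).exists_minimal hex
    refine mem_iUnion.2 ⟨k, hk, fun h => ?_⟩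
    obtain ⟨j, hj, hxj⟩ := mem_iUnion₂.1 h
    exact absurd (hmin hxj (le_of_lt hj)) (not_le.2 hj)
  refine ⟨{k // π (Q k) ≠ 0}, inferInstance, ?_, fun k => Q k, fun k => q k, fun k => hQm k,
    ?_, ?_, fun k => ht (q k).2, fun k => k.2, ?_⟩
  · by_contra hne
    rw [not_nonempty_iff] at hne
    have h0 : ∀ k, π (Q k) = 0 := fun k => by
      by_contra h
      exact hne.elim ⟨k, h⟩
    have h1 : π s = 0 := measure_mono_null hQcov ((measure_iUnion_null_iff).2 h0)
    have h2 : π univ = 0 := by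
      rw [← Set.union_compl_self s]
      exact measure_union_null h1 hπ
    rw [measure_univ] at h2
    exact one_ne_zero h2
  · intro j k hjk
    exact hQd' (fun h => hjk (Subtype.ext h))
  · intro k x hx
    exact hx.1
  · have h3 : π (⋃ k ∈ {k | π (Q k) = 0}, Q k) = 0 :=
      (measure_biUnion_null_iff (Set.toFinite _).countable).2 fun k hk => hk
    refine measure_mono_null ?_ (measure_union_null hπ h3)
    intro x hx
    by_cases hxs : x ∈ s
    · right
      obtain ⟨k, hk⟩ := mem_iUnion.1 (hQcov hxs)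
      refine mem_iUnion₂.2 ⟨k, ?_, hk⟩
      by_contra h
      exact hx (mem_iUnion.2 ⟨⟨k, h⟩, hk⟩)
    · left; exact hxs

theorem sum_map_restrict {α β : Type*} [MeasurableSpace α] [MeasurableSpace β] {π : Measure α}
    {ι : Type*} [Fintype ι] {P : ι → Set α} (hPm : ∀ i, MeasurableSet (P i))
    (hPd : Pairwise (Function.onFun Disjoint P)) (hP : π (⋃ i, P i)ᶜ = 0) {f : α → β}
    (hf : Measurable f) : π.map f = ∑ i, (π.restrict (P i)).map f := by
  ext A hA
  rw [Measure.map_apply hf hA, Measure.finsetSum_apply]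
  have h1 : ∀ i, (π.restrict (P i)).map f A = π (f ⁻¹' A ∩ P i) := by
    intro i
    rw [Measure.map_apply hf hA, Measure.restrict_apply (hf hA)]
  simp_rw [h1]
  have h2 : π (⋃ i, (f ⁻¹' A ∩ P i)) = ∑' i, π (f ⁻¹' A ∩ P i) := by
    refine measure_iUnion ?_ ?_
    · intro i j hij
      exact (hPd hij).mono Set.inter_subset_right Set.inter_subset_right
    · intro i
      exact (hf hA).inter (hPm i)
  rw [tsum_fintype] at h2
  rw [← h2, ← Set.inter_iUnion]
  refine (measure_congr ?_).symm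
  have h3 : ∀ᵐ x ∂π, x ∈ ⋃ i, P i := hP
  filter_upwards [h3] with x hx
  refine propext ⟨fun h => h.1, fun h => ⟨h, hx⟩⟩

theorem phi_lip_x {ι : Type*} [Fintype ι] [Nonempty ι] {y : ι → Eu d} {c : ι → ℝ} {R : ℝ}
    (hy : ∀ i, ‖y i‖ ≤ R) (x x' : Eu d) : |phi y c x - phi y c x'| ≤ R * ‖x - x'‖ := by
  have key : ∀ x x' : Eu d, phi y c x - phi y c x' ≤ R * ‖x - x'‖ := by
    intro x x'
    obtain ⟨i, hi⟩ := exists_phi_eq y c x
    have h1 := le_phi y c x' i
    have h2 : ⟪x, y i⟫ - ⟪x', y i⟫ = ⟪x - x', y i⟫ := by rw [inner_sub_left]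
    have h3 : ⟪x - x', y i⟫ ≤ ‖x - x'‖ * ‖y i‖ := real_inner_le_norm _ _
    have h4 := mul_le_mul_of_nonneg_left (hy i) (norm_nonneg (x - x'))
    rw [hi]
    linarith
  rw [abs_le]
  have h1 := key x x'
  have h2 := key x' x
  rw [norm_sub_rev] at h2
  constructor <;> linarith

theorem main_eta (hd : 0 < d) {K : Set (Eu d)} (hKc : IsCompact K) (hKv : Convex ℝ K)
    (hKi : (interior K).Nonempty) {R : ℝ} (hR : 0 < R) (hKR : ∀ x ∈ K, ‖x‖ ≤ R) :
    ∃ C r₀ : ℝ, 0 < C ∧ 0 < r₀ ∧ ∀ (μ ν : Measure (Eu d)) (T T' : Eu d → Eu d)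
      (π : Measure (Eu d × Eu d)), IsProbabilityMeasure π → π.map Prod.fst = μ →
      π.map Prod.snd = ν → (∀ᵐ p ∂π, ‖p.1‖ ≤ R ∧ ‖p.2‖ ≤ R) →
      IsOptimalMap (uniformProbOn K) μ T → IsOptimalMap (uniformProbOn K) ν T' →
      ∀ r, 0 < r → r ≤ r₀ → ∀ η, 0 < η → η ≤ 1 →
        ∫ x in K, ‖T x - T' x‖ ^ 2 ≤ C * ((1 / r ^ 2) * (27000 * R ^ 2 * (volume.real K *
          ((∫ p, ‖p.1 - p.2‖ ^ 2 ∂π) + (8 * R + 4) * η))) + r +
          (1 / r) * (4 * R * η * volume.real K)) := by
  obtain ⟨C, r₀, hC, hr₀, hmain⟩ := interp_gap (R := R + 1) hKc hKv hKi (by linarith)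
  refine ⟨C, r₀, hC, hr₀, ?_⟩
  intro μ ν T T' π hπp hπ1 hπ2 hπR hT hT' r hr hrr η hη hη1
  have hKcl := hKc.isClosed
  have hKm := hKcl.measurableSet
  have hvt : volume K ≠ ⊤ := hKc.measure_lt_top.ne
  have hv0 : volume K ≠ 0 := by
    intro h
    have h1 := measure_mono_null interior_subset h
    exact (isOpen_interior.measure_pos volume hKi).ne' h1
  set V := volume.real K with hV
  have hVpos : 0 < V := ENNReal.toReal_pos hv0 hvt
  have hVof : volume K = ENNReal.ofReal V := (ENNReal.ofReal_toReal hvt).symm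
  -- partition
  set s : Set (Eu d × Eu d) := Metric.closedBall 0 R ×ˢ Metric.closedBall 0 R with hs
  have hsc : IsCompact s := (isCompact_closedBall _ _).prod (isCompact_closedBall _ _)
  have hπs : π sᶜ = 0 := by
    have : ∀ᵐ p ∂π, p ∈ s := by
      filter_upwards [hπR] with p hp
      exact ⟨by simpa using hp.1, by simpa using hp.2⟩
    exact this
  obtain ⟨ι, hfι, hnι, P, p, hPm, hPd, hPdist, hps, hPpos, hPcov⟩ :=
    exists_partition hsc π hπs (show (0 : ℝ) < η / 2 by positivity)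
  obtain ⟨y, hyinj, hyp⟩ := exists_perturb hd (fun i => (p i).1) (show (0 : ℝ) < η / 2 by positivity)
  obtain ⟨z, hzinj, hzp⟩ := exists_perturb hd (fun i => (p i).2) (show (0 : ℝ) < η / 2 by positivity)
  have hyR : ∀ i, ‖y i‖ ≤ R + 1 := by
    intro i
    have h1 : ‖(p i).1‖ ≤ R := by simpa using (hps i).1
    have h2 := hyp i
    have h3 : y i = (y i - (p i).1) + (p i).1 := by abel
    rw [h3]
    exact (norm_add_le _ _).trans (by linarith)
  have hzR : ∀ i, ‖z i‖ ≤ R + 1 := by
    intro i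
    have h1 : ‖(p i).2‖ ≤ R := by simpa using (hps i).2
    have h2 := hzp i
    have h3 : z i = (z i - (p i).2) + (p i).2 := by abel
    rw [h3]
    exact (norm_add_le _ _).trans (by linarith)
  have hPy : ∀ i, ∀ q ∈ P i, ‖q.1 - y i‖ ≤ η := by
    intro i q hq
    have h1 := hPdist i q hq
    have h2 : dist q.1 (p i).1 ≤ dist q (p i) := le_max_left _ _
    rw [dist_eq_norm] at h2
    have h3 := hyp i
    rw [norm_sub_rev] at h3
    have h4 : q.1 - y i = (q.1 - (p i).1) + ((p i).1 - y i) := by abel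
    rw [h4]
    exact (norm_add_le _ _).trans (by linarith)
  have hPz : ∀ i, ∀ q ∈ P i, ‖q.2 - z i‖ ≤ η := by
    intro i q hq
    have h1 := hPdist i q hq
    have h2 : dist q.2 (p i).2 ≤ dist q (p i) := le_max_right _ _
    rw [dist_eq_norm] at h2
    have h3 := hzp i
    rw [norm_sub_rev] at h3
    have h4 : q.2 - z i = (q.2 - (p i).2) + ((p i).2 - z i) := by abel
    rw [h4]
    exact (norm_add_le _ _).trans (by linarith)
  -- masses
  set m : ι → ℝ := fun i => V * π.real (P i) with hm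
  have hmpos : ∀ i, 0 < m i := fun i =>
    mul_pos hVpos (ENNReal.toReal_pos (hPpos i) (measure_ne_top _ _))
  have hsumπ : ∑ i, π.real (P i) = 1 := by
    have h1 : π (⋃ i, P i) = ∑' i, π (P i) := measure_iUnion hPd hPm
    rw [tsum_fintype] at h1
    have h2 : π (⋃ i, P i) = 1 := by
      have h3 := measure_add_measure_compl (μ := π) (MeasurableSet.iUnion hPm)
      rw [hPcov, add_zero, measure_univ] at h3
      exact h3
    rw [h2] at h1
    simp only [measureReal_def]
    rw [← ENNReal.toReal_sum (fun i _ => measure_ne_top _ _), ← h1, ENNReal.toReal_one]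
  have hsum : ∑ i, m i = V := by
    rw [hm, ← Finset.mul_sum, hsumπ, mul_one]
  have hKint : ∫ x in K, (1 : ℝ) = V := by simp [hV]
  obtain ⟨c, hc⟩ := exists_weights hKc hyinj (g := fun _ => 1) measurable_const
    (fun _ => by norm_num) (fun _ => by norm_num) hmpos (by rw [hsum, hKint])
  obtain ⟨e, he⟩ := exists_weights hKc hzinj (g := fun _ => 1) measurable_const
    (fun _ => by norm_num) (fun _ => by norm_num) hmpos (by rw [hsum, hKint])
  have hc' : ∀ i, volume.real (cell K y c i) = m i := fun i => by rw [← hc i]; simp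
  have he' : ∀ i, volume.real (cell K z e i) = m i := fun i => by rw [← he i]; simp
  obtain ⟨a, ha⟩ := potential_stability hKc hKv hKi hR hKR hyinj hzinj hmpos hsum hc' he'
  have hmass : ∀ i, ∀ (w : ι → Eu d) (b : ι → ℝ), volume.real (cell K w b i) = m i →
      π (P i) = (volume K)⁻¹ * volume (cell K w b i) := by
    intro i w b hb
    have h1 : volume (cell K w b i) ≠ ⊤ := measure_ne_top_of_subset (cell_subset _ _ _ _) hvt
    have h2 : volume (cell K w b i) = ENNReal.ofReal (m i) := by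
      rw [← hb, measureReal_def, ENNReal.ofReal_toReal h1]
    rw [h2, hm]
    simp only
    rw [ENNReal.ofReal_mul hVpos.le, ← hVof, ← mul_assoc, ENNReal.inv_mul_cancel hv0 hvt, one_mul,
      measureReal_def, ENNReal.ofReal_toReal (measure_ne_top _ _)]
  have hμR : ∀ᵐ x ∂μ, ‖x‖ ≤ R := by
    rw [← hπ1, ae_map_iff measurable_fst.aemeasurable (measurableSet_le measurable_norm measurable_const)]
    filter_upwards [hπR] with q hq using hq.1
  have hνR : ∀ᵐ x ∂ν, ‖x‖ ≤ R := by
    rw [← hπ2, ae_map_iff measurable_snd.aemeasurable (measurableSet_le measurable_norm measurable_const)]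
    filter_upwards [hπR] with q hq using hq.2
  obtain ⟨ε, hε1, hε2, hε3, hε4⟩ := eps_bound hd hKc hKi hR.le hKR hT hμR hyinj (c := c)
    (μs := fun i => (π.restrict (P i)).map Prod.fst)
    (by rw [← hπ1]; exact sum_map_restrict hPm hPd hPcov measurable_fst)
    (fun i => by
      rw [Measure.map_apply measurable_fst MeasurableSet.univ, Set.preimage_univ,
        Measure.restrict_apply_univ]
      exact hmass i y c (hc' i))
    (η := η) (fun i => by
      rw [ae_map_iff measurable_fst.aemeasurable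
        (measurableSet_le (by fun_prop) measurable_const)]
      filter_upwards [ae_restrict_mem (hPm i)] with q hq using hPy i q hq)
  obtain ⟨ε', hε'1, hε'2, hε'3, hε'4⟩ := eps_bound hd hKc hKi hR.le hKR hT' hνR hzinj (c := e)
    (μs := fun i => (π.restrict (P i)).map Prod.snd)
    (by rw [← hπ2]; exact sum_map_restrict hPm hPd hPcov measurable_snd)
    (fun i => by
      rw [Measure.map_apply measurable_snd MeasurableSet.univ, Set.preimage_univ,
        Measure.restrict_apply_univ]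
      exact hmass i z e (he' i))
    (η := η) (fun i => by
      rw [ae_map_iff measurable_snd.aemeasurable
        (measurableSet_le (by fun_prop) measurable_const)]
      filter_upwards [ae_restrict_mem (hPm i)] with q hq using hPz i q hq)
  -- a.e. bounds on T
  have hrest : volume.restrict K = (volume K) • uniformProbOn K := by
    rw [uniformProbOn, smul_smul, ENNReal.mul_inv_cancel hv0 hvt, one_smul]
  have hTR : ∀ᵐ x ∂(volume.restrict K), ‖T x‖ ≤ R := by
    rw [hrest]
    exact Measure.ae_smul_measure (ae_comp_of_map hT.1 hT.2.1 hμR) _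
  have hT'R : ∀ᵐ x ∂(volume.restrict K), ‖T' x‖ ≤ R := by
    rw [hrest]
    exact Measure.ae_smul_measure (ae_comp_of_map hT'.1 hT'.2.1 hνR) _
  have hgap := hmain (fun x => phi y c x + a) (phi z e) T T' ε ε'
    ((continuous_phi y c).add continuous_const) (continuous_phi z e) hT.1 hT'.1
    (fun x _ x' _ => by
      have := phi_lip_x (c := c) hyR x x'
      rwa [add_sub_add_right_eq_sub])
    (fun x _ x' _ => phi_lip_x (c := e) hzR x x') hε1 hε'1 hε2 hε'2
    (by
      filter_upwards [hTR, ae_restrict_mem hKm] with x hx hxK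
      refine ⟨by linarith, fun x' hx' => ?_⟩
      have := hε3 x hxK x' hx'
      linarith)
    (by
      filter_upwards [hT'R, ae_restrict_mem hKm] with x hx hxK
      refine ⟨by linarith, fun x' hx' => ?_⟩
      exact hε'3 x hxK x' hx') r hr hrr
  refine hgap.trans (mul_le_mul_of_nonneg_left ?_ hC.le)
  have hsumle : ∑ i, m i * ‖z i - y i‖ ^ 2 ≤ V * ((∫ q, ‖q.1 - q.2‖ ^ 2 ∂π) + (8 * R + 4) * η) := by
    have hfint : Integrable (fun q : Eu d × Eu d => ‖q.1 - q.2‖ ^ 2) π := by
      refine Integrable.of_bound (C := (2 * R) ^ 2)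
        ((measurable_fst.sub measurable_snd).norm.pow_const 2).aestronglyMeasurable ?_
      filter_upwards [hπR] with q hq
      rw [Real.norm_eq_abs, abs_of_nonneg (by positivity)]
      have := norm_sub_le q.1 q.2
      exact pow_le_pow_left₀ (norm_nonneg _) (by linarith [hq.1, hq.2]) 2
    have hgint : Integrable (fun q : Eu d × Eu d => ‖q.1 - q.2‖ ^ 2 + (8 * R + 4) * η) π :=
      hfint.add (integrable_const _)
    have e1 : (∫ q, ‖q.1 - q.2‖ ^ 2 ∂π) + (8 * R + 4) * η =
        ∑ i, ∫ q in P i, (‖q.1 - q.2‖ ^ 2 + (8 * R + 4) * η) ∂π := by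
      have h1 : ∫ q, (‖q.1 - q.2‖ ^ 2 + (8 * R + 4) * η) ∂π =
          (∫ q, ‖q.1 - q.2‖ ^ 2 ∂π) + (8 * R + 4) * η := by
        rw [integral_add hfint (integrable_const _)]
        simp
      rw [← h1]
      have h2 := integral_iUnion (μ := π) (f := fun q : Eu d × Eu d => ‖q.1 - q.2‖ ^ 2 + (8 * R + 4) * η)
        hPm hPd hgint.integrableOn
      rw [tsum_fintype] at h2
      rw [← h2]
      have h3 : ∀ᵐ q ∂π, q ∈ ⋃ i, P i := hPcov
      rw [Measure.restrict_eq_self_of_ae_mem h3]
    rw [e1, Finset.mul_sum]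
    refine Finset.sum_le_sum fun i _ => ?_
    rw [hm]
    simp only
    rw [mul_assoc]
    refine mul_le_mul_of_nonneg_left ?_ hVpos.le
    have h4 : π.real (P i) * ‖z i - y i‖ ^ 2 = ∫ q in P i, ‖z i - y i‖ ^ 2 ∂π := by
      rw [setIntegral_const, smul_eq_mul]
    rw [h4]
    refine integral_mono_ae (integrable_const _) hgint.integrableOn ?_
    filter_upwards [ae_restrict_mem (hPm i), ae_restrict_of_ae hπR] with q hq hqR
    have h5 := hPy i q hq
    have h6 := hPz i q hq
    rw [norm_sub_rev] at h6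
    have h7 : z i - y i = (z i - q.2) + (q.2 - q.1) + (q.1 - y i) := by abel
    have h8 : ‖z i - y i‖ ≤ ‖q.1 - q.2‖ + 2 * η := by
      rw [h7, norm_sub_rev q.1 q.2]
      refine (norm_add_le _ _).trans ?_
      have := norm_add_le (z i - q.2) (q.2 - q.1)
      linarith
    have h9 : ‖q.1 - q.2‖ ≤ 2 * R := by
      have := norm_sub_le q.1 q.2
      linarith [hqR.1, hqR.2]
    have h10 := pow_le_pow_left₀ (norm_nonneg _) h8 2
    refine h10.trans ?_
    have h11 : η ^ 2 ≤ η := by nlinarith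
    have h12 : ‖q.1 - q.2‖ * η ≤ 2 * R * η := mul_le_mul_of_nonneg_right h9 hη.le
    nlinarith
  have hphi : ∫ x in K, (phi y c x + a - phi z e x) ^ 2 ≤ 27000 * R ^ 2 * (V *
      ((∫ q, ‖q.1 - q.2‖ ^ 2 ∂π) + (8 * R + 4) * η)) := by
    have h1 : ∀ x, (phi y c x + a - phi z e x) ^ 2 = (phi z e x - phi y c x - a) ^ 2 := by
      intro x; ring
    simp_rw [h1]
    exact ha.trans (mul_le_mul_of_nonneg_left hsumle (by positivity))
  refine add_le_add (add_le_add (mul_le_mul_of_nonneg_left hphi (by positivity)) le_rfl)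
    (mul_le_mul_of_nonneg_left ?_ (by positivity))
  linarith

end Crest.Agent.Helper7.OT
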