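import Crest.Agent.Helper7.OT.FinalB

set_option autoImplicit false

open MeasureTheory Filter Topology Set
open scoped RealInnerProductSpace ENNReal NNReal
open Crest.AnalysisR.OT

namespace Crest.Agent.Helper7.OT

variable {d : ℕ}

theorem le_zero_of_forall_small {X F : ℝ} (h : ∀ η : ℝ, 0 < η → η ≤ 1 → X ≤ F * η) : X ≤ 0 := by
  by_contra hX
  push Not at hX
  have h1 := h 1 one_pos le_rfl
  rw [mul_one] at h1
  have hF : 0 < F := lt_of_lt_of_le hX h1
  have h2 := h (X / (2 * F)) (by positivity) (by rw [div_le_one (by positivity)]; linarith)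
  have h3 : F * (X / (2 * F)) = X / 2 := by field_simp
  rw [h3] at h2
  linarith

theorem main_cube (hd : 0 < d) {K : Set (Eu d)} (hKc : IsCompact K) (hKv : Convex ℝ K)
    (hKi : (interior K).Nonempty) {R : ℝ} (hR : 0 < R) (hKR : ∀ x ∈ K, ‖x‖ ≤ R) :
    ∃ C : ℝ, 0 < C ∧ ∀ (μ ν : Measure (Eu d)) (T T' : Eu d → Eu d)
      (π : Measure (Eu d × Eu d)), IsProbabilityMeasure π → π.map Prod.fst = μ →
      π.map Prod.snd = ν → (∀ᵐ p ∂π, ‖p.1‖ ≤ R ∧ ‖p.2‖ ≤ R) →
      IsOptimalMap (uniformProbOn K) μ T → IsOptimalMap (uniformProbOn K) ν T' →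
        ∫ x in K, ‖T x - T' x‖ ^ 2 ≤ C * (∫ p, ‖p.1 - p.2‖ ^ 2 ∂π) ^ (1 / 3 : ℝ) := by
  obtain ⟨C, r₀, hC, hr₀, hmain⟩ := main_eta hd hKc hKv hKi hR hKR
  set V := volume.real K with hV
  have hV0 : 0 ≤ V := measureReal_nonneg
  set A : ℝ := 27000 * R ^ 2 * V with hA
  have hA0 : 0 ≤ A := by positivity
  refine ⟨C * (A + 1) + (2 * R) ^ 2 * V / r₀, by positivity, ?_⟩
  intro μ ν T T' π hπp hπ1 hπ2 hπR hT hT'
  set D := ∫ x in K, ‖T x - T' x‖ ^ 2 with hD
  set w := ∫ p, ‖p.1 - p.2‖ ^ 2 ∂π with hw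
  have hw0 : 0 ≤ w := integral_nonneg fun p => sq_nonneg _
  have hvt : volume K ≠ ⊤ := hKc.measure_lt_top.ne
  have hv0 : volume K ≠ 0 := by
    intro h
    have h1 := measure_mono_null interior_subset h
    exact (isOpen_interior.measure_pos volume hKi).ne' h1
  have hrest : volume.restrict K = (volume K) • uniformProbOn K := by
    rw [uniformProbOn, smul_smul, ENNReal.mul_inv_cancel hv0 hvt, one_smul]
  have hμR : ∀ᵐ x ∂μ, ‖x‖ ≤ R := by
    rw [← hπ1, ae_map_iff measurable_fst.aemeasurable (measurableSet_le measurable_norm measurable_const)]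
    filter_upwards [hπR] with q hq using hq.1
  have hνR : ∀ᵐ x ∂ν, ‖x‖ ≤ R := by
    rw [← hπ2, ae_map_iff measurable_snd.aemeasurable (measurableSet_le measurable_norm measurable_const)]
    filter_upwards [hπR] with q hq using hq.2
  have hTR : ∀ᵐ x ∂(volume.restrict K), ‖T x‖ ≤ R := by
    rw [hrest]
    exact Measure.ae_smul_measure (ae_comp_of_map hT.1 hT.2.1 hμR) _
  have hT'R : ∀ᵐ x ∂(volume.restrict K), ‖T' x‖ ≤ R := by
    rw [hrest]
    exact Measure.ae_smul_measure (ae_comp_of_map hT'.1 hT'.2.1 hνR) _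
  have hfin : IsFiniteMeasure ((volume : Measure (Eu d)).restrict K) :=
    ⟨by simpa using hKc.measure_lt_top⟩
  have hbd : ∀ᵐ x ∂(volume.restrict K), ‖T x - T' x‖ ^ 2 ≤ (2 * R) ^ 2 := by
    filter_upwards [hTR, hT'R] with x hx1 hx3
    have h5 := norm_sub_le (T x) (T' x)
    exact pow_le_pow_left₀ (norm_nonneg _) (by linarith) 2
  have hD1 : D ≤ (2 * R) ^ 2 * V := by
    have hi : Integrable (fun x => ‖T x - T' x‖ ^ 2) (volume.restrict K) := by
      refine integrable_of_ae_bound (C := (2 * R) ^ 2)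
        ((hT.1.sub hT'.1).norm.pow_const 2).aestronglyMeasurable ?_
      filter_upwards [hbd] with x hx
      rw [abs_of_nonneg (by positivity)]
      exact hx
    have := integral_mono_ae hi (integrable_const _) hbd
    rw [integral_const, smul_eq_mul, measureReal_restrict_apply_univ] at this
    rw [mul_comm]
    exact this
  have hr : ∀ r, 0 < r → r ≤ r₀ → D ≤ C * (A * w / r ^ 2 + r) := by
    intro r hr hrr
    have h0 := hmain μ ν T T' π hπp hπ1 hπ2 hπR hT hT' r hr hrr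
    have h1 : D - C * (A * w / r ^ 2 + r) ≤ 0 := by
      refine le_zero_of_forall_small (F := C * ((1 / r ^ 2) * (A * (8 * R + 4)) +
        (1 / r) * (4 * R * V))) fun η hη hη1 => ?_
      have h2 := h0 η hη hη1
      have e : C * ((1 / r ^ 2) * (27000 * R ^ 2 * (V * (w + (8 * R + 4) * η))) + r +
          (1 / r) * (4 * R * η * V)) = C * (A * w / r ^ 2 + r) +
          C * ((1 / r ^ 2) * (A * (8 * R + 4)) + (1 / r) * (4 * R * V)) * η := by
        rw [hA]; field_simp; ring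
      linarith
    linarith
  set t := w ^ (1 / 3 : ℝ) with ht
  have ht0 : 0 ≤ t := Real.rpow_nonneg hw0 _
  have ht3 : t ^ 3 = w := by
    rw [ht, ← Real.rpow_natCast, ← Real.rpow_mul hw0]
    norm_num
  rcases ht0.eq_or_lt with h0 | h0
  · have hw00 : w = 0 := by rw [← ht3, ← h0]; norm_num
    rw [← h0, mul_zero]
    have : D - 0 ≤ 0 := by
      refine le_zero_of_forall_small (F := C * r₀) fun η hη hη1 => ?_
      have := hr (r₀ * η) (by positivity) (by nlinarith)
      rw [hw00, mul_zero, zero_div, zero_add] at this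
      linarith
    linarith
  · by_cases htr : t ≤ r₀
    · have h1 := hr t h0 htr
      have h2 : A * w / t ^ 2 + t = (A + 1) * t := by
        rw [← ht3]; field_simp
      rw [h2] at h1
      have h3 : 0 ≤ (2 * R) ^ 2 * V / r₀ * t := by positivity
      linarith
    · push Not at htr
      have h1 : (2 * R) ^ 2 * V ≤ (2 * R) ^ 2 * V / r₀ * t := by
        rw [div_mul_eq_mul_div, le_div_iff₀ hr₀]
        exact mul_le_mul_of_nonneg_left htr.le (by positivity)
      have h3 : 0 ≤ C * (A + 1) * t := by positivity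
      linarith

theorem main_result (d : ℕ) (hd : 2 ≤ d) (K : Set (Eu d)) (hKc : IsCompact K) (hKv : Convex ℝ K)
    (hKi : (interior K).Nonempty) (Y : Set (Eu d)) (hYc : IsCompact Y) :
    ∃ C : ℝ≥0, ∀ μ ν : Measure (Eu d), IsProbabilityOn Y μ → IsProbabilityOn Y ν →
      ∀ Tμ Tν : Eu d → Eu d,
        IsOptimalMap (uniformProbOn K) μ Tμ → IsOptimalMap (uniformProbOn K) ν Tν →
        ∀ π : Measure (Eu d × Eu d), IsPairCoupling μ ν π →
          ∫⁻ x, ‖Tμ x - Tν x‖ₑ ^ 2 ∂(uniformProbOn K) ≤ C * quadCost π ^ (1 / 3 : ℝ) := by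
  obtain ⟨R1, hR1⟩ := hKc.isBounded.exists_norm_le
  obtain ⟨R2, hR2⟩ := hYc.isBounded.exists_norm_le
  set R : ℝ := |R1| + |R2| + 1 with hR
  have hR0 : 0 < R := by positivity
  have hKR : ∀ x ∈ K, ‖x‖ ≤ R := fun x hx => by
    have := hR1 x hx
    have h1 := le_abs_self R1
    have h2 := abs_nonneg R2
    linarith
  have hYR : ∀ x ∈ Y, ‖x‖ ≤ R := fun x hx => by
    have := hR2 x hx
    have h1 := le_abs_self R2
    have h2 := abs_nonneg R1
    linarith
  obtain ⟨C, hC, hmain⟩ := main_cube (by omega) hKc hKv hKi hR0 hKR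
  have hvt : volume K ≠ ⊤ := hKc.measure_lt_top.ne
  have hv0 : volume K ≠ 0 := by
    intro h
    have h1 := measure_mono_null interior_subset h
    exact (isOpen_interior.measure_pos volume hKi).ne' h1
  set V := volume.real K with hV
  have hVpos : 0 < V := ENNReal.toReal_pos hv0 hvt
  have hVof : volume K = ENNReal.ofReal V := (ENNReal.ofReal_toReal hvt).symm
  refine ⟨Real.toNNReal (C / V), ?_⟩
  intro μ ν hμ hν Tμ Tν hTμ hTν π hπ
  have hμp := hμ.1
  have hπp : IsProbabilityMeasure π := ⟨by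
    have h1 : μ univ = 1 := hμp.measure_univ
    rw [← hπ.1, Measure.map_apply measurable_fst MeasurableSet.univ, Set.preimage_univ] at h1
    exact h1⟩
  have hYm : MeasurableSet Y := hYc.isClosed.measurableSet
  have hπR : ∀ᵐ p ∂π, ‖p.1‖ ≤ R ∧ ‖p.2‖ ≤ R := by
    have h1 : ∀ᵐ x ∂μ, x ∈ Y := hμ.2
    have h2 : ∀ᵐ x ∂ν, x ∈ Y := hν.2
    rw [← hπ.1] at h1
    rw [← hπ.2] at h2
    have h1' := ae_of_ae_map measurable_fst.aemeasurable h1
    have h2' := ae_of_ae_map measurable_snd.aemeasurable h2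
    filter_upwards [h1', h2'] with p hp1 hp2
    exact ⟨hYR _ hp1, hYR _ hp2⟩
  have hm := hmain μ ν Tμ Tν π hπp hπ.1 hπ.2 hπR hTμ hTν
  have hμR : ∀ᵐ x ∂μ, ‖x‖ ≤ R := by
    have h1 : ∀ᵐ x ∂μ, x ∈ Y := hμ.2
    filter_upwards [h1] with x hx using hYR x hx
  have hνR : ∀ᵐ x ∂ν, ‖x‖ ≤ R := by
    have h1 : ∀ᵐ x ∂ν, x ∈ Y := hν.2
    filter_upwards [h1] with x hx using hYR x hx
  have hrest : volume.restrict K = (volume K) • uniformProbOn K := by
    rw [uniformProbOn, smul_smul, ENNReal.mul_inv_cancel hv0 hvt, one_smul]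
  have hTR : ∀ᵐ x ∂(volume.restrict K), ‖Tμ x‖ ≤ R := by
    rw [hrest]
    exact Measure.ae_smul_measure (ae_comp_of_map hTμ.1 hTμ.2.1 hμR) _
  have hT'R : ∀ᵐ x ∂(volume.restrict K), ‖Tν x‖ ≤ R := by
    rw [hrest]
    exact Measure.ae_smul_measure (ae_comp_of_map hTν.1 hTν.2.1 hνR) _
  have hfin : IsFiniteMeasure ((volume : Measure (Eu d)).restrict K) :=
    ⟨by simpa using hKc.measure_lt_top⟩
  have hi : Integrable (fun x => ‖Tμ x - Tν x‖ ^ 2) (volume.restrict K) := by
    refine integrable_of_ae_bound (C := (2 * R) ^ 2)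
      ((hTμ.1.sub hTν.1).norm.pow_const 2).aestronglyMeasurable ?_
    filter_upwards [hTR, hT'R] with x hx1 hx3
    rw [abs_of_nonneg (by positivity)]
    have h5 := norm_sub_le (Tμ x) (Tν x)
    exact pow_le_pow_left₀ (norm_nonneg _) (by linarith) 2
  have hL : ∫⁻ x, ‖Tμ x - Tν x‖ₑ ^ 2 ∂(uniformProbOn K) =
      ENNReal.ofReal ((∫ x in K, ‖Tμ x - Tν x‖ ^ 2) / V) := by
    rw [uniformProbOn, lintegral_smul_measure, div_eq_inv_mul,
      ENNReal.ofReal_mul (inv_nonneg.2 hVpos.le), ENNReal.ofReal_inv_of_pos hVpos, ← hVof,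
      ofReal_integral_eq_lintegral_ofReal hi (Eventually.of_forall fun x => by positivity)]
    simp_rw [enorm_sq_eq]
    rfl
  have hfint : Integrable (fun q : Eu d × Eu d => ‖q.1 - q.2‖ ^ 2) π := by
    refine Integrable.of_bound (C := (2 * R) ^ 2)
      ((measurable_fst.sub measurable_snd).norm.pow_const 2).aestronglyMeasurable ?_
    filter_upwards [hπR] with q hq
    rw [Real.norm_eq_abs, abs_of_nonneg (by positivity)]
    have := norm_sub_le q.1 q.2
    exact pow_le_pow_left₀ (norm_nonneg _) (by linarith [hq.1, hq.2]) 2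
  have hQ : quadCost π = ENNReal.ofReal (∫ p, ‖p.1 - p.2‖ ^ 2 ∂π) := by
    rw [quadCost, ofReal_integral_eq_lintegral_ofReal hfint (Eventually.of_forall fun x => by positivity)]
    simp_rw [enorm_sq_eq]
  have hw0 : 0 ≤ ∫ p, ‖p.1 - p.2‖ ^ 2 ∂π := integral_nonneg fun p => sq_nonneg _
  rw [hL, hQ, ENNReal.ofReal_rpow_of_nonneg hw0 (by norm_num)]
  change _ ≤ ENNReal.ofReal (C / V) * _
  rw [← ENNReal.ofReal_mul (by positivity)]
  refine ENNReal.ofReal_le_ofReal ?_
  rw [div_mul_eq_mul_div]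
  exact div_le_div_of_nonneg_right hm hVpos.le

end Crest.Agent.Helper7.OT
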