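import Crest.Agent.Helper7.OT.PLCell

set_option autoImplicit false

open MeasureTheory Filter Topology Set
open scoped RealInnerProductSpace

namespace Crest.Agent.Helper7.OT

variable {d : ℕ} {ι : Type*}

/-- the test function `ζ` -/
noncomputable def zeta (l : Eu d) (a : ℝ) (x : Eu d) : ℝ := ⟪l, x⟫ + a * (‖x‖ ^ 2 / 2)

/-- the weight `ω` -/
noncomputable def omg (κ : ℝ) (x : Eu d) : ℝ := 1 - κ * (‖x‖ ^ 2 / 2)

/-- the polynomial `P` -/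
noncomputable def pol (κ : ℝ) (l : Eu d) (a q s : ℝ) (x : Eu d) : ℝ :=
  omg κ x + s * zeta l a x - s ^ 2 * (q / 2)

theorem continuous_zeta (l : Eu d) (a : ℝ) : Continuous (zeta l a) := by unfold zeta; fun_prop
theorem continuous_omg (κ : ℝ) : Continuous (omg (d := d) κ) := by unfold omg; fun_prop
theorem continuous_pol (κ : ℝ) (l : Eu d) (a q s : ℝ) : Continuous (pol κ l a q s) := by
  unfold pol
  have h1 := continuous_zeta l a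
  have h2 := continuous_omg (d := d) κ
  fun_prop

theorem abs_zeta_le {R : ℝ} (hR : 0 ≤ R) (l : Eu d) (a : ℝ) {x : Eu d} (hx : ‖x‖ ≤ R) :
    |zeta l a x| ≤ (‖l‖ + |a| * R) * R := by
  unfold zeta
  have h1 : |⟪l, x⟫| ≤ ‖l‖ * R :=
    (abs_real_inner_le_norm l x).trans (mul_le_mul_of_nonneg_left hx (norm_nonneg _))
  have h2 : |a * (‖x‖ ^ 2 / 2)| ≤ |a| * R * R := by
    rw [abs_mul, abs_of_nonneg (show (0 : ℝ) ≤ ‖x‖ ^ 2 / 2 by positivity), mul_assoc]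
    refine mul_le_mul_of_nonneg_left ?_ (abs_nonneg _)
    nlinarith [norm_nonneg x]
  calc |⟪l, x⟫ + a * (‖x‖ ^ 2 / 2)| ≤ |⟪l, x⟫| + |a * (‖x‖ ^ 2 / 2)| := abs_add_le _ _
    _ ≤ ‖l‖ * R + |a| * R * R := add_le_add h1 h2
    _ = _ := by ring

/-- joint concavity of the polynomial -/
theorem pol_concave {κ : ℝ} (hκ : 0 < κ) {R : ℝ} (hR : 0 ≤ R) (l : Eu d) (a : ℝ) {q : ℝ}
    (hq : (‖l‖ + |a| * R) ^ 2 ≤ κ * q) {s : ℝ} (hs0 : 0 ≤ s) (hs1 : s ≤ 1)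
    {x0 x1 : Eu d} (hx0 : ‖x0‖ ≤ R) (hx1 : ‖x1‖ ≤ R) :
    (1 - s) * pol κ l a q 0 x0 + s * pol κ l a q 1 x1 ≤
      pol κ l a q s ((1 - s) • x0 + s • x1) := by
  set xs := (1 - s) • x0 + s • x1 with hxs
  set δ := x1 - x0 with hδ
  have hxsR : ‖xs‖ ≤ R := by
    refine (norm_add_le _ _).trans ?_
    rw [norm_smul, norm_smul, Real.norm_eq_abs, Real.norm_eq_abs, abs_of_nonneg hs0,
      abs_of_nonneg (sub_nonneg.2 hs1)]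
    nlinarith
  -- |x_s|^2 identity
  have hn : ‖xs‖ ^ 2 = (1 - s) * ‖x0‖ ^ 2 + s * ‖x1‖ ^ 2 - s * (1 - s) * ‖δ‖ ^ 2 := by
    have e1 : ‖xs‖ ^ 2 = (1 - s) ^ 2 * ‖x0‖ ^ 2 + 2 * ((1 - s) * s) * ⟪x0, x1⟫ + s ^ 2 * ‖x1‖ ^ 2 := by
      rw [hxs, norm_add_sq_real, norm_smul, norm_smul, inner_smul_left, inner_smul_right]
      simp only [Real.norm_eq_abs, mul_pow, sq_abs, conj_trivial]
      ring
    have e2 : ‖δ‖ ^ 2 = ‖x1‖ ^ 2 - 2 * ⟪x1, x0⟫ + ‖x0‖ ^ 2 := by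
      rw [hδ, norm_sub_sq_real]
    rw [e1, e2, real_inner_comm x0 x1]
    ring
  have hx1s : xs = x1 - (1 - s) • δ := by
    rw [hxs, hδ, smul_sub, sub_smul, sub_smul]
    simp only [one_smul]
    abel
  have hinn : ⟪l, xs⟫ = ⟪l, x1⟫ - (1 - s) * ⟪l, δ⟫ := by
    rw [hx1s, inner_sub_right, inner_smul_right]
  have hn2 : ‖xs‖ ^ 2 = ‖x1‖ ^ 2 - (1 - s) * ⟪δ, xs + x1⟫ := by
    have gen : ∀ u v : Eu d, ⟪u - v, u + v⟫ = ‖u‖ ^ 2 - ‖v‖ ^ 2 := by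
      intro u v
      rw [inner_sub_left, inner_add_right, inner_add_right, real_inner_comm u v,
        real_inner_self_eq_norm_sq, real_inner_self_eq_norm_sq]
      ring
    have e3 : ⟪x1 - xs, x1 + xs⟫ = ‖x1‖ ^ 2 - ‖xs‖ ^ 2 := gen _ _
    have e4 : x1 - xs = (1 - s) • δ := by rw [hx1s]; abel
    rw [e4, inner_smul_left] at e3
    simp only [conj_trivial] at e3
    rw [add_comm xs x1]
    linarith
  -- main inequality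
  have hmain : ⟪l, δ⟫ + a / 2 * ⟪δ, xs + x1⟫ ≤ κ / 2 * ‖δ‖ ^ 2 + q / 2 := by
    have h1 : ⟪l, δ⟫ ≤ ‖l‖ * ‖δ‖ := real_inner_le_norm _ _
    have h2 : a / 2 * ⟪δ, xs + x1⟫ ≤ |a| * R * ‖δ‖ := by
      have h3 : |⟪δ, xs + x1⟫| ≤ ‖δ‖ * (2 * R) := by
        refine (abs_real_inner_le_norm _ _).trans (mul_le_mul_of_nonneg_left ?_ (norm_nonneg _))
        refine (norm_add_le _ _).trans ?_
        linarith
      calc a / 2 * ⟪δ, xs + x1⟫ ≤ |a / 2 * ⟪δ, xs + x1⟫| := le_abs_self _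
        _ = |a| / 2 * |⟪δ, xs + x1⟫| := by rw [abs_mul, abs_div]; norm_num
        _ ≤ |a| / 2 * (‖δ‖ * (2 * R)) := mul_le_mul_of_nonneg_left h3 (by positivity)
        _ = |a| * R * ‖δ‖ := by ring
    set β := ‖l‖ + |a| * R with hβ
    have h4 : β * ‖δ‖ ≤ κ / 2 * ‖δ‖ ^ 2 + q / 2 := by
      have h5 : 0 ≤ (κ * ‖δ‖ - β) ^ 2 := sq_nonneg _
      have h6 : 2 * κ * (β * ‖δ‖) ≤ 2 * κ * (κ / 2 * ‖δ‖ ^ 2 + q / 2) := by nlinarith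
      exact le_of_mul_le_mul_left h6 (by positivity)
    calc ⟪l, δ⟫ + a / 2 * ⟪δ, xs + x1⟫ ≤ ‖l‖ * ‖δ‖ + |a| * R * ‖δ‖ := add_le_add h1 h2
      _ = β * ‖δ‖ := by rw [hβ]; ring
      _ ≤ _ := h4
  have hid : pol κ l a q s xs - ((1 - s) * pol κ l a q 0 x0 + s * pol κ l a q 1 x1) =
      s * (1 - s) * (κ / 2 * ‖δ‖ ^ 2 + q / 2 - (⟪l, δ⟫ + a / 2 * ⟪δ, xs + x1⟫)) := by
    unfold pol omg zeta
    have e5 : s * (a * (‖xs‖ ^ 2 / 2)) = s * (a * ((‖x1‖ ^ 2 - (1 - s) * ⟪δ, xs + x1⟫) / 2)) := by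
      rw [← hn2]
    have e6 : κ * (‖xs‖ ^ 2 / 2) = κ * (((1 - s) * ‖x0‖ ^ 2 + s * ‖x1‖ ^ 2 - s * (1 - s) * ‖δ‖ ^ 2) / 2) := by
      rw [← hn]
    rw [mul_add s ⟪l, xs⟫, e5, e6, hinn]
    ring
  have : 0 ≤ s * (1 - s) * (κ / 2 * ‖δ‖ ^ 2 + q / 2 - (⟪l, δ⟫ + a / 2 * ⟪δ, xs + x1⟫)) :=
    mul_nonneg (mul_nonneg hs0 (sub_nonneg.2 hs1)) (by linarith)
  linarith

end Crest.Agent.Helper7.OT
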