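import Crest.Agent.Helper7.OT.GTa

set_option autoImplicit false

open MeasureTheory Filter Topology Set
open scoped RealInnerProductSpace

namespace Crest.Agent.Helper7.OT

variable {d : ℕ} {ι : Type*}

theorem continuous_integrableOn {F : Type*} [NormedAddCommGroup F] {K A : Set (Eu d)}
    (hK : IsCompact K) (hA : A ⊆ K) {f : Eu d → F} (hf : Continuous f) : IntegrableOn f A :=
  (hf.continuousOn.integrableOn_compact hK).mono_set hA

theorem omg_bounds {κ : ℝ} (hκ : 0 < κ) {R : ℝ} (hκR : κ * R ^ 2 ≤ 1 / 4)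
    {x : Eu d} (hx : ‖x‖ ≤ R) : 7 / 8 ≤ omg κ x ∧ omg κ x ≤ 1 := by
  unfold omg
  have h1 : ‖x‖ ^ 2 ≤ R ^ 2 := pow_le_pow_left₀ (norm_nonneg _) hx 2
  have h2 : κ * ‖x‖ ^ 2 ≤ κ * R ^ 2 := mul_le_mul_of_nonneg_left h1 hκ.le
  have h3 : 0 ≤ κ * ‖x‖ ^ 2 := by positivity
  constructor <;> linarith

theorem pol_lower {κ : ℝ} (hκ : 0 < κ) {R : ℝ} (hR : 0 ≤ R) (hκR : κ * R ^ 2 ≤ 1 / 4)
    {l : Eu d} {a q : ℝ} (hq0 : 0 ≤ q) (hsmall : (‖l‖ + |a| * R) * R + q / 2 ≤ 1 / 8)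
    {s : ℝ} (hs0 : 0 ≤ s) (hs1 : s ≤ 1) {x : Eu d} (hx : ‖x‖ ≤ R) :
    3 / 4 ≤ pol κ l a q s x := by
  unfold pol
  have h1 := (omg_bounds hκ hκR hx).1
  have h2 := abs_zeta_le hR l a hx
  have h3 : -(‖l‖ + |a| * R) * R ≤ s * zeta l a x := by
    have h4 : |s * zeta l a x| ≤ (‖l‖ + |a| * R) * R := by
      rw [abs_mul, abs_of_nonneg hs0]
      calc s * |zeta l a x| ≤ 1 * |zeta l a x| := mul_le_mul_of_nonneg_right hs1 (abs_nonneg _)
        _ ≤ _ := by rw [one_mul]; exact h2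
    have := (abs_le.1 h4).1
    linarith
  have h5 : s ^ 2 * (q / 2) ≤ q / 2 := by
    have : s ^ 2 ≤ 1 := by nlinarith
    nlinarith
  linarith

section

variable [Fintype ι] [Nonempty ι]
  {K : Set (Eu d)} (hKc : IsCompact K) (hKv : Convex ℝ K) {R : ℝ} (hR : 0 ≤ R)
  (hKR : ∀ x ∈ K, ‖x‖ ≤ R) {y : ι → Eu d} (hy : Function.Injective y) {c0 c1 : ι → ℝ}
  {κ : ℝ} (hκ : 0 < κ) (hκR : κ * R ^ 2 ≤ 1 / 4)
  {l : ι → Eu d} {a q : ι → ℝ} (hq0 : ∀ i, 0 ≤ q i)
  (hq : ∀ i, (‖l i‖ + |a i| * R) ^ 2 ≤ κ * q i)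
  (hsmall : ∀ i, (‖l i‖ + |a i| * R) * R + q i / 2 ≤ 1 / 8)

include hKc hKv hR hKR hκ hκR hq0 hq hsmall

omit [Nonempty ι] [Fintype ι] in
theorem cell_PL {s : ℝ} (hs0 : 0 < s) (hs1 : s < 1) (i : ι) :
    (∫ x in cell K y c0 i, omg κ x) ^ (1 - s) *
      (∫ x in cell K y c1 i, pol κ (l i) (a i) (q i) 1 x) ^ s ≤
    ∫ x in cell K y (fun j => (1 - s) * c0 j + s * c1 j) i, pol κ (l i) (a i) (q i) s x := by
  have e0 : ∀ x : Eu d, pol κ (l i) (a i) (q i) 0 x = omg κ x := by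
    intro x; unfold pol; ring
  have hK := hKc.isClosed
  refine prekopa_sets hs0 hs1 (measurableSet_cell hK y c0 i) (measurableSet_cell hK y c1 i)
    (measurableSet_cell hK y _ i) (continuous_omg κ) (continuous_pol κ _ _ _ _)
    (continuous_pol κ _ _ _ _) (fun x hx => ?_) (fun x hx => ?_)
    (continuous_integrableOn hKc (cell_subset _ _ _ _) (continuous_omg κ))
    (continuous_integrableOn hKc (cell_subset _ _ _ _) (continuous_pol κ _ _ _ _))
    (continuous_integrableOn hKc (cell_subset _ _ _ _) (continuous_pol κ _ _ _ _))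
    (fun x hx z hz => ⟨cell_combo hKv hx hz hs0.le hs1.le, ?_⟩) (fun x hx => ?_)
  · exact le_trans (by norm_num) (omg_bounds hκ hκR (hKR x hx.1)).1
  · exact le_trans (by norm_num) (pol_lower hκ hR hκR (hq0 i) (hsmall i) zero_le_one le_rfl
      (hKR x hx.1))
  · have := pol_concave hκ hR (l i) (a i) (hq i) hs0.le hs1.le (hKR x hx.1) (hKR z hz.1)
    rwa [e0] at this
  · exact le_trans (by norm_num) (pol_lower hκ hR hκR (hq0 i) (hsmall i) hs0.le hs1.le
      (hKR x hx.1))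

include hy

theorem claimA (h0 : ∀ i, 0 < ∫ x in cell K y c0 i, omg κ x)
    (h1 : ∀ i, 0 < ∫ x in cell K y c1 i, pol κ (l i) (a i) (q i) 1 x)
    {s : ℝ} (hs0 : 0 < s) (hs1 : s < 1) :
    ∑ i, (∫ x in cell K y c0 i, omg κ x) *
      Real.log ((∫ x in cell K y c1 i, pol κ (l i) (a i) (q i) 1 x) /
        (∫ x in cell K y c0 i, omg κ x)) ≤
    ∑ i, ∫ x in cell K y (fun j => (1 - s) * c0 j + s * c1 j) i, zeta (l i) (a i) x := by
  have hK := hKc.isClosed
  set cs : ι → ℝ := fun j => (1 - s) * c0 j + s * c1 j with hcs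
  set I0 : ι → ℝ := fun i => ∫ x in cell K y c0 i, omg κ x with hI0
  set I1 : ι → ℝ := fun i => ∫ x in cell K y c1 i, pol κ (l i) (a i) (q i) 1 x with hI1
  have step1 : ∀ i, I0 i * (1 + s * Real.log (I1 i / I0 i)) ≤
      ∫ x in cell K y cs i, pol κ (l i) (a i) (q i) s x := by
    intro i
    refine le_trans ?_ (cell_PL hKc hKv hR hKR hκ hκR hq0 hq hsmall hs0 hs1 i)
    have hu : 0 < I1 i / I0 i := div_pos (h1 i) (h0 i)
    have e1 : (I0 i) ^ (1 - s) * (I1 i) ^ s = I0 i * (I1 i / I0 i) ^ s := by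
      rw [Real.div_rpow (h1 i).le (h0 i).le, Real.rpow_sub (h0 i), Real.rpow_one]
      ring
    change _ ≤ (I0 i) ^ (1 - s) * (I1 i) ^ s
    rw [e1]
    refine mul_le_mul_of_nonneg_left ?_ (h0 i).le
    rw [Real.rpow_def_of_pos hu]
    have := Real.add_one_le_exp (Real.log (I1 i / I0 i) * s)
    linarith
  -- sum of the right-hand sides
  have hsumI0 : ∑ i, I0 i = ∫ x in K, omg κ x :=
    sum_integral_cell hK hy c0 (continuous_integrableOn hKc Subset.rfl (continuous_omg κ))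
  have hsumCs : ∑ i, ∫ x in cell K y cs i, omg κ x = ∫ x in K, omg κ x :=
    sum_integral_cell hK hy cs (continuous_integrableOn hKc Subset.rfl (continuous_omg κ))
  have step2 : ∀ i, ∫ x in cell K y cs i, pol κ (l i) (a i) (q i) s x ≤
      (∫ x in cell K y cs i, omg κ x) + s * ∫ x in cell K y cs i, zeta (l i) (a i) x := by
    intro i
    have i1 : IntegrableOn (fun x => omg κ x) (cell K y cs i) :=
      continuous_integrableOn hKc (cell_subset _ _ _ _) (continuous_omg κ)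
    have i2 : IntegrableOn (fun x => s * zeta (l i) (a i) x) (cell K y cs i) :=
      continuous_integrableOn hKc (cell_subset _ _ _ _) ((continuous_zeta _ _).const_mul s)
    rw [← integral_const_mul, ← integral_add i1 i2]
    refine setIntegral_mono_on (continuous_integrableOn hKc (cell_subset _ _ _ _)
      (continuous_pol κ _ _ _ _)) (i1.add i2) (measurableSet_cell hK y cs i) fun x _ => ?_
    unfold pol
    have : 0 ≤ s ^ 2 * (q i / 2) := mul_nonneg (sq_nonneg _) (by linarith [hq0 i])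
    linarith
  have step3 : ∑ i, I0 i * (1 + s * Real.log (I1 i / I0 i)) ≤
      (∫ x in K, omg κ x) + s * ∑ i, ∫ x in cell K y cs i, zeta (l i) (a i) x := by
    rw [← hsumCs, Finset.mul_sum, ← Finset.sum_add_distrib]
    exact Finset.sum_le_sum fun i _ => (step1 i).trans (step2 i)
  have step4 : ∑ i, I0 i * (1 + s * Real.log (I1 i / I0 i)) =
      (∫ x in K, omg κ x) + s * ∑ i, I0 i * Real.log (I1 i / I0 i) := by
    rw [← hsumI0, Finset.mul_sum, ← Finset.sum_add_distrib]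
    refine Finset.sum_congr rfl fun i _ => ?_
    ring
  rw [step4] at step3
  have step5 : s * ∑ i, I0 i * Real.log (I1 i / I0 i) ≤
      s * ∑ i, ∫ x in cell K y cs i, zeta (l i) (a i) x := by linarith
  exact le_of_mul_le_mul_left step5 hs0

theorem claimB (h0 : ∀ i, 0 < ∫ x in cell K y c0 i, omg κ x)
    (h1 : ∀ i, 0 < ∫ x in cell K y c1 i, pol κ (l i) (a i) (q i) 1 x) :
    ∑ i, (∫ x in cell K y c0 i, omg κ x) *
      Real.log ((∫ x in cell K y c1 i, pol κ (l i) (a i) (q i) 1 x) /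
        (∫ x in cell K y c0 i, omg κ x)) ≤
    ∑ i, ∫ x in cell K y c0 i, zeta (l i) (a i) x := by
  have hK := hKc.isClosed
  have hlim : Tendsto (fun s : ℝ => ∑ i, ∫ x in cell K y (fun j => (1 - s) * c0 j + s * c1 j) i,
      zeta (l i) (a i) x) (𝓝[>] 0) (𝓝 (∑ i, ∫ x in cell K y c0 i, zeta (l i) (a i) x)) := by
    refine tendsto_finsetSum _ fun i _ => ?_
    refine tendsto_integral_cell hK hy (fun j => ?_) i
      (continuous_integrableOn hKc Subset.rfl (continuous_zeta _ _))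
    have : Continuous fun s : ℝ => (1 - s) * c0 j + s * c1 j := by fun_prop
    have h2 := this.tendsto 0
    simp only [sub_zero, one_mul, zero_mul, add_zero] at h2
    exact h2.mono_left nhdsWithin_le_nhds
  refine ge_of_tendsto hlim ?_
  have : Ioo (0 : ℝ) 1 ∈ 𝓝[>] (0 : ℝ) := Ioo_mem_nhdsGT one_pos
  filter_upwards [this] with s hs
  exact claimA hKc hKv hR hKR hy hκ hκR hq0 hq hsmall h0 h1 hs.1 hs.2

end

end Crest.Agent.Helper7.OT
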