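import Crest.Agent.Helper7.OT.GTb

set_option autoImplicit false

open MeasureTheory Filter Topology Set
open scoped RealInnerProductSpace

namespace Crest.Agent.Helper7.OT

variable {d : ℕ} {ι : Type*}

theorem log_ge_quad {u : ℝ} (hu : 1 / 2 ≤ u) : (u - 1) - (u - 1) ^ 2 ≤ Real.log u := by
  -- f(u) = log u - (u-1) + (u-1)^2 has derivative (u-1)(2-1/u)
  have hu0 : 0 < u := by linarith
  let f : ℝ → ℝ := fun t => Real.log t - (t - 1) + (t - 1) ^ 2
  have hder : ∀ t : ℝ, 0 < t → HasDerivAt f (1 / t - 1 + 2 * (t - 1)) t := by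
    intro t ht
    have h1 := (Real.hasDerivAt_log ht.ne')
    have h2 : HasDerivAt (fun t : ℝ => t - 1) 1 t := (hasDerivAt_id t).sub_const 1
    have h3 := (h1.sub h2).add (h2.pow 2)
    refine h3.congr_deriv ?_
    ring
  have hf1 : f 1 = 0 := by simp [f]
  have key : 0 ≤ f u := by
    rcases le_total 1 u with h | h
    · -- increasing on [1, ∞)
      have hmono : MonotoneOn f (Ici 1) := by
        refine monotoneOn_of_deriv_nonneg (convex_Ici 1) ?_ ?_ ?_
        · exact fun t ht => (hder t (lt_of_lt_of_le one_pos ht)).continuousAt.continuousWithinAt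
        · intro t ht
          rw [interior_Ici] at ht
          exact (hder t (lt_trans one_pos ht)).differentiableAt.differentiableWithinAt
        · intro t ht
          rw [interior_Ici] at ht
          have ht0 : 0 < t := lt_trans one_pos ht
          rw [(hder t ht0).deriv]
          have : 1 / t - 1 + 2 * (t - 1) = (t - 1) * (2 * t - 1) / t := by field_simp; ring
          rw [this]
          have h1 : (1 : ℝ) < t := ht
          apply div_nonneg (mul_nonneg (by linarith) (by linarith)) ht0.le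
      have := hmono (self_mem_Ici) (show u ∈ Ici 1 from h) h
      rw [hf1] at this
      exact this
    · have hanti : AntitoneOn f (Icc (1 / 2) 1) := by
        refine antitoneOn_of_deriv_nonpos (convex_Icc _ _) ?_ ?_ ?_
        · exact fun t ht => (hder t (by linarith [ht.1])).continuousAt.continuousWithinAt
        · intro t ht
          rw [interior_Icc] at ht
          exact (hder t (by linarith [ht.1])).differentiableAt.differentiableWithinAt
        · intro t ht
          rw [interior_Icc] at ht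
          have ht0 : 0 < t := by linarith [ht.1]
          rw [(hder t ht0).deriv]
          have : 1 / t - 1 + 2 * (t - 1) = (t - 1) * (2 * t - 1) / t := by field_simp; ring
          rw [this]
          apply div_nonpos_of_nonpos_of_nonneg _ ht0.le
          apply mul_nonpos_of_nonpos_of_nonneg (by linarith [ht.2]) (by linarith [ht.1])
      have := hanti (show u ∈ Icc (1 / 2) 1 from ⟨hu, h⟩) (show (1 : ℝ) ∈ Icc (1 / 2) 1 from
        ⟨by norm_num, le_rfl⟩) h
      rw [hf1] at this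
      exact this
  simp only [f] at key
  linarith

theorem scalar_q {m U V C1 : ℝ} (hm : 0 < m) (hC1 : C1 ≤ (8 / 7) * m) :
    (U + V) ^ 2 / 131072 * C1 ≤ (m * (U ^ 2 + V ^ 2)) / 57000 := by
  have hUV2 : (U + V) ^ 2 ≤ 2 * (U ^ 2 + V ^ 2) := by nlinarith [sq_nonneg (U - V)]
  have h1 : (U + V) ^ 2 / 131072 * C1 ≤ (U + V) ^ 2 / 131072 * ((8 / 7) * m) :=
    mul_le_mul_of_nonneg_left hC1 (by positivity)
  have h2 : (U + V) ^ 2 / 131072 * ((8 / 7) * m) = (m * (U + V) ^ 2) * (8 / 917504) := by ring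
  rw [h2] at h1
  have h3 := mul_le_mul_of_nonneg_left hUV2 hm.le
  have h4 : 0 ≤ m * (U ^ 2 + V ^ 2) := by positivity
  linarith

theorem scalar_z {m U V H η z : ℝ} (hm : 0 < m) (hHη : H ^ 2 ≤ (8 / 7) * (m * η))
    (hz : |z| ≤ (U + V) / 4096 * H) : z ≤ (4 / 7) * η + (m * (U ^ 2 + V ^ 2)) / 16000000 := by
  have hUV2 : (U + V) ^ 2 ≤ 2 * (U ^ 2 + V ^ 2) := by nlinarith [sq_nonneg (U - V)]
  have h1 : z ≤ (U + V) / 4096 * H := (le_abs_self z).trans hz
  have h2 : (U + V) / 4096 * H ≤ m * ((U + V) / 4096) ^ 2 / 2 + H ^ 2 / m / 2 := by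
    have h3 : H ^ 2 / m = (H / m) ^ 2 * m := by field_simp
    rw [h3]
    have h4 : (U + V) / 4096 * H = ((U + V) / 4096) * (H / m) * m := by field_simp
    rw [h4]
    have h5 := mul_nonneg hm.le (sq_nonneg ((U + V) / 4096 - H / m))
    have h6 : m * ((U + V) / 4096 - H / m) ^ 2 = m * ((U + V) / 4096) ^ 2
      - 2 * (((U + V) / 4096) * (H / m) * m) + (H / m) ^ 2 * m := by ring
    rw [h6] at h5
    linarith
  have h5 : H ^ 2 / m ≤ (8 / 7) * η := by
    rw [div_le_iff₀ hm]; linarith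
  have h6 : m * ((U + V) / 4096) ^ 2 / 2 ≤ (m * (U ^ 2 + V ^ 2)) / 16000000 := by
    have : m * ((U + V) / 4096) ^ 2 / 2 = m * (U + V) ^ 2 / 33554432 := by ring
    rw [this]
    have h3 := mul_le_mul_of_nonneg_left hUV2 hm.le
    have h4 : 0 ≤ m * (U ^ 2 + V ^ 2) := by positivity
    linarith
  linarith

theorem scalar_D {m U V H η I0 I1 C1 : ℝ} (hm : 0 < m) (hU : 0 ≤ U) (hV : 0 ≤ V)
    (hU2 : U ≤ 2) (hV2 : V ≤ 1 / 2) (hHη : H ^ 2 ≤ (8 / 7) * (m * η))
    (hI0 : (7 / 8) * m ≤ I0) (hC1 : C1 ≤ (8 / 7) * m) (hη : 0 ≤ η)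
    (hD : |I1 - I0| ≤ V / 256 * m + H + C1 * ((U + V) / 4096 + (U + V) ^ 2 / 131072)) :
    (I1 - I0) ^ 2 / I0 ≤ (128 / 49) * η + (m * (U ^ 2 + V ^ 2)) / 11500 := by
  have hI0p : 0 < I0 := by linarith
  have hUV : 0 ≤ U + V := by linarith
  have hUV2 : (U + V) ^ 2 ≤ 2 * (U ^ 2 + V ^ 2) := by nlinarith [sq_nonneg (U - V)]
  set W := m * (U ^ 2 + V ^ 2) with hW
  have hW0 : 0 ≤ W := by positivity
  have hD2 : |I1 - I0| ≤ H + m * (U + V) / 230 := by
    refine hD.trans ?_
    have h1 : C1 * ((U + V) / 4096 + (U + V) ^ 2 / 131072) ≤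
        (8 / 7 * m) * ((U + V) / 4096 + (U + V) ^ 2 / 131072) :=
      mul_le_mul_of_nonneg_right hC1 (by positivity)
    have h2 : (U + V) ^ 2 ≤ (5 / 2) * (U + V) := by nlinarith
    have h3 : V / 256 * m ≤ (U + V) / 256 * m := by
      apply mul_le_mul_of_nonneg_right _ hm.le; linarith
    have h4 : (8 / 7 * m) * ((U + V) / 4096 + (U + V) ^ 2 / 131072) ≤
        (8 / 7 * m) * ((U + V) / 4096 + (5 / 2) * (U + V) / 131072) := by
      apply mul_le_mul_of_nonneg_left _ (by positivity); linarith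
    have h5 : 0 ≤ m * (U + V) := by positivity
    have h6 : (8 / 7 * m) * ((U + V) / 4096 + (5 / 2) * (U + V) / 131072) =
      (m * (U + V)) * (8 / 7 / 4096 + 20 / 7 / 131072) := by ring
    rw [h6] at h4
    have h7 : (U + V) / 256 * m = (m * (U + V)) / 256 := by ring
    rw [h7] at h3
    linarith
  have hD3 : (I1 - I0) ^ 2 ≤ 2 * H ^ 2 + 2 * (m * (U + V) / 230) ^ 2 := by
    have h1 : (I1 - I0) ^ 2 ≤ (H + m * (U + V) / 230) ^ 2 := by
      rw [← sq_abs (I1 - I0)]
      exact pow_le_pow_left₀ (abs_nonneg _) hD2 2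
    have h2 := sq_nonneg (H - m * (U + V) / 230)
    have h3 : (H + m * (U + V) / 230) ^ 2 + (H - m * (U + V) / 230) ^ 2 =
      2 * H ^ 2 + 2 * (m * (U + V) / 230) ^ 2 := by ring
    linarith
  rw [div_le_iff₀ hI0p]
  have h1 : 2 * (m * (U + V) / 230) ^ 2 ≤ m * (4 * W / 52900) := by
    have : 2 * (m * (U + V) / 230) ^ 2 = m * (m * (U + V) ^ 2 * (2 / 52900)) := by ring
    rw [this, hW]
    apply mul_le_mul_of_nonneg_left _ hm.le
    have := mul_le_mul_of_nonneg_left hUV2 hm.le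
    linarith
  have h2 : ((128 / 49) * η + W / 11500) * ((7 / 8) * m) ≤ ((128 / 49) * η + W / 11500) * I0 :=
    mul_le_mul_of_nonneg_left hI0 (by positivity)
  have h3 : 2 * H ^ 2 ≤ (16 / 7) * (m * η) := by linarith
  have h4 : 0 ≤ m * W := by positivity
  have h5 : ((128 / 49) * η + W / 11500) * ((7 / 8) * m) =
    (16 / 7) * (m * η) + (7 / 92000) * (m * W) := by ring
  rw [h5] at h2
  have h6 : m * (4 * W / 52900) = (4 / 52900) * (m * W) := by ring
  rw [h6] at h1
  linarith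

/-- the per-cell scalar inequality -/
theorem scalar_ineq {m U V H η I0 I1 C1 z : ℝ} (hm : 0 < m) (hU : 0 ≤ U) (hV : 0 ≤ V)
    (hU2 : U ≤ 2) (hV2 : V ≤ 1 / 2) (hHη : H ^ 2 ≤ (8 / 7) * (m * η))
    (hI0 : (7 / 8) * m ≤ I0) (hC1 : C1 ≤ (8 / 7) * m) (hη : 0 ≤ η)
    (hz : |z| ≤ (U + V) / 4096 * H)
    (hD : |I1 - I0| ≤ V / 256 * m + H + C1 * ((U + V) / 4096 + (U + V) ^ 2 / 131072)) :
    (1 / 8192) * (m * (U ^ 2 + V ^ 2)) - 3.2 * η ≤
      (1 / 4096) * (m * (U ^ 2 + V ^ 2)) - z - (U + V) ^ 2 / 131072 * C1 -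
        (I1 - I0) ^ 2 / I0 := by
  have h1 := scalar_q (U := U) (V := V) hm hC1
  have h2 := scalar_z hm hHη hz
  have h3 := scalar_D hm hU hV hU2 hV2 hHη hI0 hC1 hη hD
  have h4 : 0 ≤ m * (U ^ 2 + V ^ 2) := by positivity
  linarith

end Crest.Agent.Helper7.OT
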