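import Crest.Agent.Helper7.OT.GTc

set_option autoImplicit false

open MeasureTheory Filter Topology Set
open scoped RealInnerProductSpace

namespace Crest.Agent.Helper7.OT

variable {d : ℕ} {ι : Type*}

theorem integrableOn_bdd_mul {K A : Set (Eu d)} (hK : IsCompact K) (hA : A ⊆ K)
    {h : Eu d → ℝ} (hh : Measurable h) {C : ℝ} (hb : ∀ x, |h x| ≤ C)
    {F : Type*} [NormedAddCommGroup F] [NormedSpace ℝ F] {f : Eu d → F} (hf : Continuous f) :
    IntegrableOn (fun x => h x • f x) A :=
  (continuous_integrableOn hK hA hf).bdd_smul C hh.aestronglyMeasurable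
    (Eventually.of_forall fun x => by rw [Real.norm_eq_abs]; exact hb x)

theorem cauchy_schwarz_set {A : Set (Eu d)} {h : Eu d → ℝ}
    (h1 : IntegrableOn (fun x => |h x|) A) (h2 : IntegrableOn (fun x => h x ^ 2) A)
    (hA : volume A ≠ ⊤) :
    (∫ x in A, |h x|) ^ 2 ≤ volume.real A * ∫ x in A, h x ^ 2 := by
  set H := ∫ x in A, |h x| with hH
  set η := ∫ x in A, h x ^ 2 with hη
  set v := volume.real A with hv
  have hη0 : 0 ≤ η := integral_nonneg fun x => sq_nonneg _
  have key : ∀ t : ℝ, 0 ≤ η - 2 * t * H + t ^ 2 * v := by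
    intro t
    have e : ∫ x in A, (|h x| - t) ^ 2 = η - 2 * t * H + t ^ 2 * v := by
      have e1 : ∀ x, (|h x| - t) ^ 2 = h x ^ 2 - 2 * t * |h x| + t ^ 2 := by
        intro x
        have := sq_abs (h x)
        rw [← this]; ring
      simp_rw [e1]
      have i2 : IntegrableOn (fun x => 2 * t * |h x|) A := h1.const_mul (2 * t)
      have i3 : IntegrableOn (fun _ : Eu d => t ^ 2) A := integrableOn_const hA
      have i4 : IntegrableOn (fun x => h x ^ 2 - 2 * t * |h x|) A := h2.sub i2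
      rw [integral_add i4 i3, integral_sub h2 i2, integral_const_mul, setIntegral_const,
        smul_eq_mul]
      ring
    rw [← e]
    exact integral_nonneg fun x => sq_nonneg _
  by_cases hv0 : v = 0
  · have : H = 0 := by
      rw [hH]
      have h3 : volume A = 0 := by
        rw [hv, measureReal_def, ENNReal.toReal_eq_zero_iff] at hv0
        exact hv0.resolve_right hA
      rw [Measure.restrict_eq_zero.2 h3, integral_zero_measure]
    rw [this, hv0]; simp
  · have hvp : 0 < v := lt_of_le_of_ne measureReal_nonneg (Ne.symm hv0)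
    have := key (H / v)
    have e2 : η - 2 * (H / v) * H + (H / v) ^ 2 * v = η - H ^ 2 / v := by
      field_simp; ring
    rw [e2, sub_nonneg, div_le_iff₀ hvp] at this
    linarith

set_option maxHeartbeats 2000000 in
/-- Generalised transport inequality for barycentres of Laguerre cells. -/
theorem gt_main [Fintype ι] [Nonempty ι] {K : Set (Eu d)} (hKc : IsCompact K) (hKv : Convex ℝ K)
    {R : ℝ} (hR : 0 < R)
    (hKR : ∀ x ∈ K, ‖x‖ ≤ R) {y : ι → Eu d} (hy : Function.Injective y) {c0 c1 : ι → ℝ}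
    {h : Eu d → ℝ} (hh : Measurable h) (hb : ∀ x, |h x| ≤ 1 / 8)
    (hm : ∀ i, 0 < volume.real (cell K y c0 i))
    (hmass : ∀ i, ∫ x in cell K y c1 i, (1 + h x) = volume.real (cell K y c0 i)) :
    ∑ i, ‖(∫ x in cell K y c1 i, (1 + h x) • x) - ∫ x in cell K y c0 i, x‖ ^ 2 /
      volume.real (cell K y c0 i) ≤ 27000 * R ^ 2 * ∫ x in K, h x ^ 2 := by
  have hK := hKc.isClosed
  set m : ι → ℝ := fun i => volume.real (cell K y c0 i) with hmdef
  set C0 : ι → Set (Eu d) := fun i => cell K y c0 i with hC0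
  set C1 : ι → Set (Eu d) := fun i => cell K y c1 i with hC1
  set A : ι → Eu d := fun i => (∫ x in C1 i, (1 + h x) • x) - ∫ x in C0 i, x with hA
  set B : ι → ℝ := fun i => (∫ x in C1 i, (1 + h x) * (‖x‖ ^ 2 / 2)) -
    ∫ x in C0 i, (‖x‖ ^ 2 / 2) with hB
  set κ : ℝ := 1 / (256 * R ^ 2) with hκdef
  have hκ : 0 < κ := by positivity
  have hκR : κ * R ^ 2 = 1 / 256 := by rw [hκdef]; field_simp
  set U : ι → ℝ := fun i => ‖A i‖ / (R * m i) with hU
  set V : ι → ℝ := fun i => |B i| / (R ^ 2 * m i) with hV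
  set l : ι → Eu d := fun i => (1 / (4096 * R ^ 2 * m i)) • A i with hl
  set a : ι → ℝ := fun i => B i / (4096 * R ^ 4 * m i) with ha
  set q : ι → ℝ := fun i => (U i + V i) ^ 2 / 65536 with hq
  have hmp : ∀ i, 0 < m i := hm
  have hU0 : ∀ i, 0 ≤ U i := fun i => by have := hmp i; simp only [hU]; positivity
  have hV0 : ∀ i, 0 ≤ V i := fun i => by have := hmp i; simp only [hV]; positivity
  -- measurability and integrability
  have hsub0 : ∀ i, C0 i ⊆ K := fun i => cell_subset _ _ _ _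
  have hsub1 : ∀ i, C1 i ⊆ K := fun i => cell_subset _ _ _ _
  have hms0 : ∀ i, MeasurableSet (C0 i) := fun i => measurableSet_cell hK y c0 i
  have hms1 : ∀ i, MeasurableSet (C1 i) := fun i => measurableSet_cell hK y c1 i
  have hfin : ∀ {S : Set (Eu d)}, S ⊆ K → volume S ≠ ⊤ := fun hS =>
    ne_top_of_le_ne_top hKc.measure_lt_top.ne (measure_mono hS)
  have hb1 : ∀ x, |1 + h x| ≤ 9 / 8 := fun x => by
    have := hb x
    rw [abs_le] at this ⊢
    constructor <;> linarith [this.1, this.2]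
  have hh1 : Measurable fun x => 1 + h x := measurable_const.add hh
  have hcont2 : Continuous fun x : Eu d => ‖x‖ ^ 2 / 2 := by fun_prop
  -- masses of C1
  have hint1 : ∀ i, IntegrableOn (fun x => 1 + h x) (C1 i) := by
    intro i
    have := integrableOn_bdd_mul hKc (hsub1 i) hh1 hb1 (f := fun _ : Eu d => (1 : ℝ)) continuous_const
    simpa using this
  have hv1 : ∀ i, (8 / 9) * m i ≤ volume.real (C1 i) ∧ volume.real (C1 i) ≤ (8 / 7) * m i := by
    intro i
    have hmi : ∫ x in C1 i, (1 + h x) = m i := hmass i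
    have i1 : IntegrableOn (fun _ : Eu d => (7 / 8 : ℝ)) (C1 i) := integrableOn_const (hfin (hsub1 i))
    have i2 : IntegrableOn (fun _ : Eu d => (9 / 8 : ℝ)) (C1 i) := integrableOn_const (hfin (hsub1 i))
    have l1 : ∫ x in C1 i, (7 / 8 : ℝ) ≤ ∫ x in C1 i, (1 + h x) :=
      setIntegral_mono_on i1 (hint1 i) (hms1 i) fun x _ => by
        have := (abs_le.1 (hb x)).1; linarith
    have l2 : ∫ x in C1 i, (1 + h x) ≤ ∫ x in C1 i, (9 / 8 : ℝ) :=
      setIntegral_mono_on (hint1 i) i2 (hms1 i) fun x _ => by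
        have := (abs_le.1 (hb x)).2; linarith
    rw [setIntegral_const, smul_eq_mul, hmi] at l1
    rw [setIntegral_const, smul_eq_mul, hmi] at l2
    constructor <;> linarith
  -- bounds for A and B
  have hRn : 0 ≤ R := hR.le
  have hAle : ∀ i, ‖A i‖ ≤ 2 * R * m i := by
    intro i
    have hmi : ∫ x in C1 i, (1 + h x) = m i := hmass i
    have e1 : ‖∫ x in C1 i, (1 + h x) • x‖ ≤ R * m i := by
      refine (norm_integral_le_integral_norm _).trans ?_
      have : ∫ x in C1 i, ‖(1 + h x) • x‖ ≤ ∫ x in C1 i, R * (1 + h x) := by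
        refine setIntegral_mono_on ?_ ((hint1 i).const_mul R) (hms1 i) fun x hx => ?_
        · exact (integrableOn_bdd_mul hKc (hsub1 i) hh1 hb1 continuous_id).norm
        · rw [norm_smul, Real.norm_eq_abs, abs_of_nonneg
            (by have := (abs_le.1 (hb x)).1; linarith), mul_comm]
          exact mul_le_mul_of_nonneg_right (hKR x (hsub1 i hx))
            (by have := (abs_le.1 (hb x)).1; linarith)
      rw [integral_const_mul, hmi] at this
      exact this
    have e2 : ‖∫ x in C0 i, x‖ ≤ R * m i := by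
      have := norm_setIntegral_le_of_norm_le_const (μ := volume) (s := C0 i) (f := fun x : Eu d => x)
        (C := R) (hfin (hsub0 i)).lt_top (fun x hx => hKR x (hsub0 i hx))
      exact this
    calc ‖A i‖ ≤ ‖∫ x in C1 i, (1 + h x) • x‖ + ‖∫ x in C0 i, x‖ := norm_sub_le _ _
      _ ≤ _ := by linarith
  have hBle : ∀ i, |B i| ≤ R ^ 2 / 2 * m i := by
    intro i
    have hmi : ∫ x in C1 i, (1 + h x) = m i := hmass i
    have j1 : IntegrableOn (fun x => (1 + h x) * (‖x‖ ^ 2 / 2)) (C1 i) :=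
      integrableOn_bdd_mul hKc (hsub1 i) hh1 hb1 hcont2
    have j0 : IntegrableOn (fun x : Eu d => (‖x‖ ^ 2 / 2)) (C0 i) :=
      continuous_integrableOn hKc (hsub0 i) hcont2
    have e1 : 0 ≤ ∫ x in C1 i, (1 + h x) * (‖x‖ ^ 2 / 2) := by
      refine setIntegral_nonneg (hms1 i) fun x _ => mul_nonneg
        (by have := (abs_le.1 (hb x)).1; linarith) (by positivity)
    have e2 : ∫ x in C1 i, (1 + h x) * (‖x‖ ^ 2 / 2) ≤ R ^ 2 / 2 * m i := by
      have : ∫ x in C1 i, (1 + h x) * (‖x‖ ^ 2 / 2) ≤ ∫ x in C1 i, R ^ 2 / 2 * (1 + h x) := by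
        refine setIntegral_mono_on j1 ((hint1 i).const_mul _) (hms1 i) fun x hx => ?_
        have h1 : ‖x‖ ^ 2 ≤ R ^ 2 := pow_le_pow_left₀ (norm_nonneg _) (hKR x (hsub1 i hx)) 2
        have h2 : 0 ≤ 1 + h x := by have := (abs_le.1 (hb x)).1; linarith
        rw [mul_comm]
        exact mul_le_mul_of_nonneg_right (by linarith) h2
      rw [integral_const_mul, hmi] at this
      exact this
    have e3 : 0 ≤ ∫ x in C0 i, (‖x‖ ^ 2 / 2) := setIntegral_nonneg (hms0 i) fun x _ => by positivity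
    have e4 : ∫ x in C0 i, (‖x‖ ^ 2 / 2) ≤ R ^ 2 / 2 * m i := by
      have : ∫ x in C0 i, (‖x‖ ^ 2 / 2) ≤ ∫ x in C0 i, R ^ 2 / 2 := by
        refine setIntegral_mono_on j0 (integrableOn_const (hfin (hsub0 i))) (hms0 i) fun x hx => ?_
        have h1 : ‖x‖ ^ 2 ≤ R ^ 2 := pow_le_pow_left₀ (norm_nonneg _) (hKR x (hsub0 i hx)) 2
        linarith
      rw [setIntegral_const, smul_eq_mul] at this
      rw [mul_comm]; exact this
    rw [abs_le]
    simp only [hB]
    constructor <;> linarith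
  have hU2 : ∀ i, U i ≤ 2 := by
    intro i
    have := hmp i
    simp only [hU]
    rw [div_le_iff₀ (by positivity)]
    linarith [hAle i]
  have hV2 : ∀ i, V i ≤ 1 / 2 := by
    intro i
    have := hmp i
    simp only [hV]
    rw [div_le_iff₀ (by positivity)]
    linarith [hBle i]
  -- norms of l and a
  have hnl : ∀ i, ‖l i‖ = U i / (4096 * R) := by
    intro i
    have := hmp i
    simp only [hl, hU]
    rw [norm_smul, Real.norm_eq_abs, abs_of_pos (by positivity)]
    field_simp
  have hna : ∀ i, |a i| = V i / (4096 * R ^ 2) := by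
    intro i
    have := hmp i
    simp only [ha, hV]
    rw [abs_div, abs_of_pos (show 0 < 4096 * R ^ 4 * m i by positivity)]
    field_simp
  have hβ : ∀ i, ‖l i‖ + |a i| * R = (U i + V i) / (4096 * R) := by
    intro i
    rw [hnl, hna]; field_simp
  have hq0 : ∀ i, 0 ≤ q i := fun i => by simp only [hq]; positivity
  have hqκ : ∀ i, (‖l i‖ + |a i| * R) ^ 2 ≤ κ * q i := by
    intro i
    rw [hβ]
    simp only [hq, hκdef]
    apply le_of_eq
    field_simp
    ring
  have hβR : ∀ i, (‖l i‖ + |a i| * R) * R = (U i + V i) / 4096 := by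
    intro i
    rw [hβ]; field_simp
  have hsmall : ∀ i, (‖l i‖ + |a i| * R) * R + q i / 2 ≤ 1 / 8 := by
    intro i
    rw [hβR]
    simp only [hq]
    have h1 := hU2 i
    have h2 := hV2 i
    have h3 := hU0 i
    have h4 := hV0 i
    nlinarith
  have hκR4 : κ * R ^ 2 ≤ 1 / 4 := by rw [hκR]; norm_num
  -- I0 and I1
  set I0 : ι → ℝ := fun i => ∫ x in C0 i, omg κ x with hI0
  set I1 : ι → ℝ := fun i => ∫ x in C1 i, pol κ (l i) (a i) (q i) 1 x with hI1
  have hI0b : ∀ i, (7 / 8) * m i ≤ I0 i ∧ I0 i ≤ m i := by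
    intro i
    have j0 := continuous_integrableOn hKc (hsub0 i) (continuous_omg (d := d) κ)
    have l1 : ∫ x in C0 i, (7 / 8 : ℝ) ≤ I0 i :=
      setIntegral_mono_on (integrableOn_const (hfin (hsub0 i))) j0 (hms0 i) fun x hx =>
        (omg_bounds hκ hκR4 (hKR x (hsub0 i hx))).1
    have l2 : I0 i ≤ ∫ x in C0 i, (1 : ℝ) :=
      setIntegral_mono_on j0 (integrableOn_const (hfin (hsub0 i))) (hms0 i) fun x hx =>
        (omg_bounds hκ hκR4 (hKR x (hsub0 i hx))).2
    rw [setIntegral_const, smul_eq_mul] at l1 l2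
    have e : volume.real (C0 i) = m i := rfl
    rw [e] at l1 l2
    constructor <;> linarith
  have hI1b : ∀ i, (2 / 3) * m i ≤ I1 i := by
    intro i
    have j1 := continuous_integrableOn hKc (hsub1 i) (continuous_pol (d := d) κ (l i) (a i) (q i) 1)
    have l1 : ∫ x in C1 i, (3 / 4 : ℝ) ≤ I1 i :=
      setIntegral_mono_on (integrableOn_const (hfin (hsub1 i))) j1 (hms1 i) fun x hx =>
        pol_lower hκ hRn hκR4 (hq0 i) (hsmall i) zero_le_one le_rfl (hKR x (hsub1 i hx))
    rw [setIntegral_const, smul_eq_mul] at l1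
    have := (hv1 i).1
    linarith
  have hI0p : ∀ i, 0 < I0 i := fun i => by have := hmp i; linarith [(hI0b i).1]
  have hI1p : ∀ i, 0 < I1 i := fun i => by have := hmp i; linarith [hI1b i]
  have hclaim := claimB hKc hKv hRn hKR hy hκ hκR4 hq0 hqκ hsmall (c0 := c0) (c1 := c1)
    hI0p hI1p
  -- lower bound for the logs
  have hlog : ∀ i, (I1 i - I0 i) - (I1 i - I0 i) ^ 2 / I0 i ≤ I0 i * Real.log (I1 i / I0 i) := by
    intro i
    have hu : 1 / 2 ≤ I1 i / I0 i := by
      rw [le_div_iff₀ (hI0p i)]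
      have := hmp i
      linarith [hI1b i, (hI0b i).2]
    have h1 := mul_le_mul_of_nonneg_left (log_ge_quad hu) (hI0p i).le
    have h2 : I0 i * ((I1 i / I0 i - 1) - (I1 i / I0 i - 1) ^ 2) =
        (I1 i - I0 i) - (I1 i - I0 i) ^ 2 / I0 i := by
      have := (hI0p i).ne'
      field_simp
    rw [h2] at h1
    exact h1
  -- integrals over C1
  have hζc : ∀ i, Continuous (zeta (d := d) (l i) (a i)) := fun i => continuous_zeta _ _
  have hI1eq : ∀ i, I1 i = (∫ x in C1 i, omg κ x) + (∫ x in C1 i, zeta (l i) (a i) x)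
      - q i / 2 * volume.real (C1 i) := by
    intro i
    have j1 := continuous_integrableOn hKc (hsub1 i) (continuous_omg (d := d) κ)
    have j2 := continuous_integrableOn hKc (hsub1 i) (hζc i)
    have j3 : IntegrableOn (fun _ : Eu d => q i / 2) (C1 i) := integrableOn_const (hfin (hsub1 i))
    have e : ∀ x, pol κ (l i) (a i) (q i) 1 x = omg κ x + zeta (l i) (a i) x - q i / 2 := by
      intro x; unfold pol; ring
    simp only [hI1]
    simp_rw [e]
    have j4 : IntegrableOn (fun x => omg κ x + zeta (l i) (a i) x) (C1 i) := j1.add j2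
    rw [integral_sub j4 j3, integral_add j1 j2, setIntegral_const, smul_eq_mul]
    ring
  have hsumω : ∑ i, ∫ x in C1 i, omg κ x = ∑ i, I0 i := by
    have e1 := sum_integral_cell hK hy c1 (continuous_integrableOn hKc Subset.rfl
      (continuous_omg (d := d) κ))
    have e0 := sum_integral_cell hK hy c0 (continuous_integrableOn hKc Subset.rfl
      (continuous_omg (d := d) κ))
    exact e1.trans e0.symm
  set z : ι → ℝ := fun i => ∫ x in C1 i, h x * zeta (l i) (a i) x with hz
  -- the pairing identity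
  have hpair : ∀ i, (∫ x in C1 i, zeta (l i) (a i) x) - (∫ x in C0 i, zeta (l i) (a i) x) =
      (1 / 4096) * (m i * (U i ^ 2 + V i ^ 2)) - z i := by
    intro i
    have jx1 : IntegrableOn (fun x => (1 + h x) • x) (C1 i) :=
      integrableOn_bdd_mul hKc (hsub1 i) hh1 hb1 continuous_id
    have jx0 : IntegrableOn (fun x : Eu d => x) (C0 i) :=
      continuous_integrableOn hKc (hsub0 i) continuous_id
    have jn1 : IntegrableOn (fun x => (1 + h x) * (‖x‖ ^ 2 / 2)) (C1 i) :=
      integrableOn_bdd_mul hKc (hsub1 i) hh1 hb1 hcont2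
    have jn0 : IntegrableOn (fun x : Eu d => ‖x‖ ^ 2 / 2) (C0 i) :=
      continuous_integrableOn hKc (hsub0 i) hcont2
    have jz : IntegrableOn (fun x => h x * zeta (l i) (a i) x) (C1 i) :=
      integrableOn_bdd_mul hKc (hsub1 i) hh hb (hζc i)
    have jζ := continuous_integrableOn hKc (hsub1 i) (hζc i)
    -- ∫ C1 (1+h) ζ
    have e1 : ∫ x in C1 i, (1 + h x) * zeta (l i) (a i) x =
        ⟪l i, ∫ x in C1 i, (1 + h x) • x⟫ + a i * ∫ x in C1 i, (1 + h x) * (‖x‖ ^ 2 / 2) := by
      have e2 : ∀ x, (1 + h x) * zeta (l i) (a i) x =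
          ⟪l i, (1 + h x) • x⟫ + a i * ((1 + h x) * (‖x‖ ^ 2 / 2)) := by
        intro x; unfold zeta; rw [inner_smul_right]; ring
      simp_rw [e2]
      rw [integral_add (jx1.const_inner (l i)) (jn1.const_mul _), integral_inner jx1,
        integral_const_mul]
    have e3 : ∫ x in C0 i, zeta (l i) (a i) x =
        ⟪l i, ∫ x in C0 i, x⟫ + a i * ∫ x in C0 i, (‖x‖ ^ 2 / 2) := by
      have e2 : ∀ x : Eu d, zeta (l i) (a i) x = ⟪l i, x⟫ + a i * (‖x‖ ^ 2 / 2) := fun x => rfl
      simp_rw [e2]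
      rw [integral_add (jx0.const_inner (l i)) (jn0.const_mul _), integral_inner jx0,
        integral_const_mul]
    have e4 : ∫ x in C1 i, (1 + h x) * zeta (l i) (a i) x =
        (∫ x in C1 i, zeta (l i) (a i) x) + z i := by
      simp only [hz]
      rw [← integral_add jζ jz]
      congr 1
      funext x; ring
    have e5 : ⟪l i, A i⟫ + a i * B i = (1 / 4096) * (m i * (U i ^ 2 + V i ^ 2)) := by
      have hmi := (hmp i).ne'
      simp only [hl, ha, hU, hV]
      rw [inner_smul_left, real_inner_self_eq_norm_sq]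
      simp only [conj_trivial]
      rw [div_pow, div_pow, sq_abs]
      field_simp
    have e6 : ⟪l i, A i⟫ = ⟪l i, ∫ x in C1 i, (1 + h x) • x⟫ - ⟪l i, ∫ x in C0 i, x⟫ := by
      simp only [hA]; rw [inner_sub_right]
    have e7 : a i * B i = a i * (∫ x in C1 i, (1 + h x) * (‖x‖ ^ 2 / 2)) -
        a i * ∫ x in C0 i, (‖x‖ ^ 2 / 2) := by
      simp only [hB]; ring
    linarith
  -- H and η
  set Hh : ι → ℝ := fun i => ∫ x in C1 i, |h x| with hHh
  set η : ι → ℝ := fun i => ∫ x in C1 i, h x ^ 2 with hηdef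
  have jabs : ∀ i, IntegrableOn (fun x => |h x|) (C1 i) := by
    intro i
    have := integrableOn_bdd_mul hKc (hsub1 i) (h := fun x => |h x|)
      (continuous_abs.measurable.comp hh) (C := 1 / 8)
      (fun x => by rw [abs_abs]; exact hb x) (f := fun _ : Eu d => (1 : ℝ)) continuous_const
    simpa using this
  have hbsq : ∀ x, |h x ^ 2| ≤ 1 / 64 := fun x => by
    rw [abs_pow]
    have := pow_le_pow_left₀ (abs_nonneg _) (hb x) 2
    linarith
  have jsqK : IntegrableOn (fun x => h x ^ 2) K := by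
    have := integrableOn_bdd_mul hKc Subset.rfl (h := fun x => h x ^ 2)
      (hh.pow_const 2) hbsq (f := fun _ : Eu d => (1 : ℝ)) continuous_const
    simpa using this
  have jsq : ∀ i, IntegrableOn (fun x => h x ^ 2) (C1 i) := fun i => jsqK.mono_set (hsub1 i)
  have hη0 : ∀ i, 0 ≤ η i := fun i => integral_nonneg fun x => sq_nonneg _
  have hHη : ∀ i, Hh i ^ 2 ≤ (8 / 7) * (m i * η i) := by
    intro i
    have h1 := cauchy_schwarz_set (jabs i) (jsq i) (hfin (hsub1 i))
    have h2 : volume.real (C1 i) * η i ≤ (8 / 7) * m i * η i :=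
      mul_le_mul_of_nonneg_right (hv1 i).2 (hη0 i)
    calc Hh i ^ 2 ≤ volume.real (C1 i) * η i := h1
      _ ≤ _ := by linarith
  have hzb : ∀ i, |z i| ≤ (U i + V i) / 4096 * Hh i := by
    intro i
    have jz : IntegrableOn (fun x => h x * zeta (l i) (a i) x) (C1 i) :=
      integrableOn_bdd_mul hKc (hsub1 i) hh hb (hζc i)
    simp only [hz, hHh]
    rw [← integral_const_mul, ← Real.norm_eq_abs]
    refine (norm_integral_le_integral_norm _).trans ?_
    refine setIntegral_mono_on jz.norm ((jabs i).const_mul _) (hms1 i) fun x hx => ?_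
    rw [norm_mul, Real.norm_eq_abs, Real.norm_eq_abs, mul_comm, ← hβR i]
    exact mul_le_mul_of_nonneg_right (abs_zeta_le hRn _ _ (hKR x (hsub1 i hx))) (abs_nonneg _)
  have hDb : ∀ i, |I1 i - I0 i| ≤ V i / 256 * m i + Hh i +
      volume.real (C1 i) * ((U i + V i) / 4096 + (U i + V i) ^ 2 / 131072) := by
    intro i
    have jω1 := continuous_integrableOn hKc (hsub1 i) (continuous_omg (d := d) κ)
    have jhω : IntegrableOn (fun x => h x * omg κ x) (C1 i) :=
      integrableOn_bdd_mul hKc (hsub1 i) hh hb (continuous_omg κ)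
    have jn1 : IntegrableOn (fun x => (1 + h x) * (‖x‖ ^ 2 / 2)) (C1 i) :=
      integrableOn_bdd_mul hKc (hsub1 i) hh1 hb1 hcont2
    have jn0 : IntegrableOn (fun x : Eu d => ‖x‖ ^ 2 / 2) (C0 i) :=
      continuous_integrableOn hKc (hsub0 i) hcont2
    have hmi : ∫ x in C1 i, (1 + h x) = m i := hmass i
    have e1 : (∫ x in C1 i, omg κ x) + ∫ x in C1 i, h x * omg κ x =
        m i - κ * ∫ x in C1 i, (1 + h x) * (‖x‖ ^ 2 / 2) := by
      rw [← integral_add jω1 jhω, ← hmi, ← integral_const_mul, ← integral_sub (hint1 i)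
        (jn1.const_mul κ)]
      congr 1
      funext x; unfold omg; ring
    have e0 : I0 i = m i - κ * ∫ x in C0 i, (‖x‖ ^ 2 / 2) := by
      have : m i = ∫ x in C0 i, (1 : ℝ) := by
        rw [setIntegral_const, smul_eq_mul, mul_one]
      have jc : IntegrableOn (fun _ : Eu d => (1 : ℝ)) (C0 i) := integrableOn_const (hfin (hsub0 i))
      rw [this, ← integral_const_mul, ← integral_sub jc (jn0.const_mul κ)]
      rfl
    have e2 : I1 i - I0 i = -(κ * B i) - (∫ x in C1 i, h x * omg κ x) +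
        (∫ x in C1 i, zeta (l i) (a i) x) - q i / 2 * volume.real (C1 i) := by
      rw [hI1eq i]
      simp only [hB]
      linarith
    have b1 : |κ * B i| = V i / 256 * m i := by
      have := (hmp i).ne'
      rw [abs_mul, abs_of_pos hκ]
      simp only [hV, hκdef]
      field_simp
    have b2 : |∫ x in C1 i, h x * omg κ x| ≤ Hh i := by
      simp only [hHh]
      rw [← Real.norm_eq_abs]
      refine (norm_integral_le_integral_norm _).trans ?_
      refine setIntegral_mono_on jhω.norm (jabs i) (hms1 i) fun x hx => ?_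
      rw [norm_mul, Real.norm_eq_abs, Real.norm_eq_abs]
      have hb' := omg_bounds hκ hκR4 (hKR x (hsub1 i hx))
      rw [abs_of_nonneg (show 0 ≤ omg κ x by linarith [hb'.1])]
      calc |h x| * omg κ x ≤ |h x| * 1 := mul_le_mul_of_nonneg_left hb'.2 (abs_nonneg _)
        _ = |h x| := mul_one _
    have b3 : |∫ x in C1 i, zeta (l i) (a i) x| ≤ volume.real (C1 i) * ((U i + V i) / 4096) := by
      rw [← Real.norm_eq_abs]
      have := norm_setIntegral_le_of_norm_le_const (μ := volume) (s := C1 i)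
        (f := fun x : Eu d => zeta (l i) (a i) x)
        (C := (U i + V i) / 4096) (hfin (hsub1 i)).lt_top (fun x hx => by
          rw [Real.norm_eq_abs, ← hβR i]
          exact abs_zeta_le hRn _ _ (hKR x (hsub1 i hx)))
      rw [mul_comm] at this
      exact this
    have b4 : q i / 2 * volume.real (C1 i) = volume.real (C1 i) * ((U i + V i) ^ 2 / 131072) := by
      simp only [hq]; ring
    have b5 : 0 ≤ volume.real (C1 i) * ((U i + V i) ^ 2 / 131072) := by positivity
    rw [e2, b4, mul_add, ← b1]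
    have t1 := abs_le.1 b2
    have t2 := abs_le.1 b3
    have t3 := abs_le.1 (le_refl |κ * B i|)
    rw [abs_le]
    constructor <;> linarith [t1.1, t1.2, t2.1, t2.2, t3.1, t3.2]
  -- assemble
  have hper : ∀ i, (1 / 8192) * (m i * (U i ^ 2 + V i ^ 2)) - 3.2 * η i ≤
      (1 / 4096) * (m i * (U i ^ 2 + V i ^ 2)) - z i -
        (U i + V i) ^ 2 / 131072 * volume.real (C1 i) - (I1 i - I0 i) ^ 2 / I0 i := fun i =>
    scalar_ineq (hmp i) (hU0 i) (hV0 i) (hU2 i) (hV2 i) (hHη i) (hI0b i).1 (hv1 i).2 (hη0 i)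
      (hzb i) (hDb i)
  have hsum1 : ∑ i, ((I1 i - I0 i) - (I1 i - I0 i) ^ 2 / I0 i) ≤
      ∑ i, ∫ x in C0 i, zeta (l i) (a i) x :=
    (Finset.sum_le_sum fun i _ => hlog i).trans hclaim
  have hsum2 : ∑ i, (I1 i - I0 i) = ∑ i, ((∫ x in C1 i, zeta (l i) (a i) x)
      - (U i + V i) ^ 2 / 131072 * volume.real (C1 i)) := by
    rw [Finset.sum_sub_distrib, ← hsumω, ← Finset.sum_sub_distrib]
    refine Finset.sum_congr rfl fun i _ => ?_
    rw [hI1eq i]
    simp only [hq]
    ring
  have hsum3 : ∑ i, ((1 / 4096) * (m i * (U i ^ 2 + V i ^ 2)) - z i -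
        (U i + V i) ^ 2 / 131072 * volume.real (C1 i) - (I1 i - I0 i) ^ 2 / I0 i) ≤ 0 := by
    have e : ∀ i, (1 / 4096) * (m i * (U i ^ 2 + V i ^ 2)) - z i -
        (U i + V i) ^ 2 / 131072 * volume.real (C1 i) - (I1 i - I0 i) ^ 2 / I0 i =
        ((∫ x in C1 i, zeta (l i) (a i) x) - (U i + V i) ^ 2 / 131072 * volume.real (C1 i)) -
        (I1 i - I0 i) ^ 2 / I0 i - ∫ x in C0 i, zeta (l i) (a i) x := by
      intro i
      have := hpair i
      linarith
    simp_rw [e]
    rw [Finset.sum_sub_distrib, Finset.sum_sub_distrib, ← hsum2, ← Finset.sum_sub_distrib]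
    linarith
  have hsum4 := (Finset.sum_le_sum fun i (_ : i ∈ Finset.univ) => hper i).trans hsum3
  rw [Finset.sum_sub_distrib, ← Finset.mul_sum, ← Finset.mul_sum] at hsum4
  have hsumη : ∑ i, η i = ∫ x in K, h x ^ 2 := sum_integral_cell hK hy c1 jsqK
  rw [hsumη] at hsum4
  have hfinal : ∑ i, ‖A i‖ ^ 2 / m i = R ^ 2 * ∑ i, m i * U i ^ 2 := by
    rw [Finset.mul_sum]
    refine Finset.sum_congr rfl fun i _ => ?_
    have := (hmp i).ne'
    simp only [hU]
    field_simp
  have hle : ∑ i, m i * U i ^ 2 ≤ ∑ i, m i * (U i ^ 2 + V i ^ 2) := by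
    refine Finset.sum_le_sum fun i _ => ?_
    have h1 := mul_nonneg (hmp i).le (sq_nonneg (V i))
    rw [mul_add]
    linarith
  have hKη : 0 ≤ ∫ x in K, h x ^ 2 := integral_nonneg fun x => sq_nonneg _
  have hlast : ∑ i, m i * U i ^ 2 ≤ 27000 * ∫ x in K, h x ^ 2 := by linarith
  change ∑ i, ‖A i‖ ^ 2 / m i ≤ _
  rw [hfinal]
  have := mul_le_mul_of_nonneg_left hlast (sq_nonneg R)
  linarith

end Crest.Agent.Helper7.OT
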