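import Crest.Agent.Helper7.OT.CellLimit
import Crest.Agent.Helper7.PrekopaLeindler

set_option autoImplicit false

open MeasureTheory Filter Topology Set
open scoped RealInnerProductSpace

namespace Crest.Agent.Helper7.OT

variable {d : ℕ} {ι : Type*}

theorem prekopa_euclid {s : ℝ} (hs0 : 0 < s) (hs1 : s < 1) {f g h : Eu d → ENNReal}
    (hf : Measurable f) (hg : Measurable g) (hh : Measurable h)
    (H : ∀ x y, f x ^ (1 - s) * g y ^ s ≤ h ((1 - s) • x + s • y)) :
    (∫⁻ x, f x) ^ (1 - s) * (∫⁻ x, g x) ^ s ≤ ∫⁻ x, h x := by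
  have hmp := PiLp.volume_preserving_toLp (Fin d)
  have e : ∀ {k : Eu d → ENNReal}, Measurable k →
      ∫⁻ x, k x = ∫⁻ x : Fin d → ℝ, k (WithLp.toLp 2 x) := by
    intro k hk
    rw [← hmp.map_eq, lintegral_map hk hmp.measurable]
  rw [e hf, e hg, e hh]
  refine Crest.Agent.Helper7.prekopa_leindler d hs0 hs1 (hf.comp hmp.measurable)
    (hg.comp hmp.measurable) (hh.comp hmp.measurable) fun x y => ?_
  exact H _ _

/-- Prékopa–Leindler for real functions on sets -/
theorem prekopa_sets {s : ℝ} (hs0 : 0 < s) (hs1 : s < 1) {A B C : Set (Eu d)}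
    (hA : MeasurableSet A) (hB : MeasurableSet B) (hC : MeasurableSet C)
    {f g h : Eu d → ℝ} (hf : Continuous f) (hg : Continuous g) (hh : Continuous h)
    (hfA : ∀ x ∈ A, 0 ≤ f x) (hgB : ∀ x ∈ B, 0 ≤ g x)
    (hfi : IntegrableOn f A) (hgi : IntegrableOn g B) (hhi : IntegrableOn h C)
    (hcombo : ∀ x ∈ A, ∀ y ∈ B, (1 - s) • x + s • y ∈ C ∧
      (1 - s) * f x + s * g y ≤ h ((1 - s) • x + s • y))
    (hhC : ∀ x ∈ C, 0 ≤ h x) :
    (∫ x in A, f x) ^ (1 - s) * (∫ x in B, g x) ^ s ≤ ∫ x in C, h x := by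
  have h1s : 0 < 1 - s := by linarith
  have eA : ∫⁻ x, A.indicator (fun x => ENNReal.ofReal (f x)) x = ENNReal.ofReal (∫ x in A, f x) := by
    rw [lintegral_indicator hA, ← ofReal_integral_eq_lintegral_ofReal hfi]
    exact (ae_restrict_mem hA).mono fun x hx => hfA x hx
  have eB : ∫⁻ x, B.indicator (fun x => ENNReal.ofReal (g x)) x = ENNReal.ofReal (∫ x in B, g x) := by
    rw [lintegral_indicator hB, ← ofReal_integral_eq_lintegral_ofReal hgi]
    exact (ae_restrict_mem hB).mono fun x hx => hgB x hx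
  have eC : ∫⁻ x, C.indicator (fun x => ENNReal.ofReal (h x)) x = ENNReal.ofReal (∫ x in C, h x) := by
    rw [lintegral_indicator hC, ← ofReal_integral_eq_lintegral_ofReal hhi]
    exact (ae_restrict_mem hC).mono fun x hx => hhC x hx
  have hAn : 0 ≤ ∫ x in A, f x := setIntegral_nonneg hA hfA
  have hBn : 0 ≤ ∫ x in B, g x := setIntegral_nonneg hB hgB
  have hCn : 0 ≤ ∫ x in C, h x := setIntegral_nonneg hC hhC
  have key := prekopa_euclid (d := d) hs0 hs1
    (f := A.indicator (fun x => ENNReal.ofReal (f x)))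
    (g := B.indicator (fun x => ENNReal.ofReal (g x)))
    (h := C.indicator (fun x => ENNReal.ofReal (h x)))
    (by exact (hf.measurable.ennreal_ofReal).indicator hA)
    (by exact (hg.measurable.ennreal_ofReal).indicator hB)
    (by exact (hh.measurable.ennreal_ofReal).indicator hC)
    (fun x y => by
      by_cases hx : x ∈ A
      · by_cases hy : y ∈ B
        · obtain ⟨h1, h2⟩ := hcombo x hx y hy
          rw [indicator_of_mem hx, indicator_of_mem hy, indicator_of_mem h1,
            ENNReal.ofReal_rpow_of_nonneg (hfA x hx) h1s.le,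
            ENNReal.ofReal_rpow_of_nonneg (hgB y hy) hs0.le,
            ← ENNReal.ofReal_mul (Real.rpow_nonneg (hfA x hx) _)]
          refine ENNReal.ofReal_le_ofReal (le_trans ?_ h2)
          exact Real.geom_mean_le_arith_mean2_weighted h1s.le hs0.le (hfA x hx) (hgB y hy)
            (by ring)
        · rw [indicator_of_notMem hy, ENNReal.zero_rpow_of_pos hs0, mul_zero]
          exact zero_le
      · rw [indicator_of_notMem hx, ENNReal.zero_rpow_of_pos h1s, zero_mul]
        exact zero_le)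
  rw [eA, eB, eC, ENNReal.ofReal_rpow_of_nonneg hAn h1s.le,
    ENNReal.ofReal_rpow_of_nonneg hBn hs0.le, ← ENNReal.ofReal_mul (Real.rpow_nonneg hAn _)] at key
  exact (ENNReal.ofReal_le_ofReal_iff hCn).1 key

end Crest.Agent.Helper7.OT
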