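import Crest.Agent.Helper7.OT.GTd

set_option autoImplicit false

open MeasureTheory Filter Topology Set
open scoped RealInnerProductSpace

namespace Crest.Agent.Helper7.OT

variable {d : ℕ} {ι : Type*}

/-- abstract telescoping lemma -/
theorem telescoping {S : Set ℝ} (hS : Sᶜ.Finite) {D G0 Gs : ℝ → ℝ} {Λ : ℝ}
    (h1 : ∀ a ∈ S, ∀ b ∈ S, a < b → D b - D a ≤ (b - a) * (Gs b - G0 a))
    (h2 : ∀ a ∈ S, ∀ b ∈ S, a < b → G0 a ≤ G0 b)
    (h3 : ∀ b ∈ S, Gs b - G0 b ≤ Λ) :
    ∀ a ∈ S, ∀ b ∈ S, a < b → D b - D a ≤ (b - a) * Λ := by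
  have key : ∀ k : ℕ, ∀ a ∈ S, ∀ b ∈ S, a < b →
      D b - D a ≤ (b - a) * Λ + (2 / 3) ^ k * ((b - a) * (G0 b - G0 a)) := by
    intro k
    induction k with
    | zero =>
      intro a ha b hb hab
      have e1 := h1 a ha b hb hab
      have e3 := h3 b hb
      have hba : 0 < b - a := sub_pos.2 hab
      rw [pow_zero, one_mul]
      have : (b - a) * (Gs b - G0 a) ≤ (b - a) * (Λ + (G0 b - G0 a)) :=
        mul_le_mul_of_nonneg_left (by linarith) hba.le
      linarith
    | succ k ih =>
      intro a ha b hb hab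
      -- a good point in the middle third
      have hba : 0 < b - a := sub_pos.2 hab
      have hinf : (Ioo ((2 * a + b) / 3) ((a + 2 * b) / 3)).Infinite :=
        Ioo_infinite (by linarith)
      obtain ⟨c, hc, hcS⟩ : ∃ c, c ∈ Ioo ((2 * a + b) / 3) ((a + 2 * b) / 3) ∧ c ∈ S := by
        by_contra hcon
        push Not at hcon
        exact hinf (hS.subset fun c hc => hcon c hc)
      have hac : a < c := by linarith [hc.1]
      have hcb : c < b := by linarith [hc.2]
      have i1 := ih a ha c hcS hac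
      have i2 := ih c hcS b hb hcb
      have g1 := h2 a ha c hcS hac
      have g2 := h2 c hcS b hb hcb
      have hp : (0 : ℝ) ≤ (2 / 3) ^ k := by positivity
      have e1 : (c - a) * (G0 c - G0 a) ≤ (2 / 3) * (b - a) * (G0 c - G0 a) :=
        mul_le_mul_of_nonneg_right (by linarith [hc.2]) (by linarith)
      have e2 : (b - c) * (G0 b - G0 c) ≤ (2 / 3) * (b - a) * (G0 b - G0 c) :=
        mul_le_mul_of_nonneg_right (by linarith [hc.1]) (by linarith)
      have e3 : (2 / 3 : ℝ) ^ k * ((c - a) * (G0 c - G0 a)) + (2 / 3) ^ k * ((b - c) * (G0 b - G0 c))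
          ≤ (2 / 3) ^ k * ((2 / 3) * (b - a) * (G0 b - G0 a)) := by
        rw [← mul_add]
        refine mul_le_mul_of_nonneg_left ?_ hp
        linarith
      have e4 : (2 / 3 : ℝ) ^ (k + 1) * ((b - a) * (G0 b - G0 a)) =
          (2 / 3) ^ k * ((2 / 3) * (b - a) * (G0 b - G0 a)) := by rw [pow_succ]; ring
      rw [e4]
      linarith
  intro a ha b hb hab
  have hlim : Tendsto (fun k : ℕ => (b - a) * Λ + (2 / 3 : ℝ) ^ k * ((b - a) * (G0 b - G0 a)))
      atTop (𝓝 ((b - a) * Λ + 0 * ((b - a) * (G0 b - G0 a)))) := by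
    refine tendsto_const_nhds.add (Tendsto.mul_const _ ?_)
    exact tendsto_pow_atTop_nhds_zero_of_lt_one (by norm_num) (by norm_num)
  rw [zero_mul, add_zero] at hlim
  exact ge_of_tendsto' hlim fun k => key k a ha b hb hab

/-- finiteness of the set of times at which two atoms collide -/
theorem finite_collisions [Finite ι] {y z : ι → Eu d} (hy : Function.Injective y) :
    {t : ℝ | ¬ Function.Injective fun i => y i + t • (z i - y i)}.Finite := by
  have hsub : {t : ℝ | ¬ Function.Injective fun i => y i + t • (z i - y i)} ⊆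
      ⋃ p : ι × ι, {t : ℝ | p.1 ≠ p.2 ∧ y p.1 + t • (z p.1 - y p.1) = y p.2 + t • (z p.2 - y p.2)} := by
    intro t ht
    simp only [Function.Injective, Set.mem_ofPred_eq, not_forall] at ht
    obtain ⟨i, j, hij, hne⟩ := ht
    exact mem_iUnion.2 ⟨(i, j), hne, hij⟩
  refine (Set.finite_iUnion fun p => ?_).subset hsub
  -- at most one collision time
  refine Set.Subsingleton.finite fun t ht t' ht' => ?_
  obtain ⟨hne, e1⟩ := ht
  obtain ⟨-, e2⟩ := ht'
  by_contra htt
  have h1 : (t - t') • ((z p.1 - y p.1) - (z p.2 - y p.2)) = 0 := by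
    have : (t - t') • ((z p.1 - y p.1) - (z p.2 - y p.2)) =
        (y p.1 + t • (z p.1 - y p.1) - (y p.2 + t • (z p.2 - y p.2))) -
        (y p.1 + t' • (z p.1 - y p.1) - (y p.2 + t' • (z p.2 - y p.2))) := by
      simp only [sub_smul, smul_sub]; abel
    rw [this, e1, e2]; simp
  have h2 : (z p.1 - y p.1) - (z p.2 - y p.2) = 0 := by
    rcases smul_eq_zero.1 h1 with h | h
    · exact absurd (sub_eq_zero.1 h) htt
    · exact h
  have h3 : z p.1 - y p.1 = z p.2 - y p.2 := sub_eq_zero.1 h2
  rw [h3] at e1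
  exact hne (hy (add_right_cancel e1))

section duality

variable [Fintype ι] [Nonempty ι] {K : Set (Eu d)} (hKc : IsCompact K)
  {g : Eu d → ℝ} (hg : Measurable g) {Cg : ℝ} (hgC : ∀ x, |g x| ≤ Cg)
  (hg0 : ∀ x, 0 ≤ g x)

/-- mass weighted barycentre of a cell -/
noncomputable def bary (K : Set (Eu d)) (g : Eu d → ℝ) (y : ι → Eu d) (c : ι → ℝ) (i : ι) : Eu d :=
  ∫ x in cell K y c i, g x • x

include hKc hg hgC

omit [Fintype ι] [Nonempty ι] in
theorem inner_bary (y : ι → Eu d) (c : ι → ℝ) (i : ι) (v : Eu d) :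
    ⟪bary K g y c i, v⟫ = ∫ x in cell K y c i, g x * ⟪x, v⟫ := by
  have j : IntegrableOn (fun x => g x • x) (cell K y c i) :=
    integrableOn_bdd_mul hKc (cell_subset _ _ _ _) hg hgC continuous_id
  unfold bary
  rw [real_inner_comm, ← integral_inner j v]
  congr 1
  funext x
  rw [inner_smul_right, real_inner_comm]

/-- weak duality, for cells of another family `(y', c')` with the same masses -/
theorem weak_duality (hg0 : ∀ x, 0 ≤ g x) {y y' : ι → Eu d} (hy' : Function.Injective y')
    (c c' : ι → ℝ) {m : ι → ℝ} (hm : ∀ i, ∫ x in cell K y' c' i, g x = m i) :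
    ∑ i, ⟪bary K g y' c' i, y i⟫ ≤ (∫ x in K, g x * phi y c x) + ∑ i, m i * c i := by
  have hK := hKc.isClosed
  have hphi : Continuous (phi y c) := continuous_phi y c
  have e1 : ∫ x in K, g x * phi y c x = ∑ i, ∫ x in cell K y' c' i, g x * phi y c x :=
    (sum_integral_cell hK hy' c' (integrableOn_bdd_mul hKc Subset.rfl hg hgC hphi)).symm
  rw [e1, ← Finset.sum_add_distrib]
  refine Finset.sum_le_sum fun i _ => ?_
  rw [inner_bary hKc hg hgC, ← hm i, ← integral_mul_const]
  have j1 : IntegrableOn (fun x => g x * phi y c x) (cell K y' c' i) :=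
    integrableOn_bdd_mul hKc (cell_subset _ _ _ _) hg hgC hphi
  have j2 : IntegrableOn (fun x => g x * c i) (cell K y' c' i) :=
    integrableOn_bdd_mul hKc (cell_subset _ _ _ _) hg hgC continuous_const
  have j3 : IntegrableOn (fun x => g x * ⟪x, y i⟫) (cell K y' c' i) :=
    integrableOn_bdd_mul hKc (cell_subset _ _ _ _) hg hgC (by fun_prop)
  rw [← integral_add j1 j2]
  refine setIntegral_mono_on j3 (j1.add j2) (measurableSet_cell hK _ _ _) fun x _ => ?_
  rw [← mul_add]
  refine mul_le_mul_of_nonneg_left ?_ (hg0 x)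
  linarith [le_phi y c x i]

/-- duality with equality -/
theorem strong_duality {y : ι → Eu d} (hy : Function.Injective y)
    (c : ι → ℝ) {m : ι → ℝ} (hm : ∀ i, ∫ x in cell K y c i, g x = m i) :
    ∑ i, ⟪bary K g y c i, y i⟫ = (∫ x in K, g x * phi y c x) + ∑ i, m i * c i := by
  have hK := hKc.isClosed
  have hphi : Continuous (phi y c) := continuous_phi y c
  have e1 : ∫ x in K, g x * phi y c x = ∑ i, ∫ x in cell K y c i, g x * phi y c x :=
    (sum_integral_cell hK hy c (integrableOn_bdd_mul hKc Subset.rfl hg hgC hphi)).symm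
  rw [e1, ← Finset.sum_add_distrib]
  refine Finset.sum_congr rfl fun i _ => ?_
  rw [inner_bary hKc hg hgC, ← hm i, ← integral_mul_const]
  have j1 : IntegrableOn (fun x => g x * phi y c x) (cell K y c i) :=
    integrableOn_bdd_mul hKc (cell_subset _ _ _ _) hg hgC hphi
  have j2 : IntegrableOn (fun x => g x * c i) (cell K y c i) :=
    integrableOn_bdd_mul hKc (cell_subset _ _ _ _) hg hgC continuous_const
  rw [← integral_add j1 j2]
  refine setIntegral_congr_fun (measurableSet_cell hK _ _ _) fun x hx => ?_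
  change g x * ⟪x, y i⟫ = g x * phi y c x + g x * c i
  rw [phi_eq_of_mem_cell hx]; ring

/-- optimality of the Laguerre cells -/
theorem cell_optimal (hg0 : ∀ x, 0 ≤ g x) {y y' : ι → Eu d} (hy : Function.Injective y)
    (hy' : Function.Injective y')
    (c c' : ι → ℝ) {m : ι → ℝ} (hm : ∀ i, ∫ x in cell K y c i, g x = m i)
    (hm' : ∀ i, ∫ x in cell K y' c' i, g x = m i) :
    ∑ i, ⟪bary K g y' c' i, y i⟫ ≤ ∑ i, ⟪bary K g y c i, y i⟫ := by
  rw [strong_duality hKc hg hgC hy c hm]
  exact weak_duality hKc hg hgC hg0 hy' c c' hm'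

end duality

end Crest.Agent.Helper7.OT
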