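import Crest.Agent.Helper7.OT.PathA
import Crest.Agent.Helper7.OT.Exist

set_option autoImplicit false

open MeasureTheory Filter Topology Set
open scoped RealInnerProductSpace

namespace Crest.Agent.Helper7.OT

variable {d : ℕ} {ι : Type*} [Fintype ι] [Nonempty ι]

/-- weighted Cauchy–Schwarz for finite sums -/
theorem sum_inner_le {m : ι → ℝ} (hm : ∀ i, 0 < m i) (a w : ι → Eu d) :
    ∑ i, ⟪a i, w i⟫ ≤ Real.sqrt (∑ i, ‖a i‖ ^ 2 / m i) * Real.sqrt (∑ i, m i * ‖w i‖ ^ 2) := by
  have h1 : ∑ i, ⟪a i, w i⟫ ≤ ∑ i, (‖a i‖ / Real.sqrt (m i)) * (Real.sqrt (m i) * ‖w i‖) := by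
    refine Finset.sum_le_sum fun i _ => (real_inner_le_norm _ _).trans (le_of_eq ?_)
    have := Real.sqrt_pos.2 (hm i)
    field_simp
  refine h1.trans ?_
  have h2 := Real.sum_mul_le_sqrt_mul_sqrt Finset.univ (fun i => ‖a i‖ / Real.sqrt (m i))
    (fun i => Real.sqrt (m i) * ‖w i‖)
  refine h2.trans (le_of_eq ?_)
  congr 2
  · refine Finset.sum_congr rfl fun i _ => ?_
    rw [div_pow, Real.sq_sqrt (hm i).le]
  · refine Finset.sum_congr rfl fun i _ => ?_
    rw [mul_pow, Real.sq_sqrt (hm i).le]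

set_option maxHeartbeats 1000000 in
/-- the bound along the path, for a fixed perturbation of the source -/
theorem path_bound {K : Set (Eu d)} (hKc : IsCompact K) (hKv : Convex ℝ K)
    {R : ℝ} (hR : 0 < R) (hKR : ∀ x ∈ K, ‖x‖ ≤ R)
    {y z : ι → Eu d} (hy : Function.Injective y) (hz : Function.Injective z)
    {h : Eu d → ℝ} (hh : Measurable h) (hb : ∀ x, |h x| ≤ 1 / 8) (hh0 : ∫ x in K, h x = 0)
    {s : ℝ} (hs0 : 0 ≤ s) (hs1 : s ≤ 1)
    {m : ι → ℝ} (hm : ∀ i, 0 < m i) (hsum : ∑ i, m i = volume.real K)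
    {c e' : ι → ℝ} (hc : ∀ i, volume.real (cell K y c i) = m i)
    (he' : ∀ i, ∫ x in cell K z e' i, (1 + s * h x) = m i) :
    s * (∫ x in K, h x * phi z e' x) - s * (∫ x in K, h x * phi y c x) ≤
      Real.sqrt (27000 * R ^ 2 * (s ^ 2 * ∫ x in K, h x ^ 2)) *
        Real.sqrt (∑ i, m i * ‖z i - y i‖ ^ 2) := by
  have hK := hKc.isClosed
  have hfinK : volume K ≠ ⊤ := hKc.measure_lt_top.ne
  set g : Eu d → ℝ := fun x => 1 + s * h x with hg
  have hgm : Measurable g := measurable_const.add (hh.const_mul s)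
  have hsh : ∀ x, |s * h x| ≤ 1 / 8 := fun x => by
    rw [abs_mul, abs_of_nonneg hs0]
    calc s * |h x| ≤ 1 * |h x| := mul_le_mul_of_nonneg_right hs1 (abs_nonneg _)
      _ ≤ 1 / 8 := by rw [one_mul]; exact hb x
  have hg1 : ∀ x, 1 / 2 ≤ g x := fun x => by
    have := (abs_le.1 (hsh x)).1; simp only [hg]; linarith
  have hg2 : ∀ x, g x ≤ 2 := fun x => by
    have := (abs_le.1 (hsh x)).2; simp only [hg]; linarith
  have hg0 : ∀ x, 0 ≤ g x := fun x => by linarith [hg1 x]
  have hgC : ∀ x, |g x| ≤ 2 := fun x => by rw [abs_of_nonneg (hg0 x)]; exact hg2 x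
  have h1m : Measurable (fun _ : Eu d => (1 : ℝ)) := measurable_const
  have h1C : ∀ x : Eu d, |(fun _ : Eu d => (1 : ℝ)) x| ≤ 1 := fun x => by simp
  have h10 : ∀ x : Eu d, 0 ≤ (fun _ : Eu d => (1 : ℝ)) x := fun x => by simp
  have hhint : IntegrableOn h K := by
    have := integrableOn_bdd_mul hKc Subset.rfl hh hb (f := fun _ : Eu d => (1 : ℝ)) continuous_const
    simpa using this
  have hconst : IntegrableOn (fun _ : Eu d => (1 : ℝ)) K := integrableOn_const hfinK
  have hgint : ∫ x in K, g x = ∑ i, m i := by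
    simp only [hg]
    rw [integral_add hconst (hhint.const_mul s), integral_const_mul, hh0, setIntegral_const, hsum]
    simp
  have h1int : ∫ x in K, (fun _ : Eu d => (1 : ℝ)) x = ∑ i, m i := by
    simp only
    rw [setIntegral_const, hsum]; simp
  -- path of atoms
  set Y : ℝ → ι → Eu d := fun t i => y i + t • (z i - y i) with hY
  set S : Set ℝ := {t | Function.Injective (Y t)} with hS
  have hSfin : Sᶜ.Finite := finite_collisions hy
  -- weights along the path
  have hex : ∀ t : ℝ, ∃ cs c0 : ι → ℝ, t ∈ S →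
      (∀ i, ∫ x in cell K (Y t) cs i, g x = m i) ∧
      (∀ i, ∫ x in cell K (Y t) c0 i, (fun _ : Eu d => (1 : ℝ)) x = m i) := by
    intro t
    by_cases ht : t ∈ S
    · obtain ⟨cs, hcs⟩ := exists_weights hKc (y := Y t) ht hgm hg1 hg2 hm hgint.symm
      obtain ⟨c0, hc0⟩ := exists_weights hKc (y := Y t) ht h1m
        (fun x => by norm_num) (fun x => by norm_num) hm h1int.symm
      exact ⟨cs, c0, fun _ => ⟨hcs, hc0⟩⟩
    · exact ⟨fun _ => 0, fun _ => 0, fun h => absurd h ht⟩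
  choose cs c0 hcs using hex
  set w : ι → Eu d := fun i => z i - y i with hw
  set Ts : ℝ → ℝ := fun t => ∑ i, ⟪bary K g (Y t) (cs t) i, Y t i⟫ with hTs
  set T0 : ℝ → ℝ := fun t => ∑ i, ⟪bary K (fun _ => 1) (Y t) (c0 t) i, Y t i⟫ with hT0
  set Gs : ℝ → ℝ := fun t => ∑ i, ⟪bary K g (Y t) (cs t) i, w i⟫ with hGs
  set G0 : ℝ → ℝ := fun t => ∑ i, ⟪bary K (fun _ => 1) (Y t) (c0 t) i, w i⟫ with hG0
  have hYdiff : ∀ a b : ℝ, ∀ i, Y a i = Y b i + (a - b) • w i := by
    intro a b i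
    simp only [hY, hw, sub_smul]; abel
  -- shift formula
  have hshift : ∀ (B : ι → Eu d) (a b : ℝ),
      ∑ i, ⟪B i, Y a i⟫ = ∑ i, ⟪B i, Y b i⟫ + (a - b) * ∑ i, ⟪B i, w i⟫ := by
    intro B a b
    rw [Finset.mul_sum, ← Finset.sum_add_distrib]
    refine Finset.sum_congr rfl fun i _ => ?_
    rw [hYdiff a b i, inner_add_right, inner_smul_right]
  have hTs_le : ∀ a ∈ S, ∀ b ∈ S, Ts b + (a - b) * Gs b ≤ Ts a := by
    intro a ha b hb'
    have := cell_optimal hKc hgm hgC hg0 (y := Y a) (y' := Y b) ha hb' (cs a) (cs b)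
      (hcs a ha).1 (hcs b hb').1
    rw [hshift _ a b] at this
    exact this
  have hT0_le : ∀ a ∈ S, ∀ b ∈ S, T0 b + (a - b) * G0 b ≤ T0 a := by
    intro a ha b hb'
    have := cell_optimal hKc h1m h1C h10 (y := Y a) (y' := Y b) ha hb' (c0 a) (c0 b)
      (hcs a ha).2 (hcs b hb').2
    rw [hshift _ a b] at this
    exact this
  set Λ : ℝ := Real.sqrt (27000 * R ^ 2 * (s ^ 2 * ∫ x in K, h x ^ 2)) *
        Real.sqrt (∑ i, m i * ‖z i - y i‖ ^ 2) with hΛ
  have hdiff : ∀ b ∈ S, Gs b - G0 b ≤ Λ := by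
    intro b hbS
    have e1 : Gs b - G0 b = ∑ i, ⟪bary K g (Y b) (cs b) i - bary K (fun _ => 1) (Y b) (c0 b) i, w i⟫ := by
      simp only [hGs, hG0]
      rw [← Finset.sum_sub_distrib]
      refine Finset.sum_congr rfl fun i _ => ?_
      rw [inner_sub_left]
    rw [e1]
    refine (sum_inner_le hm _ _).trans ?_
    refine mul_le_mul_of_nonneg_right (Real.sqrt_le_sqrt ?_) (Real.sqrt_nonneg _)
    have hvol : ∀ i, volume.real (cell K (Y b) (c0 b) i) = m i := by
      intro i
      have := (hcs b hbS).2 i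
      rw [← this]
      simp
    have hgt := gt_main hKc hKv hR hKR (y := Y b) hbS (c0 := c0 b) (c1 := cs b)
      (h := fun x => s * h x) (hh.const_mul s) hsh
      (fun i => by rw [hvol i]; exact hm i)
      (fun i => by rw [hvol i]; exact (hcs b hbS).1 i)
    have e2 : ∫ x in K, (s * h x) ^ 2 = s ^ 2 * ∫ x in K, h x ^ 2 := by
      rw [← integral_const_mul]
      congr 1
      funext x; ring
    rw [e2] at hgt
    refine le_trans (le_of_eq ?_) hgt
    refine Finset.sum_congr rfl fun i _ => ?_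
    rw [hvol i]
    unfold bary
    simp only [one_smul]
    rfl
  have htel := telescoping hSfin (D := fun t => Ts t - T0 t) (G0 := G0) (Gs := Gs) (Λ := Λ)
    (fun a ha b hb' hab => by
      have e1 := hTs_le a ha b hb'
      have e2 := hT0_le b hb' a ha
      have : (b - a) * (Gs b - G0 a) = (b - a) * Gs b - (b - a) * G0 a := by ring
      rw [this]
      change (Ts b - T0 b) - (Ts a - T0 a) ≤ _
      linarith [e1, e2])
    (fun a ha b hb' hab => by
      have e1 := hT0_le a ha b hb'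
      have e2 := hT0_le b hb' a ha
      have hba : 0 < b - a := sub_pos.2 hab
      have : (b - a) * G0 a ≤ (b - a) * G0 b := by linarith
      exact le_of_mul_le_mul_left this hba)
    hdiff
  have hY0 : Y 0 = y := by funext i; simp [hY]
  have hY1 : Y 1 = z := by funext i; simp [hY]
  have h0S : (0 : ℝ) ∈ S := by
    change Function.Injective (Y 0)
    rw [hY0]; exact hy
  have h1S : (1 : ℝ) ∈ S := by
    change Function.Injective (Y 1)
    rw [hY1]; exact hz
  have hmain := htel 0 h0S 1 h1S one_pos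
  simp only [sub_zero, one_mul] at hmain
  -- endpoints
  have q1 : Ts 1 = ∑ i, ⟪bary K g z (cs 1) i, z i⟫ := by simp only [hTs]; rw [hY1]
  have q2 : T0 1 = ∑ i, ⟪bary K (fun _ => 1) z (c0 1) i, z i⟫ := by simp only [hT0]; rw [hY1]
  have q3 : Ts 0 = ∑ i, ⟪bary K g y (cs 0) i, y i⟫ := by simp only [hTs]; rw [hY0]
  have q4 : T0 0 = ∑ i, ⟪bary K (fun _ => 1) y (c0 0) i, y i⟫ := by simp only [hT0]; rw [hY0]
  have hgphi : ∀ (u : Eu d → ℝ), Continuous u →
      ∫ x in K, g x * u x = (∫ x in K, 1 * u x) + s * ∫ x in K, h x * u x := by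
    intro u hu
    have j1 : IntegrableOn (fun x => 1 * u x) K := by
      simp only [one_mul]
      exact continuous_integrableOn hKc Subset.rfl hu
    have j2 : IntegrableOn (fun x => h x * u x) K := integrableOn_bdd_mul hKc Subset.rfl hh hb hu
    rw [← integral_const_mul, ← integral_add j1 (j2.const_mul s)]
    congr 1
    funext x
    simp only [hg]; ring
  have hTs1 : (∫ x in K, g x * phi z e' x) + ∑ i, m i * e' i ≤ Ts 1 := by
    have e1 := strong_duality hKc hgm hgC hz e' he'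
    rw [← e1]
    have := cell_optimal hKc hgm hgC hg0 (y := Y 1) (y' := z) h1S hz (cs 1) e'
      (hcs 1 h1S).1 he'
    rw [q1]
    rw [hY1] at this
    exact this
  have hT01 : T0 1 ≤ (∫ x in K, 1 * phi z e' x) + ∑ i, m i * e' i := by
    have := weak_duality hKc h1m h1C h10 (y := z) (y' := Y 1) h1S e' (c0 1) (hcs 1 h1S).2
    rw [q2]
    rw [hY1] at this
    exact this
  have hTs0 : Ts 0 ≤ (∫ x in K, g x * phi y c x) + ∑ i, m i * c i := by
    have := weak_duality hKc hgm hgC hg0 (y := y) (y' := Y 0) h0S c (cs 0) (hcs 0 h0S).1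
    rw [q3]
    rw [hY0] at this
    exact this
  have hc' : ∀ i, ∫ x in cell K y c i, (fun _ : Eu d => (1 : ℝ)) x = m i := by
    intro i
    simp only
    rw [setIntegral_const, hc i]; simp
  have hT00 : (∫ x in K, 1 * phi y c x) + ∑ i, m i * c i ≤ T0 0 := by
    have e1 := strong_duality hKc h1m h1C hy c hc'
    rw [← e1]
    have := cell_optimal hKc h1m h1C h10 (y := Y 0) (y' := y) h0S hy (c0 0) c
      (hcs 0 h0S).2 hc'
    rw [q4]
    rw [hY0] at this
    exact this
  rw [hgphi _ (continuous_phi z e')] at hTs1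
  rw [hgphi _ (continuous_phi y c)] at hTs0
  linarith

end Crest.Agent.Helper7.OT
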